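import Vale.Agent.P032.Mean

/-! P032 transfer, part 4: an invariant probability measure on colourings, and jointly measurable
versions of continuous families in `L2`. -/

namespace Vale.Agent.P032

open Set Filter Topology MeasureTheory
open scoped CompactlySupported ENNReal

/-- The compact space of all colourings. -/
def Om (k : ℕ) : Type := ℂ → Fin k

instance (k : ℕ) : TopologicalSpace (Om k) := inferInstanceAs (TopologicalSpace (ℂ → Fin k))
instance (k : ℕ) : CompactSpace (Om k) := inferInstanceAs (CompactSpace (ℂ → Fin k))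
instance (k : ℕ) : T2Space (Om k) := inferInstanceAs (T2Space (ℂ → Fin k))
instance (k : ℕ) : MeasurableSpace (Om k) := borel _
instance (k : ℕ) : BorelSpace (Om k) := ⟨rfl⟩

theorem continuous_ev {k : ℕ} (z : ℂ) : Continuous fun c : Om k => c z :=
  continuous_apply (A := fun _ : ℂ => Fin k) z

/-- The right action of motions on colourings. -/
noncomputable def act {k : ℕ} (a : ℂ) (u : Circle) : Om k ≃ₜ Om k where
  toFun c := fun z => c (a + u * z)
  invFun c := fun z => c ((u⁻¹ : Circle) * (z - a))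
  left_inv c := by
    funext z
    simp
  right_inv c := by
    funext z
    simp
  continuous_toFun := continuous_pi (A := fun _ : ℂ => Fin k) fun _ => continuous_ev _
  continuous_invFun := continuous_pi (A := fun _ : ℂ => Fin k) fun _ => continuous_ev _

theorem act_apply {k : ℕ} (a : ℂ) (u : Circle) (c : Om k) (z : ℂ) :
    act a u c z = c (a + u * z) := rfl

theorem act_act {k : ℕ} (a b : ℂ) (u l : Circle) (c : Om k) :
    act b l (act a u c) = act (a + u * b) (u * l) c := by
  funext z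
  simp only [act_apply, Circle.coe_mul]
  congr 1
  ring

theorem exists_invariant_measure {k : ℕ} (c₀ : Om k) :
    ∃ μ : Measure (Om k), IsProbabilityMeasure μ ∧
      (∀ a u, MeasurePreserving (act a u) μ μ) ∧
      ∀ V : Set (Om k), IsClopen V → (∀ a u, act a u c₀ ∉ V) → μ V = 0 := by
  obtain ⟨M, hM, hMi⟩ := exists_invariant_mean ℝ
  obtain ⟨N, hN, hNi⟩ := exists_invariant_mean ℂ
  have hb : ∀ F : C_c(Om k, ℝ), ∃ C, ∀ c, |F c| ≤ C := fun F => by
    obtain ⟨C, hC⟩ := isCompact_univ.exists_bound_of_continuousOn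
      (f := F) F.continuous.continuousOn
    exact ⟨C, fun c => hC c (mem_univ _)⟩
  have hb1 : ∀ (F : C_c(Om k, ℝ)) (u : Circle), Bdd fun a => F (act a u c₀) := fun F u => by
    obtain ⟨C, hC⟩ := hb F
    exact ⟨C, fun a => hC _⟩
  have hb2 : ∀ F : C_c(Om k, ℝ), Bdd fun t => N fun a => F (act a (Circle.exp t) c₀) :=
    fun F => by
      obtain ⟨C, hC⟩ := hb F
      exact ⟨C, fun t => hN.abs_le fun a => hC _⟩
  let Λ : C_c(Om k, ℝ) →ₚ[ℝ] ℝ :=
    { toFun := fun F => M fun t => N fun a => F (act a (Circle.exp t) c₀)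
      map_add' := fun F G => by
        rw [← map_add]
        congr 1
        funext t
        rw [Pi.add_apply, ← map_add]
        rfl
      map_smul' := fun c F => by
        rw [RingHom.id_apply, ← map_smul]
        congr 1
        funext t
        rw [Pi.smul_apply, ← map_smul]
        rfl
      monotone' := fun F G hFG =>
        hM.mono (hb2 F) (hb2 G) fun t => hN.mono (hb1 F _) (hb1 G _) fun a => hFG _ }
  have hΛ : ∀ F, Λ F = M fun t => N fun a => F (act a (Circle.exp t) c₀) := fun _ => rfl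
  have hint := RealRMK.integral_rieszMeasure Λ
  refine ⟨RealRMK.rieszMeasure Λ, ?_, fun b l => ⟨(act b l).measurable, ?_⟩, ?_⟩
  · have h1 := hint ⟨1, HasCompactSupport.of_compactSpace _⟩
    rw [hΛ] at h1
    have h2 : (M fun t => N fun a => (1 : ℝ)) = 1 := by
      rw [hN.const, hM.const]
    constructor
    rw [← ENNReal.toReal_eq_one_iff]
    have h3 : ∫ _ : Om k, (1 : ℝ) ∂(RealRMK.rieszMeasure Λ) = 1 := h1.trans h2
    simpa [measureReal_def] using h3
  · have := Measure.Regular.map (μ := RealRMK.rieszMeasure Λ) (act b l)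
    refine Measure.ext_of_integral_eq_on_compactlySupported fun F => ?_
    rw [integral_map (act b l).measurable.aemeasurable (map_continuous F).aestronglyMeasurable]
    let G : C_c(Om k, ℝ) :=
      ⟨⟨fun c => F (act b l c), F.continuous.comp (act b l).continuous⟩,
        HasCompactSupport.of_compactSpace _⟩
    have h1 : ∫ c, F (act b l c) ∂(RealRMK.rieszMeasure Λ) = Λ G := hint G
    rw [h1, hint, hΛ, hΛ]
    obtain ⟨s, rfl⟩ := Circle.exp_surjective l
    rw [← hMi _ (hb2 F) s]
    congr 1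
    funext t
    rw [← hNi _ (hb1 F _) (Circle.exp t * b), Circle.exp_add]
    congr 1
    funext a
    exact congrArg F (act_act _ _ _ _ _)
  · intro V hV hc
    let G : C_c(Om k, ℝ) :=
      ⟨⟨V.indicator fun _ => 1, hV.continuous_indicator continuous_const⟩,
        HasCompactSupport.of_compactSpace _⟩
    have h1 : ∫ c, V.indicator (fun _ => (1 : ℝ)) c ∂(RealRMK.rieszMeasure Λ) = Λ G := hint G
    have h2 : Λ G = 0 := by
      rw [hΛ]
      have : ∀ t a, G (act a (Circle.exp t) c₀) = 0 := fun t a =>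
        indicator_of_notMem (hc a (Circle.exp t)) (fun _ => (1 : ℝ))
      simp only [this]
      rw [hN.const, hM.const]
    rw [h2, integral_indicator hV.isOpen.measurableSet] at h1
    simpa [measureReal_def, ENNReal.toReal_eq_zero_iff] using h1

theorem ae_tendsto_of_norm_le {Ω : Type*} [MeasurableSpace Ω] {μ : Measure Ω}
    [IsProbabilityMeasure μ] (f : ℕ → Lp ℝ 2 μ) (g : Lp ℝ 2 μ)
    (h : ∀ n, ‖f n - g‖ < (1 / 2) ^ n) :
    ∀ᵐ ω ∂μ, Tendsto (fun n => f n ω) atTop (𝓝 (g ω)) := by
  have hm : ∀ n, Measurable fun ω => ‖(f n - g) ω‖ₑ := fun n =>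
    (Lp.stronglyMeasurable (f n - g)).measurable.enorm
  have h1 : ∀ n, ∫⁻ ω, ‖(f n - g) ω‖ₑ ∂μ ≤ (2⁻¹ : ℝ≥0∞) ^ n := by
    intro n
    rw [← eLpNorm_one_eq_lintegral_enorm]
    refine (eLpNorm_le_eLpNorm_of_exponent_le (q := 2) one_le_two
      (Lp.aestronglyMeasurable _)).trans ?_
    rw [← Lp.enorm_def, ← ofReal_norm]
    refine (ENNReal.ofReal_le_ofReal (h n).le).trans (le_of_eq ?_)
    rw [ENNReal.ofReal_pow (by norm_num), one_div, ENNReal.ofReal_inv_of_pos (by norm_num)]
    simp
  have h2 : ∫⁻ ω, ∑' n, ‖(f n - g) ω‖ₑ ∂μ ≠ ∞ := by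
    rw [lintegral_tsum fun n => (hm n).aemeasurable]
    refine ne_top_of_le_ne_top ?_ (ENNReal.tsum_le_tsum h1)
    rw [ENNReal.tsum_geometric_two]
    simp
  have h3 := ae_lt_top (Measurable.tsum hm) h2
  have h4 : ∀ᵐ ω ∂μ, ∀ n, (f n - g) ω = f n ω - g ω :=
    ae_all_iff.2 fun n => Lp.coeFn_sub (f n) g
  filter_upwards [h3, h4] with ω h3 h4
  have h5 := ENNReal.tendsto_atTop_zero_of_tsum_ne_top h3.ne
  simp only [h4] at h5
  rwa [tendsto_iff_enorm_sub_tendsto_zero]

/-- A continuous family in `L2` has a jointly measurable version. -/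
theorem exists_measurable_version {Ω : Type*} [MeasurableSpace Ω] {μ : Measure Ω}
    [IsProbabilityMeasure μ] (F : ℂ → Lp ℝ 2 μ) (hF : Continuous F) :
    ∃ G : ℂ × Ω → ℝ, Measurable G ∧ ∀ a, ∀ᵐ ω ∂μ, G (a, ω) = F a ω := by
  classical
  let x : ℕ → ℂ := TopologicalSpace.denseSeq ℂ
  have hex : ∀ (n : ℕ) (p : ℂ × Ω), ∃ j, ‖F (x j) - F p.1‖ < (1 / 2) ^ n := by
    intro n p
    have h1 : IsOpen {b | ‖F b - F p.1‖ < (1 / 2) ^ n} :=
      isOpen_lt (by fun_prop) continuous_const
    exact (TopologicalSpace.denseRange_denseSeq ℂ).exists_mem_open h1 ⟨p.1, by simp⟩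
  let G : ℕ → ℂ × Ω → ℝ := fun n p => F (x (Nat.find (hex n p))) p.2
  have hG : ∀ n, Measurable (G n) := by
    intro n
    refine Measurable.find (f := fun j (p : ℂ × Ω) => F (x j) p.2)
      (p := fun j (p : ℂ × Ω) => ‖F (x j) - F p.1‖ < (1 / 2) ^ n)
      (fun j => (Lp.stronglyMeasurable (F (x j))).measurable.comp measurable_snd)
      (fun j => ?_) (hex n)
    have h1 : IsOpen {b | ‖F (x j) - F b‖ < (1 / 2) ^ n} :=
      isOpen_lt (by fun_prop) continuous_const
    exact measurable_fst h1.measurableSet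
  refine ⟨fun p => limsup (fun n => G n p) atTop, Measurable.limsup hG, fun a => ?_⟩
  have hex' : ∀ n : ℕ, ∃ j, ‖F (x j) - F a‖ < (1 / 2) ^ n := fun n => by
    have h1 : IsOpen {b | ‖F b - F a‖ < (1 / 2) ^ n} :=
      isOpen_lt (by fun_prop) continuous_const
    exact (TopologicalSpace.denseRange_denseSeq ℂ).exists_mem_open h1 ⟨a, by simp⟩
  filter_upwards [ae_tendsto_of_norm_le (fun n => F (x (Nat.find (hex' n)))) (F a)
    fun n => Nat.find_spec (hex' n)] with ω hω
  exact hω.limsup_eq

end Vale.Agent.P032
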