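import Mathlib

/-! P032 transfer, part 1: invariant means on abelian groups and a local mean on the line. -/

namespace Vale.Agent.P032

open Set

/-- Bounded real functions. -/
def Bdd {G : Type*} (f : G → ℝ) : Prop := ∃ C, ∀ x, |f x| ≤ C

theorem Bdd.add {G : Type*} {f g : G → ℝ} (hf : Bdd f) (hg : Bdd g) : Bdd (f + g) := by
  obtain ⟨C, hC⟩ := hf
  obtain ⟨D, hD⟩ := hg
  exact ⟨C + D, fun x => (abs_add_le _ _).trans (add_le_add (hC x) (hD x))⟩

theorem Bdd.smul {G : Type*} {f : G → ℝ} (c : ℝ) (hf : Bdd f) : Bdd (c • f) := by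
  obtain ⟨C, hC⟩ := hf
  refine ⟨|c| * C, fun x => ?_⟩
  rw [Pi.smul_apply, smul_eq_mul, abs_mul]
  exact mul_le_mul_of_nonneg_left (hC x) (abs_nonneg _)

theorem Bdd.neg {G : Type*} {f : G → ℝ} (hf : Bdd f) : Bdd (-f) := by
  obtain ⟨C, hC⟩ := hf
  exact ⟨C, fun x => by simpa using hC x⟩

theorem Bdd.sub {G : Type*} {f g : G → ℝ} (hf : Bdd f) (hg : Bdd g) : Bdd (f - g) := by
  rw [sub_eq_add_neg]
  exact hf.add hg.neg

theorem bdd_const {G : Type*} (c : ℝ) : Bdd (fun _ : G => c) := ⟨|c|, fun _ => le_rfl⟩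

theorem Bdd.mul {G : Type*} {f g : G → ℝ} (hf : Bdd f) (hg : Bdd g) : Bdd (f * g) := by
  obtain ⟨C, hC⟩ := hf
  obtain ⟨D, hD⟩ := hg
  refine ⟨C * D, fun x => ?_⟩
  rw [Pi.mul_apply, abs_mul]
  exact mul_le_mul (hC x) (hD x) (abs_nonneg _) ((abs_nonneg _).trans (hC x))

theorem Bdd.comp {G G' : Type*} {f : G → ℝ} (hf : Bdd f) (u : G' → G) : Bdd (fun x => f (u x)) := by
  obtain ⟨C, hC⟩ := hf
  exact ⟨C, fun x => hC _⟩

theorem bdd_sum {G ι : Type*} (s : Finset ι) (f : ι → G → ℝ) (hf : ∀ i ∈ s, Bdd (f i)) :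
    Bdd (∑ i ∈ s, f i) := by
  classical
  induction s using Finset.induction_on with
  | empty =>
    rw [Finset.sum_empty]
    exact bdd_const (G := G) 0
  | insert a s ha ih =>
    rw [Finset.sum_insert ha]
    exact (hf a (Finset.mem_insert_self _ _)).add
      (ih fun i hi => hf i (Finset.mem_insert_of_mem hi))

/-- A mean: a linear functional dominated by the supremum on bounded functions. -/
def IsMean {G : Type*} (M : (G → ℝ) →ₗ[ℝ] ℝ) : Prop :=
  ∀ f, Bdd f → ∀ C, (∀ x, f x ≤ C) → M f ≤ C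

namespace IsMean

variable {G : Type*} {M : (G → ℝ) →ₗ[ℝ] ℝ}

theorem ge (hM : IsMean M) {f : G → ℝ} (hf : Bdd f) {C : ℝ} (h : ∀ x, C ≤ f x) : C ≤ M f := by
  have := hM (-f) hf.neg (-C) fun x => by simpa using h x
  rw [map_neg] at this
  linarith

theorem const (hM : IsMean M) (c : ℝ) : M (fun _ => c) = c :=
  le_antisymm (hM _ (bdd_const c) c fun _ => le_rfl) (hM.ge (bdd_const c) fun _ => le_rfl)

theorem mono (hM : IsMean M) {f g : G → ℝ} (hf : Bdd f) (hg : Bdd g) (h : ∀ x, f x ≤ g x) :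
    M f ≤ M g := by
  have := hM (f - g) (hf.sub hg) 0 fun x => by simpa using h x
  rw [map_sub] at this
  linarith

theorem abs_le (hM : IsMean M) {f : G → ℝ} {C : ℝ} (h : ∀ x, |f x| ≤ C) : |M f| ≤ C :=
  _root_.abs_le.2 ⟨hM.ge ⟨C, h⟩ fun x => (_root_.abs_le.1 (h x)).1,
    hM f ⟨C, h⟩ C fun x => (_root_.abs_le.1 (h x)).2⟩

theorem sq_le (hM : IsMean M) {f : G → ℝ} (hf : Bdd f) : (M f) ^ 2 ≤ M (f * f) := by
  have h1 : Bdd (f * f - (2 * M f) • f) := (hf.mul hf).sub (hf.smul _)
  have h2 := hM.ge h1 (C := -(M f) ^ 2) fun x => by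
    simp only [Pi.sub_apply, Pi.mul_apply, Pi.smul_apply, smul_eq_mul]
    nlinarith [sq_nonneg (f x - M f)]
  rw [map_sub, map_smul, smul_eq_mul] at h2
  nlinarith

end IsMean

section Abelian

variable {G : Type*} [AddCommGroup G]

/-- Averaging over an arithmetic progression. -/
noncomputable def avgOp (s : G) (n : ℕ) : Module.End ℝ (G → ℝ) where
  toFun f := fun x => (∑ j ∈ Finset.range (n + 1), f (x + j • s)) / (n + 1)
  map_add' f g := by
    ext x
    simp only [Pi.add_apply, Finset.sum_add_distrib, add_div]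
  map_smul' c f := by
    ext x
    simp only [Pi.smul_apply, smul_eq_mul, RingHom.id_apply, ← Finset.mul_sum, mul_div_assoc]

theorem avgOp_apply (s : G) (n : ℕ) (f : G → ℝ) (x : G) :
    avgOp s n f x = (∑ j ∈ Finset.range (n + 1), f (x + j • s)) / (n + 1) := rfl

theorem avgOp_comm (s t : G) (n m : ℕ) : avgOp s n * avgOp t m = avgOp t m * avgOp s n := by
  ext f x
  simp only [Module.End.mul_apply, avgOp_apply,
    ← Finset.sum_div]
  rw [Finset.sum_comm, div_div, div_div, mul_comm]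
  congr 1
  refine Finset.sum_congr rfl fun i _ => Finset.sum_congr rfl fun j _ => ?_
  congr 1
  abel

theorem avgOp_le (s : G) (n : ℕ) (f : G → ℝ) (C : ℝ) (h : ∀ x, f x ≤ C) (x : G) :
    avgOp s n f x ≤ C := by
  rw [avgOp_apply, div_le_iff₀ (by positivity)]
  have := Finset.sum_le_card_nsmul (Finset.range (n + 1)) (fun j => f (x + j • s)) C
    fun j _ => h _
  simpa [mul_comm] using this

/-- The monoid generated by the averaging operators. -/
def avgMon (G : Type*) [AddCommGroup G] : Submonoid (Module.End ℝ (G → ℝ)) :=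
  Submonoid.closure {T | ∃ s n, T = avgOp s n}

theorem avgMon_le {T : Module.End ℝ (G → ℝ)} (hT : T ∈ avgMon G) (f : G → ℝ) (C : ℝ)
    (h : ∀ x, f x ≤ C) (x : G) : T f x ≤ C := by
  induction hT using Submonoid.closure_induction generalizing f x with
  | mem T hT =>
    obtain ⟨s, n, rfl⟩ := hT
    exact avgOp_le s n f C h x
  | one => exact h x
  | mul S T _ _ hS hT => exact hS (T f) (fun y => hT f h y) x

theorem avgMon_ge {T : Module.End ℝ (G → ℝ)} (hT : T ∈ avgMon G) (f : G → ℝ) (C : ℝ)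
    (h : ∀ x, C ≤ f x) (x : G) : C ≤ T f x := by
  have := avgMon_le hT (-f) (-C) (fun x => by simpa using h x) x
  rw [map_neg] at this
  simpa using this

theorem avgMon_comm {S T : Module.End ℝ (G → ℝ)} (hS : S ∈ avgMon G) (hT : T ∈ avgMon G) :
    S * T = T * S := by
  have key : ∀ s n, ∀ T ∈ avgMon G, avgOp s n * T = T * avgOp s n := by
    intro s n T hT
    induction hT using Submonoid.closure_induction with
    | mem T hT =>
      obtain ⟨t, m, rfl⟩ := hT
      exact avgOp_comm s t n m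
    | one => simp
    | mul S T _ _ hS hT => rw [← mul_assoc, hS, mul_assoc, hT, mul_assoc]
  induction hS using Submonoid.closure_induction with
  | mem S hS =>
    obtain ⟨s, n, rfl⟩ := hS
    exact key s n T hT
  | one => simp
  | mul S S' _ _ hS hS' => rw [mul_assoc, hS', ← mul_assoc, hS, mul_assoc]

/-- The submodule of bounded functions. -/
def bddSub (G : Type*) : Submodule ℝ (G → ℝ) where
  carrier := {f | Bdd f}
  add_mem' := Bdd.add
  zero_mem' := bdd_const 0
  smul_mem' c _ hf := Bdd.smul c hf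

/-- The set of upper bounds reachable after averaging. -/
def ubSet (f : G → ℝ) : Set ℝ := {C | ∃ T ∈ avgMon G, ∀ x, T f x ≤ C}

theorem ubSet_nonempty {f : G → ℝ} (hf : Bdd f) : (ubSet f).Nonempty := by
  obtain ⟨C, hC⟩ := hf
  exact ⟨C, 1, (avgMon G).one_mem, fun x => (abs_le.1 (hC x)).2⟩

theorem ubSet_bdd {f : G → ℝ} (hf : Bdd f) : BddBelow (ubSet f) := by
  obtain ⟨C, hC⟩ := hf
  refine ⟨-C, ?_⟩
  rintro D ⟨T, hT, hD⟩
  exact (avgMon_ge hT f (-C) (fun x => (abs_le.1 (hC x)).1) 0).trans (hD 0)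

theorem exists_invariant_mean (G : Type*) [AddCommGroup G] :
    ∃ M : (G → ℝ) →ₗ[ℝ] ℝ, IsMean M ∧ ∀ f, Bdd f → ∀ s, M (fun x => f (x + s)) = M f := by
  let N : bddSub G → ℝ := fun f => sInf (ubSet f.1)
  have Nle : ∀ (c : ℝ), 0 < c → ∀ f : bddSub G, N (c • f) ≤ c * N f := by
    intro c hc f
    rw [mul_comm, ← div_le_iff₀ hc]
    refine le_csInf (ubSet_nonempty f.2) ?_
    rintro D ⟨T, hT, hD⟩
    rw [div_le_iff₀ hc]
    refine csInf_le (ubSet_bdd (c • f).2) ⟨T, hT, fun x => ?_⟩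
    rw [Submodule.coe_smul, map_smul, Pi.smul_apply, smul_eq_mul, mul_comm]
    exact mul_le_mul_of_nonneg_right (hD x) hc.le
  have Nhom : ∀ (c : ℝ), 0 < c → ∀ f : bddSub G, N (c • f) = c * N f := by
    intro c hc f
    refine le_antisymm (Nle c hc f) ?_
    have := Nle c⁻¹ (inv_pos.2 hc) (c • f)
    rw [smul_smul, inv_mul_cancel₀ hc.ne', one_smul] at this
    calc c * N f ≤ c * (c⁻¹ * N (c • f)) := mul_le_mul_of_nonneg_left this hc.le
      _ = N (c • f) := by rw [← mul_assoc, mul_inv_cancel₀ hc.ne', one_mul]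
  have Nadd : ∀ f g : bddSub G, N (f + g) ≤ N f + N g := by
    intro f g
    rw [← sub_le_iff_le_add]
    refine le_csInf (ubSet_nonempty f.2) ?_
    rintro C ⟨T, hT, hC⟩
    rw [sub_le_comm]
    refine le_csInf (ubSet_nonempty g.2) ?_
    rintro D ⟨S, hS, hD⟩
    rw [sub_le_iff_le_add']
    refine csInf_le (ubSet_bdd (f + g).2) ⟨S * T, (avgMon G).mul_mem hS hT, fun x => ?_⟩
    rw [Submodule.coe_add, map_add, Pi.add_apply]
    refine add_le_add (avgMon_le hS _ C hC x) ?_
    rw [avgMon_comm hS hT]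
    exact avgMon_le hT _ D hD x
  obtain ⟨g, -, hg⟩ := exists_extension_of_le_sublinear
    ((0 : bddSub G →ₗ[ℝ] ℝ).toPMap ⊥) N Nhom Nadd (by
      rintro ⟨x, hx⟩
      have hx0 : x = 0 := by simpa using hx
      subst hx0
      have h2 := Nhom 2 (by norm_num) 0
      rw [smul_zero] at h2
      have : N 0 = 0 := by linarith
      simp [this])
  obtain ⟨M, hM⟩ := LinearMap.exists_extend g
  have hM' : ∀ f (hf : Bdd f), M f = g ⟨f, hf⟩ := fun f hf => by
    rw [← hM]
    rfl
  have hmean : IsMean M := by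
    intro f hf C hC
    rw [hM' f hf]
    exact (hg _).trans (csInf_le (ubSet_bdd hf) ⟨1, (avgMon G).one_mem, hC⟩)
  have hinv : ∀ f, Bdd f → ∀ s, M (fun x => f (x + s)) ≤ M f := by
    intro f hf s
    have hb : Bdd ((fun x => f (x + s)) - f) := (hf.comp _).sub hf
    have h1 : M ((fun x => f (x + s)) - f) ≤ 0 := by
      rw [hM' _ hb]
      refine (hg _).trans ?_
      obtain ⟨C, hC⟩ := hf
      refine le_of_forall_pos_le_add fun ε hε => ?_
      obtain ⟨n, hn⟩ := exists_nat_gt (2 * C / ε)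
      refine csInf_le (ubSet_bdd hb) ⟨avgOp s n, Submonoid.subset_closure ⟨s, n, rfl⟩, fun x => ?_⟩
      rw [avgOp_apply]
      have h3 : ∑ j ∈ Finset.range (n + 1), ((fun x => f (x + s)) - f) (x + j • s)
          = f (x + (n + 1) • s) - f (x + 0 • s) := by
        rw [← Finset.sum_range_sub (fun j => f (x + j • s))]
        refine Finset.sum_congr rfl fun j _ => ?_
        simp only [Pi.sub_apply, add_assoc, succ_nsmul]
      rw [h3, zero_add, div_le_iff₀ (by positivity)]
      rw [div_lt_iff₀ hε] at hn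
      have h4 := abs_le.1 (hC (x + (n + 1) • s))
      have h5 := abs_le.1 (hC (x + 0 • s))
      nlinarith
    rw [map_sub] at h1
    linarith
  refine ⟨M, hmean, fun f hf s => le_antisymm (hinv f hf s) ?_⟩
  have := hinv (fun x => f (x + s)) (hf.comp _) (-s)
  simpa using this

end Abelian

/-- A mean on the line that only sees `[0,1)` and is almost invariant under small shifts. -/
theorem exists_local_mean :
    ∃ m : (ℝ → ℝ) →ₗ[ℝ] ℝ, IsMean m ∧
      (∀ F G : ℝ → ℝ, (∀ y, 0 ≤ y → y < 1 → F y = G y) → m F = m G) ∧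
      ∀ (F : ℝ → ℝ) (C : ℝ), (∀ y, |F y| ≤ C) → ∀ h, |h| ≤ 1 →
        |m (fun y => F (y + h)) - m F| ≤ 16 * |h| * C := by
  obtain ⟨M, hM, hinv⟩ := exists_invariant_mean ℝ
  let w : ℝ → ℝ := fun t => 1 - Real.cos (2 * Real.pi * t)
  have w0 : ∀ t, 0 ≤ w t := fun t => sub_nonneg.2 (Real.cos_le_one _)
  have wb : Bdd w := ⟨2, fun t => by
    rw [abs_of_nonneg (w0 t)]
    have := Real.neg_one_le_cos (2 * Real.pi * t)
    simp only [w]
    linarith⟩
  have wlip : ∀ s t, |w s - w t| ≤ 8 * |s - t| := by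
    intro s t
    have h1 := Real.abs_cos_sub_cos_le (2 * Real.pi * t) (2 * Real.pi * s)
    have h2 : w s - w t = Real.cos (2 * Real.pi * t) - Real.cos (2 * Real.pi * s) := by
      simp only [w]
      ring
    rw [h2]
    refine h1.trans ?_
    rw [← mul_sub, abs_mul, abs_sub_comm t s, abs_of_pos (by positivity)]
    have := Real.pi_le_four
    exact mul_le_mul_of_nonneg_right (by linarith) (abs_nonneg _)
  have wint : ∀ n : ℤ, w n = 0 := by
    intro n
    simp only [w]
    rw [mul_comm, Real.cos_int_mul_two_pi]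
    simp
  have Mw : M w = 1 := by
    have h1 := hinv w wb (1 / 2)
    have h2 : w + (fun x => w (x + 1 / 2)) = fun _ => 2 := by
      ext t
      simp only [w, Pi.add_apply]
      rw [show 2 * Real.pi * (t + 1 / 2) = 2 * Real.pi * t + Real.pi by ring, Real.cos_add_pi]
      ring
    have h3 := congrArg M h2
    rw [map_add, h1, hM.const] at h3
    linarith
  let L : (ℝ → ℝ) →ₗ[ℝ] (ℝ → ℝ) :=
    { toFun := fun F t => w t * F (Int.fract t)
      map_add' := fun F G => by
        ext t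
        simp [mul_add]
      map_smul' := fun c F => by
        ext t
        simp only [Pi.smul_apply, smul_eq_mul, RingHom.id_apply]
        ring }
  have hL : ∀ F t, L F t = w t * F (Int.fract t) := fun _ _ => rfl
  have Lb : ∀ F, Bdd F → Bdd (L F) := fun F hF => wb.mul (hF.comp Int.fract)
  have key : ∀ (F : ℝ → ℝ) (C : ℝ), (∀ y, |F y| ≤ C) → ∀ h, 0 ≤ h → h ≤ 1 →
      |M (L (fun y => F (y + h))) - M (L F)| ≤ 16 * h * C := by
    intro F C hC h h0 h1
    have C0 : 0 ≤ C := (abs_nonneg _).trans (hC 0)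
    rw [← hinv (L F) (Lb F ⟨C, hC⟩) h, ← map_sub]
    refine hM.abs_le fun t => ?_
    simp only [Pi.sub_apply, hL]
    by_cases ht : Int.fract t + h < 1
    · have h2 : Int.fract (t + h) = Int.fract t + h := by
        rw [Int.fract_eq_iff]
        refine ⟨add_nonneg (Int.fract_nonneg t) h0, ht, ⌊t⌋, ?_⟩
        rw [Int.fract]
        ring
      rw [h2, ← sub_mul, abs_mul]
      have h3 := wlip t (t + h)
      rw [show t - (t + h) = -h by ring, abs_neg, abs_of_nonneg h0] at h3
      calc _ ≤ 8 * h * C := mul_le_mul h3 (hC _) (abs_nonneg _) (by positivity)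
        _ ≤ 16 * h * C := by nlinarith [mul_nonneg h0 C0]
    · have hf : Int.fract t = t - ⌊t⌋ := rfl
      have hlt := Int.fract_lt_one t
      have h3 := wlip t ((⌊t⌋ + 1 : ℤ) : ℝ)
      have h4 := wlip (t + h) ((⌊t⌋ + 1 : ℤ) : ℝ)
      rw [wint, sub_zero] at h3 h4
      push_cast at h3 h4
      have h5 : |t - (⌊t⌋ + 1)| ≤ h := abs_le.2 ⟨by linarith, by linarith⟩
      have h6 : |t + h - (⌊t⌋ + 1)| ≤ h := abs_le.2 ⟨by linarith, by linarith⟩
      refine (abs_sub _ _).trans ?_
      rw [abs_mul, abs_mul]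
      have h7 : |w t| * |F (Int.fract t + h)| ≤ 8 * h * C :=
        mul_le_mul (by linarith) (hC _) (abs_nonneg _) (by positivity)
      have h8 : |w (t + h)| * |F (Int.fract (t + h))| ≤ 8 * h * C :=
        mul_le_mul (by linarith) (hC _) (abs_nonneg _) (by positivity)
      linarith
  refine ⟨M ∘ₗ L, ?_, ?_, ?_⟩
  · intro F hF C hC
    have h1 := hM.mono (Lb F hF) (wb.smul C) fun t => by
      rw [hL, Pi.smul_apply, smul_eq_mul, mul_comm C]
      exact mul_le_mul_of_nonneg_left (hC _) (w0 t)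
    rw [map_smul, Mw, smul_eq_mul, mul_one] at h1
    exact h1
  · intro F G hFG
    have : L F = L G := by
      ext t
      rw [hL, hL, hFG _ (Int.fract_nonneg t) (Int.fract_lt_one t)]
    simp only [LinearMap.comp_apply, this]
  · intro F C hC h hh
    simp only [LinearMap.comp_apply]
    rcases le_total 0 h with h0 | h0
    · rw [abs_of_nonneg h0] at hh ⊢
      exact key F C hC h h0 hh
    · rw [abs_of_nonpos h0] at hh ⊢
      have := key (fun y => F (y + h)) C (fun y => hC _) (-h) (by linarith) hh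
      simp only [neg_add_cancel_right] at this
      rw [abs_sub_comm]
      exact this

end Vale.Agent.P032
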