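import Mathlib

/-! P032 part B, tools: almost everywhere avoidance and the local density estimate. -/

namespace Vale.Agent.P032

open MeasureTheory Complex Metric Set Filter Topology

/-- The point of the unit circle with angle `t`. -/
noncomputable def msE (t : ℝ) : ℂ := exp (t * I)

lemma msE_cont : Continuous msE := by unfold msE; fun_prop

lemma msE_norm (t : ℝ) : ‖msE t‖ = 1 := norm_exp_ofReal_mul_I t

lemma msE_add (s t : ℝ) : msE (s + t) = msE s * msE t := by
  simp only [msE, ofReal_add, add_mul, exp_add]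

lemma msE_pi (t : ℝ) : msE (t + Real.pi) = -msE t := by
  rw [msE_add, show msE Real.pi = -1 from exp_pi_mul_I, mul_neg_one]

lemma msE_sub (a b : ℝ) :
    msE a - msE b = (2 * Real.sin ((a - b) / 2) : ℝ) * msE ((a + b) / 2 + Real.pi / 2) := by
  have h1 : msE a = msE ((a + b) / 2) * msE ((a - b) / 2) := by rw [← msE_add]; congr 1; ring
  have h2 : msE b = msE ((a + b) / 2) * msE (-((a - b) / 2)) := by rw [← msE_add]; congr 1; ring
  have h3 : msE (Real.pi / 2) = I := by simp [msE, exp_mul_I]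
  rw [h1, h2, msE_add, h3]
  generalize (a - b) / 2 = d
  simp only [msE, exp_mul_I, ofReal_neg, cos_neg, sin_neg, ofReal_mul, ofReal_sin, ofReal_ofNat]
  ring

lemma msE_dist (a b : ℝ) : ‖msE a - msE b‖ ≤ |a - b| := by
  rw [msE_sub, norm_mul, msE_norm, mul_one, norm_real, Real.norm_eq_abs, abs_mul, abs_two]
  have := Real.abs_sin_le_abs (x := (a - b) / 2)
  rw [abs_div, abs_two] at this
  linarith

lemma msE_comb (α β u v : ℝ) : |α| * |Real.sin (u - v)| ≤ ‖α * msE u + β * msE v‖ := by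
  have h : (α * msE u + β * msE v) * msE (-v) = α * msE (u - v) + β := by
    rw [add_mul, mul_assoc, mul_assoc, ← msE_add, ← msE_add, add_neg_cancel, sub_eq_add_neg]
    simp [msE]
  rw [← mul_one ‖_‖, ← msE_norm (-v), ← norm_mul, h, ← abs_mul]
  refine le_trans (le_of_eq ?_) (abs_im_le_norm _)
  simp [msE, -ofReal_sub, exp_ofReal_mul_I_im]

lemma ms_sin_lower {d : ℝ} (h : |d| ≤ 1) : |d| ≤ 2 * |2 * Real.sin (d / 2)| := by
  have h1 : |d / 2| ≤ Real.pi / 2 := by
    rw [abs_div, abs_two]; linarith [Real.pi_gt_three]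
  have h2 := Real.mul_abs_le_abs_sin h1
  have h3 : 1 / 2 ≤ 2 / Real.pi := by
    rw [div_le_div_iff₀ two_pos Real.pi_pos]; linarith [Real.pi_le_four]
  rw [abs_div, abs_two] at h2
  rw [abs_mul, abs_two]
  nlinarith [abs_nonneg d]

/-- The two step map is expanding on a small box. -/
lemma ms_anti {c r f0 s0 : ℝ} (hr : r ≤ c / 4) (hc : c ≤ |Real.sin (f0 - s0)|) {p q : ℝ × ℝ}
    (hp : p ∈ closedBall (f0, s0) r) (hq : q ∈ closedBall (f0, s0) r) :
    c * dist p q ≤ 4 * ‖(msE p.1 + msE p.2) - (msE q.1 + msE q.2)‖ := by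
  rw [← closedBall_prod_same, mem_prod, mem_closedBall, mem_closedBall, Real.dist_eq,
    Real.dist_eq, abs_le, abs_le] at hp hq
  have hc1 : c ≤ 1 := hc.trans (Real.abs_sin_le_one _)
  have hc0 : 0 ≤ c := by linarith [hp.1.1, hp.1.2]
  set u := (p.1 + q.1) / 2 + Real.pi / 2
  set v := (p.2 + q.2) / 2 + Real.pi / 2
  have huv : c / 2 ≤ |Real.sin (u - v)| := by
    have h1 := Real.abs_sin_sub_sin_le (f0 - s0) (u - v)
    have h2 : |f0 - s0 - (u - v)| ≤ c / 2 := by
      rw [abs_le]; constructor <;> simp only [u, v] <;> linarith [hp.1.1, hp.1.2, hp.2.1, hp.2.2]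
    linarith [abs_sub_abs_le_abs_sub (Real.sin (f0 - s0)) (Real.sin (u - v))]
  rw [add_sub_add_comm, msE_sub, msE_sub]
  set α := 2 * Real.sin ((p.1 - q.1) / 2)
  set β := 2 * Real.sin ((p.2 - q.2) / 2)
  have h1 := msE_comb α β u v
  have h2 := msE_comb β α v u
  rw [add_comm, ← neg_sub u v, Real.sin_neg, abs_neg] at h2
  have h3 : |p.1 - q.1| ≤ 2 * |α| := ms_sin_lower (by rw [abs_le]; constructor <;> linarith)
  have h4 : |p.2 - q.2| ≤ 2 * |β| := ms_sin_lower (by rw [abs_le]; constructor <;> linarith)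
  rw [Prod.dist_eq, Real.dist_eq, Real.dist_eq, mul_max_of_nonneg _ _ hc0, max_le_iff]
  constructor
  · nlinarith [abs_nonneg α, mul_le_mul_of_nonneg_left huv (abs_nonneg α)]
  · nlinarith [abs_nonneg β, mul_le_mul_of_nonneg_left huv (abs_nonneg β)]

/-- Expanding maps do not shrink measure too much. -/
lemma ms_vol {S : Set (ℝ × ℝ)} {D : Set ℂ} {Φ : ℝ × ℝ → ℂ} {K : NNReal}
    (h : ∀ p ∈ S, ∀ q ∈ S, dist p q ≤ K * ‖Φ p - Φ q‖) (hD : ∀ p ∈ S, Φ p ∈ D) :
    volume S ≤ ((2 * K : NNReal) : ENNReal) ^ 2 * volume D := by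
  let Ψ : S → ℝ × ℝ := fun p => measurableEquivRealProd (Φ p)
  have hΨ : AntilipschitzWith (2 * K) Ψ := AntilipschitzWith.of_le_mul_dist fun p q => by
    refine (h p p.2 q q.2).trans ?_
    have := norm_le_abs_re_add_abs_im (Φ p - Φ q)
    have h1 : |(Φ p - Φ q).re| ≤ dist (Ψ p) (Ψ q) := le_max_left _ _
    have h2 : |(Φ p - Φ q).im| ≤ dist (Ψ p) (Ψ q) := le_max_right _ _
    push_cast
    nlinarith [K.coe_nonneg]
  have h1 := hΨ.le_hausdorffMeasure_image (d := 2) zero_le_two univ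
  rw [← isometry_subtype_coe.hausdorffMeasure_image (Or.inl zero_le_two), Subtype.coe_image_univ,
    hausdorffMeasure_prod_real, ENNReal.rpow_two] at h1
  refine h1.trans (mul_le_mul_right ?_ _)
  rw [← volume_preserving_equiv_real_prod.symm.measure_preimage_equiv D]
  refine measure_mono ?_
  rintro _ ⟨p, -, rfl⟩
  simpa [Ψ] using hD p p.2

/-- Centres of unit circles that almost miss `A`. -/
def msZ (A : Set ℂ) : Set ℂ := {x | ∀ᵐ t : ℝ, x + msE t ∉ A}

lemma msZ_anti {A B : Set ℂ} (h : A ⊆ B) : msZ B ⊆ msZ A := fun x hx =>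
  (show ∀ᵐ t : ℝ, x + msE t ∉ B from hx).mono fun _ ht h' => ht (h h')

lemma ms_meas2 {A : Set ℂ} (hA : MeasurableSet A) :
    MeasurableSet {p : ℂ × ℝ | p.1 + msE p.2 ∈ A} :=
  (continuous_fst.add (msE_cont.comp continuous_snd)).measurable hA

lemma msZ_meas {A : Set ℂ} (hA : MeasurableSet A) : MeasurableSet (msZ A) := by
  have := measurable_measure_prodMk_left (ν := (volume : Measure ℝ)) (ms_meas2 hA)
  convert this (measurableSet_singleton 0) using 1
  ext x
  simp [msZ, ae_iff]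

lemma ms_symm {A B : Set ℂ} (hA : MeasurableSet A) (hB : MeasurableSet B)
    (h : ∀ᵐ x, x ∈ A → x ∈ msZ B) : ∀ᵐ x, x ∈ B → x ∈ msZ A := by
  have key : ∀ {A B : Set ℂ}, MeasurableSet A → MeasurableSet B →
      ((∀ᵐ x, x ∈ A → x ∈ msZ B) ↔ ∀ᵐ t : ℝ, ∀ᵐ x, x ∈ A → x + msE t ∉ B) := by
    intro A B hA hB
    rw [← Measure.ae_ae_comm (p := fun x t => x ∈ A → x + msE t ∉ B)
      ((measurable_fst hA).imp (ms_meas2 hB).compl)]
    simp only [msZ, mem_ofPred_eq, eventually_imp_distrib_left]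
  rw [key hA hB] at h
  rw [key hB hA]
  have h' := (measurePreserving_add_right volume Real.pi).quasiMeasurePreserving.ae h
  filter_upwards [h'] with t ht
  filter_upwards [(measurePreserving_add_right volume (msE t)).quasiMeasurePreserving.ae ht]
    with x hx h1 h2
  exact hx h2 (by rwa [msE_pi, add_neg_cancel_right])

lemma ms_null {p : ℂ → Prop} (h : ∀ᵐ z, p z) : ∀ᵐ x, ∀ᵐ t : ℝ, p (x + msE t) := by
  obtain ⟨E, h1, h2, h3⟩ := exists_measurable_superset_of_null (ae_iff.1 h)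
  have := ms_symm h2 MeasurableSet.univ (by
    filter_upwards [measure_eq_zero_iff_ae_notMem.1 h3] with x hx h using absurd h hx)
  filter_upwards [this] with x hx
  filter_upwards [hx trivial] with t ht
  by_contra h
  exact ht (h1 h)

/-- Density points. -/
def msDens (B : Set ℂ) : Set ℂ := {z | Tendsto
  (fun r => volume (Bᶜ ∩ closedBall z r) / volume (closedBall z r)) (𝓝[>] 0) (𝓝 0)}

lemma ms_dens {B : Set ℂ} (hB : MeasurableSet B) : ∀ᵐ z, z ∈ B → z ∈ msDens B := by
  filter_upwards [Besicovitch.ae_tendsto_measure_inter_div_of_measurableSet volume hB.compl]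
    with z hz h
  rwa [indicator_of_notMem (by simpa using h)] at hz

lemma ms_dens_le {B : Set ℂ} {z : ℂ} (hz : z ∈ msDens B) {η : ℝ} (hη : 0 < η) :
    ∀ᶠ r in 𝓝[>] (0 : ℝ), volume (Bᶜ ∩ closedBall z (3 * r)) ≤ ENNReal.ofReal (η * r ^ 2) := by
  have h3 : Tendsto (fun r : ℝ => 3 * r) (𝓝[>] 0) (𝓝[>] 0) :=
    tendsto_nhdsWithin_iff.2 ⟨by
      have : Tendsto (fun r : ℝ => 3 * r) (𝓝 0) (𝓝 (3 * 0)) := tendsto_id.const_mul 3
      rw [mul_zero] at this
      exact this.mono_left nhdsWithin_le_nhds,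
      eventually_mem_nhdsWithin.mono fun r hr => mem_Ioi.2 (mul_pos three_pos (mem_Ioi.1 hr))⟩
  have h36 : 0 < η / 36 := by positivity
  filter_upwards [(Tendsto.comp hz h3).eventually (gt_mem_nhds (ENNReal.ofReal_pos.2 h36)),
    self_mem_nhdsWithin] with r hr (h0 : 0 < r)
  have hv : volume (closedBall z (3 * r)) ≤ ENNReal.ofReal (36 * r ^ 2) := by
    rw [Complex.volume_closedBall, ← ENNReal.ofReal_pow (by positivity), ← ENNReal.ofReal_coe_nnreal,
      ← ENNReal.ofReal_mul (by positivity)]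
    refine ENNReal.ofReal_le_ofReal ?_
    rw [NNReal.coe_real_pi]
    nlinarith [Real.pi_le_four, sq_nonneg r]
  have h1 := (ENNReal.div_le_iff (measure_closedBall_pos volume z (by positivity)).ne'
    measure_closedBall_lt_top.ne).1 hr.le
  refine h1.trans ((mul_le_mul_right hv _).trans (le_of_eq ?_))
  rw [← ENNReal.ofReal_mul h36.le]
  congr 1
  ring

/-- The local estimate near a centre whose circle passes through a density point. -/
lemma ms_local {B : Set ℂ} (hB : MeasurableSet B) {x : ℂ} {s c : ℝ} (hz : x + msE s ∈ msDens B)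
    (hc : 0 < c) : ∀ᶠ r in 𝓝[>] (0 : ℝ), ∀ y f0, ‖y + msE f0 - x‖ ≤ r → c ≤ |Real.sin (f0 - s)| →
      volume {f ∈ closedBall f0 r | y + msE f ∈ msZ B} ≤ ENNReal.ofReal (r / 5) := by
  have hη : 0 < c ^ 2 / 160 := by positivity
  filter_upwards [ms_dens_le hz hη, Ioc_mem_nhdsGT (show (0 : ℝ) < c / 4 by positivity)]
    with r hr hr' y f0 hy hf0
  set F := {f ∈ closedBall f0 r | y + msE f ∈ msZ B} with hF
  have hcont : Continuous fun p : ℝ × ℝ => y + msE p.1 + msE p.2 :=
    (continuous_const.add (msE_cont.comp continuous_fst)).add (msE_cont.comp continuous_snd)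
  have hFm : MeasurableSet F :=
    measurableSet_closedBall.inter ((continuous_const.add msE_cont).measurable (msZ_meas hB))
  set N := {p : ℝ × ℝ | p.1 ∈ F ∧ y + msE p.1 + msE p.2 ∈ B} with hN
  have hN0 : volume N = 0 := by
    have hNm : MeasurableSet N := (measurable_fst hFm).inter (hcont.measurable hB)
    rw [Measure.volume_eq_prod, Measure.measure_prod_null hNm]
    refine Eventually.of_forall fun f => ?_
    by_cases h : f ∈ F
    · exact measure_mono_null (fun a ha => ha.2) (measure_eq_zero_iff_ae_notMem.2 h.2)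
    · exact measure_mono_null (fun a ha => absurd ha.1 h) measure_empty
  have h1 := ms_vol (S := (F ×ˢ closedBall s r) \ N) (D := Bᶜ ∩ closedBall (x + msE s) (3 * r))
    (Φ := fun p => y + msE p.1 + msE p.2) (K := NNReal.mk (4 / c) (by positivity)) (fun p hp q hq => by
      have := ms_anti hr'.2 hf0 (p := p) (q := q)
        (by rw [← closedBall_prod_same]; exact ⟨hp.1.1.1, hp.1.2⟩)
        (by rw [← closedBall_prod_same]; exact ⟨hq.1.1.1, hq.1.2⟩)
      rw [NNReal.coe_mk, div_mul_eq_mul_div, le_div_iff₀ hc, mul_comm, add_assoc, add_assoc,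
        add_sub_add_left_eq_sub]
      exact this) (fun p hp => ⟨fun h => hp.2 ⟨hp.1.1, h⟩, by
      have h1 := (msE_dist p.1 f0).trans hp.1.1.1
      have h2 := (msE_dist p.2 s).trans hp.1.2
      rw [mem_closedBall, dist_eq_norm, show y + msE p.1 + msE p.2 - (x + msE s) =
        (y + msE f0 - x) + (msE p.1 - msE f0) + (msE p.2 - msE s) by ring]
      linarith [norm_add₃_le (a := y + msE f0 - x) (b := msE p.1 - msE f0) (c := msE p.2 - msE s)]⟩)
  rw [measure_sdiff_null hN0, Measure.volume_eq_prod, Measure.prod_prod, Real.volume_closedBall] at h1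
  have h0 : 0 < r := hr'.1
  have h2 := h1.trans (mul_le_mul_right hr _)
  rw [← ENNReal.ofReal_coe_nnreal, ← ENNReal.ofReal_pow (by positivity),
    ← ENNReal.ofReal_mul (by positivity)] at h2
  rw [← ENNReal.mul_le_mul_iff_left (ENNReal.ofReal_pos.2 (mul_pos two_pos h0)).ne'
    ENNReal.ofReal_ne_top, ← ENNReal.ofReal_mul (by positivity)]
  refine h2.trans (le_of_eq ?_)
  congr 1
  simp only [NNReal.coe_mul, NNReal.coe_ofNat, NNReal.coe_mk]
  field_simp
  ring

lemma ms_two {T : Set ℝ} (hT : volume T ≠ 0) :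
    ∃ s1 ∈ T, ∃ s2 ∈ T, Real.sin (s1 - s2) ≠ 0 := by
  obtain ⟨s1, h1⟩ := nonempty_of_measure_ne_zero hT
  by_contra h
  push Not at h
  refine hT (measure_mono_null (t := range fun n : ℤ => s1 - n * Real.pi) (fun s2 h2 => ?_)
    ((countable_range _).measure_zero _))
  obtain ⟨n, hn⟩ := Real.sin_eq_zero_iff.1 (h s1 h1 s2 h2)
  exact ⟨n, by simp only [hn]; ring⟩

lemma ms_one (f s1 s2 : ℝ) : |Real.sin (s1 - s2)| / 2 ≤ |Real.sin (f - s1)| ∨
    |Real.sin (s1 - s2)| / 2 ≤ |Real.sin (f - s2)| := by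
  by_contra h
  push Not at h
  have h1 : Real.sin (s1 - s2) = Real.sin (f - s2) * Real.cos (f - s1) -
      Real.cos (f - s2) * Real.sin (f - s1) := by rw [← Real.sin_sub]; congr 1; ring
  have h2 := abs_sub (Real.sin (f - s2) * Real.cos (f - s1)) (Real.cos (f - s2) * Real.sin (f - s1))
  rw [← h1, abs_mul, abs_mul] at h2
  nlinarith [Real.abs_cos_le_one (f - s1), Real.abs_cos_le_one (f - s2), abs_nonneg (Real.sin (f - s1)),
    abs_nonneg (Real.sin (f - s2)), abs_nonneg (Real.cos (f - s1)), abs_nonneg (Real.cos (f - s2))]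

/-- Uniform version: the circle about `x` meets the density points of `B` in positive length. -/
lemma ms_local2 {B : Set ℂ} (hB : MeasurableSet B) {x : ℂ} (hx : x ∉ msZ (msDens B)) :
    ∀ᶠ r in 𝓝[>] (0 : ℝ), ∀ y f0, ‖y + msE f0 - x‖ ≤ r →
      volume {f ∈ closedBall f0 r | y + msE f ∈ msZ B} ≤ ENNReal.ofReal (r / 5) := by
  obtain ⟨s1, h1, s2, h2, h⟩ := ms_two (T := {t | x + msE t ∈ msDens B})
    (fun h => hx (measure_eq_zero_iff_ae_notMem.1 h))
  have hc : 0 < |Real.sin (s1 - s2)| / 2 := half_pos (abs_pos.2 h)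
  filter_upwards [ms_local hB h1 hc, ms_local hB h2 hc] with r k1 k2 y f0 hy
  exact (ms_one f0 s1 s2).elim (k1 y f0 hy) (k2 y f0 hy)

lemma msE_arg (w : ℂ) : w = ‖w‖ * msE (arg w) := (norm_mul_exp_arg_mul_I w).symm

/-- The key step: in every open set some colour avoids a whole disc. -/
lemma ms_step {B : Fin 5 → Set ℂ} (hm : ∀ i, MeasurableSet (B i)) (hc : ∀ᵐ x, ∃ i, x ∈ B i)
    (hav : ∀ i, ∀ᵐ x, x ∈ B i → x ∈ msZ (B i)) {W : Set ℂ} (hW : IsOpen W) (hne : W.Nonempty) :
    ∃ i, ∃ x ∈ W, ∀ᶠ r in 𝓝[>] (0 : ℝ), ∀ᵐ z, z ∈ ball x r → z ∈ msZ (B i) := by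
  classical
  let U : Finset (Fin 5) → Set ℂ := fun J => {x ∈ W | ∀ j ∈ J, x ∉ msZ (B j)}
  have hUm : ∀ J, MeasurableSet (U J) := fun J => by
    have := hW.measurableSet.inter
      (Finset.measurableSet_biInter J fun j _ => (msZ_meas (hm j)).compl)
    convert this using 1
    ext x; simp [U]
  obtain ⟨J, hJ, hmax⟩ := Finset.exists_max_image (Finset.univ.filter fun J => volume (U J) ≠ 0)
    Finset.card ⟨∅, by simpa [U] using (hW.measure_pos volume hne).ne'⟩
  rw [Finset.mem_filter] at hJ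
  obtain ⟨i, hi⟩ : ∃ i, i ∉ J := by
    by_contra h
    push Not at h
    refine hJ.2 (measure_eq_zero_iff_ae_notMem.2 ?_)
    filter_upwards [hc, ae_all_iff.2 hav] with x ⟨i, h1⟩ h2 h3 using h3.2 i (h i) (h2 i h1)
  have h1 : ∀ᵐ x, x ∈ U J → x ∈ msZ (B i) := by
    have : volume (U (insert i J)) = 0 := by
      by_contra h
      have := hmax (insert i J) (Finset.mem_filter.2 ⟨Finset.mem_univ _, h⟩)
      rw [Finset.card_insert_of_notMem hi] at this
      omega
    filter_upwards [measure_eq_zero_iff_ae_notMem.1 this] with x hx h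
    by_contra h'
    exact hx ⟨h.1, fun j hj => (Finset.mem_insert.1 hj).elim (fun e => e ▸ h') (h.2 j)⟩
  have h2 := ms_symm (hUm J) (hm i) h1
  have h3 : ∀ᵐ x, ∀ j, x ∉ msZ (B j) → x ∉ msZ (msDens (B j)) := ae_all_iff.2 fun j => by
    filter_upwards [ms_null (ms_dens (hm j))] with x hx k1 k2
    refine k1 (show ∀ᵐ t : ℝ, _ from ?_)
    filter_upwards [hx, k2] with t a b c using b (a c)
  obtain ⟨x, hx, h4⟩ := Measure.exists_mem_of_measure_ne_zero_of_ae hJ.2 (ae_restrict_of_ae h3)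
  refine ⟨i, x, hx.1, ?_⟩
  have h5 := (eventually_all_finset J).2 fun j hj => ms_local2 (hm j) (h4 j (hx.2 j hj))
  obtain ⟨ρ, hρ, hρW⟩ := Metric.nhds_basis_closedBall.mem_iff.1 (hW.mem_nhds hx.1)
  filter_upwards [h5, Ioc_mem_nhdsGT (half_pos hρ)] with r h6 hr
  have h7 : ∀ y, |‖x - y‖ - 1| ≤ r → y ∉ msZ (U J) := by
    intro y hy hy'
    set f0 := arg (x - y)
    have k1 : ‖y + msE f0 - x‖ ≤ r := by
      have : y + msE f0 - x = -((‖x - y‖ - 1 : ℝ) * msE f0) := by
        have := msE_arg (x - y)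
        push_cast
        linear_combination -this
      rwa [this, norm_neg, norm_mul, msE_norm, mul_one, norm_real]
    have k2 : closedBall f0 r ≤ᵐ[volume]
        (⋃ j ∈ J, {f ∈ closedBall f0 r | y + msE f ∈ msZ (B j)} : Set ℝ) := by
      filter_upwards [hy'] with f hf (h : f ∈ closedBall f0 r)
      have : y + msE f ∈ W := hρW (by
        have h1 := (msE_dist f f0).trans h
        rw [mem_closedBall, dist_eq_norm, show y + msE f - x =
          (y + msE f0 - x) + (msE f - msE f0) by ring]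
        linarith [norm_add_le (y + msE f0 - x) (msE f - msE f0), hr.2])
      by_contra h'
      exact hf ⟨this, fun j hj k => h' (mem_biUnion hj ⟨h, k⟩)⟩
    have k3 := (measure_mono_ae k2).trans ((measure_biUnion_finset_le _ _).trans
      (Finset.sum_le_card_nsmul _ _ _ fun j hj => h6 j hj y f0 k1))
    have k4 : (J.card : ℝ) ≤ 5 := by exact_mod_cast (Finset.card_le_univ J).trans (by simp)
    rw [Real.volume_closedBall, ← ENNReal.ofReal_nsmul, nsmul_eq_mul,
      ENNReal.ofReal_le_ofReal_iff (by have := hr.1; positivity)] at k3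
    nlinarith [hr.1]
  filter_upwards [ms_null h2] with z hz hzx
  filter_upwards [hz] with t ht h
  refine h7 _ ?_ (ht h)
  have := abs_norm_sub_norm_le (x - (z + msE t)) (-msE t)
  rw [norm_neg, msE_norm, show x - (z + msE t) - -msE t = x - z by ring] at this
  rw [mem_ball, dist_comm, dist_eq_norm] at hzx
  linarith

/-- A maximal open enlargement of an almost avoiding set. -/
lemma ms_max {A : Set ℂ} (hA : ∀ᵐ x, x ∈ A → x ∈ msZ A) :
    ∃ O, Maximal (· ∈ {O : Set ℂ | IsOpen O ∧ ∀ᵐ x, x ∈ A ∪ O → x ∈ msZ (A ∪ O)}) O := by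
  refine zorn_subset _ fun c hc hch => ⟨⋃₀ c, ⟨isOpen_sUnion fun O hO => (hc hO).1, ?_⟩,
    fun O hO => subset_sUnion_of_mem hO⟩
  obtain ⟨T, hT, hTc, e⟩ := TopologicalSpace.isOpen_sUnion_countable c fun O hO => (hc hO).1
  have h1 := (ae_ball_iff hT).2 fun O hO => (hc (hTc hO)).2
  filter_upwards [h1, hA] with x h1 h2 hx
  rw [← e] at hx ⊢
  have h3 : ∀ O ∈ T, ∀ᵐ t : ℝ, x + msE t ∉ A ∪ O := fun O hO => by
    rcases hx with hx | ⟨O', hO', hx⟩
    · exact h1 O hO (Or.inl hx)
    · rcases hch.total (hTc hO) (hTc hO') with h | h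
      · exact Eventually.mono (h1 O' hO' (Or.inr hx)) fun t ht h' => ht (h'.imp id fun k => h k)
      · exact h1 O hO (Or.inr (h hx))
  have h4 : ∀ᵐ t : ℝ, x + msE t ∉ A := by
    rcases hx with hx | ⟨O', hO', -⟩
    · exact h2 hx
    · exact (h3 O' hO').mono fun t ht h' => ht (Or.inl h')
  refine show ∀ᵐ t : ℝ, _ from ?_
  filter_upwards [(ae_ball_iff hT).2 h3, h4] with t a b
  rintro (h | ⟨O, hO, h⟩)
  exacts [b h, a O hO (Or.inr h)]

/-- For open sets almost avoidance is exact avoidance. -/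
lemma ms_exact {O : Set ℂ} (hO : IsOpen O) (h : ∀ᵐ x, x ∈ O → x ∈ msZ O) :
    ∀ x ∈ O, ∀ y ∈ O, dist x y ≠ 1 := by
  intro x hx y hy hxy
  have e : y = x + msE (arg (y - x)) := by
    have := msE_arg (y - x)
    rw [← dist_eq_norm, dist_comm, hxy] at this
    push_cast at this
    linear_combination this
  generalize arg (y - x) = s at e
  have h1 : IsOpen {z | z ∈ O ∧ z + msE s ∈ O} := hO.inter (hO.preimage (continuous_add_const _))
  have h2 : x ∈ {z | z ∈ O ∧ z + msE s ∈ O} := ⟨hx, e ▸ hy⟩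
  rw [h1.eq_empty_of_measure_zero (μ := volume) (measure_eq_zero_iff_ae_notMem.2 ?_)] at h2
  · exact h2
  filter_upwards [h] with z hz hz'
  have h3 : IsOpen {t : ℝ | z + msE t ∈ O} := hO.preimage (continuous_const.add msE_cont)
  have h4 : s ∈ {t : ℝ | z + msE t ∈ O} := hz'.2
  rw [h3.eq_empty_of_measure_zero (measure_eq_zero_iff_ae_notMem.2 (hz hz'.1))] at h4
  exact h4

end Vale.Agent.P032
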