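import Mathlib
import Vale.Agent.P032.MeasAux

/-! P032 part B: a weakly measurable colouring gives open unit-avoiding sets with dense union. -/

namespace Vale.Agent.P032

open MeasureTheory Complex

/-- Enlarge each colour by a maximal open set keeping almost everywhere avoidance; the key step
`ms_step` shows that the union of these open sets is dense. -/
theorem open_of_meas (A : Fin 5 → Set ℂ) (hm : ∀ i, MeasurableSet (A i))
    (hc : ∀ᵐ x : ℂ, ∃ i, x ∈ A i)
    (hav : ∀ i, ∀ᵐ x : ℂ, ∀ᵐ t : ℝ, ¬ (x ∈ A i ∧ x + exp (t * I) ∈ A i)) :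
    ∃ O : Fin 5 → Set ℂ, (∀ i, IsOpen (O i)) ∧ (∀ i, ∀ x ∈ O i, ∀ y ∈ O i, dist x y ≠ 1) ∧
      Dense (⋃ i, O i) := by
  have hA : ∀ i, ∀ᵐ x, x ∈ A i → x ∈ msZ (A i) := fun i => (hav i).mono fun x hx h =>
    hx.mono fun t ht h' => ht ⟨h, h'⟩
  choose O hO using fun i => ms_max (hA i)
  have hB : ∀ i, MeasurableSet (A i ∪ O i) := fun i => (hm i).union (hO i).prop.1.measurableSet
  refine ⟨O, fun i => (hO i).prop.1, fun i => ms_exact (hO i).prop.1 ((hO i).prop.2.mono
    fun x hx h => msZ_anti Set.subset_union_right (hx (Or.inr h))),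
    dense_iff_inter_open.2 fun W hW hne => ?_⟩
  obtain ⟨i, x, hx, h⟩ := ms_step hB (hc.mono fun x ⟨i, h⟩ => ⟨i, Or.inl h⟩)
    (fun i => (hO i).prop.2) hW hne
  obtain ⟨r, h1, h2⟩ := (h.and (Ioc_mem_nhdsGT one_half_pos)).exists
  refine ⟨x, hx, Set.mem_iUnion.2 ⟨i, ?_⟩⟩
  refine (hO i).le_of_ge (y := O i ∪ Metric.ball x r) ⟨(hO i).prop.1.union Metric.isOpen_ball, ?_⟩
    Set.subset_union_left (Or.inr (Metric.mem_ball_self h2.1))
  rw [← Set.union_assoc]
  filter_upwards [h1, ms_symm measurableSet_ball (hB i) h1, (hO i).prop.2] with z a b c hz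
  have k1 : z ∈ msZ (A i ∪ O i) := hz.elim c a
  have k2 : z ∈ msZ (Metric.ball x r) := hz.elim b fun hz => by
    refine show ∀ᵐ t : ℝ, _ from Filter.Eventually.of_forall fun t ht => ?_
    have := dist_triangle_right (z + msE t) z x
    rw [dist_self_add_left, msE_norm] at this
    linarith [Metric.mem_ball.1 hz, Metric.mem_ball.1 ht, h2.2]
  refine show ∀ᵐ t : ℝ, _ from ?_
  filter_upwards [k1, k2] with t a b h using h.elim a b

end Vale.Agent.P032
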