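import Vale.Agent.P032.OpenGeo

/-! P032 part C, types on the unit circle; no triple continuum, no cycle of interfaces. -/

namespace Vale.Agent.P032

open Set Filter Topology Metric Real

lemma ee_dist (x y : ℝ) : dist (ee x) (ee y) ^ 2 = 2 - 2 * cos (x - y) := by
  have := dist_sq 1 x (ee y)
  rw [Complex.ofReal_one, one_mul, ee_re, ee_im] at this
  rw [this, cos_sub]
  linear_combination (sin_sq_add_cos_sq y) * (cos x ^ 2 + sin x ^ 2) + sin_sq_add_cos_sq x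

lemma ee_pi (x : ℝ) : ee (x + π) = -ee x := by
  simp [ee, add_mul, Complex.exp_add]

namespace Cfg

variable (C : Cfg)

open Classical in
/-- colours at the point of angle `t` -/
noncomputable def A (t : ℝ) : Finset (Fin 5) := Finset.univ.filter fun a => ee t ∈ C.F a

/-- angles all of whose hexagon translates have locally constant colour set -/
def Gen (t : ℝ) : Prop := ∀ j : ℤ, ∀ᶠ s in 𝓝 (t + j * (π / 3)), C.A s = C.A (t + j * (π / 3))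

/-- type `B` accumulates at `t` -/
def Acc (t : ℝ) (B : Finset (Fin 5)) : Prop := t ∈ closure {s | C.Gen s ∧ C.A s = B}

variable {C}

lemma mem_A {t : ℝ} {a : Fin 5} : a ∈ C.A t ↔ ee t ∈ C.F a := by simp [A]

lemma A_ne (t : ℝ) : (C.A t).Nonempty :=
  let ⟨a, h⟩ := C.cov (ee t)
  ⟨a, mem_A.2 h⟩

lemma Gen.loc {t : ℝ} (h : C.Gen t) : ∀ᶠ s in 𝓝 t, C.A s = C.A t := by simpa using h 0

lemma Gen.add {t : ℝ} (h : C.Gen t) (k : ℤ) : C.Gen (t + k * (π / 3)) := fun j => by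
  have := h (k + j)
  push_cast at this
  rwa [add_mul, ← add_assoc] at this

lemma Gen.ev {t : ℝ} (h : C.Gen t) {a : Fin 5} (ha : a ∈ C.A t) : ∀ᶠ s in 𝓝 t, ee s ∈ C.F a :=
  h.loc.mono fun _ hs => mem_A.1 (hs ▸ ha)

lemma gen_dense : Dense {t | C.Gen t} := by
  have h : ∀ p : ℤ × Fin 5, IsClosed {t : ℝ | ee (t + p.1 * (π / 3)) ∈ C.F p.2} :=
    fun p => (C.cl p.2).preimage (by fun_prop)
  refine (dense_iInter_of_isOpen (f := fun p : ℤ × Fin 5 =>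
    (frontier {t : ℝ | ee (t + p.1 * (π / 3)) ∈ C.F p.2})ᶜ) (fun p => isClosed_frontier.isOpen_compl)
    (fun p => interior_eq_empty_iff_dense_compl.1 (interior_frontier (h p)))).mono
    fun t ht j => ?_
  have e : 𝓝 (t + j * (π / 3)) = map (fun s => s + j * (π / 3)) (𝓝 t) :=
    (map_add_right_nhds _ _).symm
  rw [e, eventually_map]
  simp only [Finset.ext_iff, mem_A]
  refine eventually_all.2 fun a => ?_
  have h1 := mem_iInter.1 ht (j, a)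
  rw [mem_compl_iff, (h (j, a)).frontier_eq] at h1
  by_cases h2 : ee (t + j * (π / 3)) ∈ C.F a
  · have h3 := mem_interior_iff_mem_nhds.1 (not_not.1 fun h3 => h1 ⟨h2, h3⟩)
    filter_upwards [h3] with s hs
    exact iff_of_true hs h2
  · filter_upwards [(h (j, a)).isOpen_compl.mem_nhds h2] with s hs
    exact iff_of_false hs h2

lemma Gen.disj {t : ℝ} (h : C.Gen t) : Disjoint (C.A t) (C.A (t + π / 3)) := by
  refine Finset.disjoint_left.2 fun a ha hb => kill (h.ev ha) ?_ ?_ ?_ (mem_A.1 hb)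
  · exact Complex.exp_ne_zero _
  · rw [ee_norm]; norm_num
  · rw [← sq_eq_sq₀ dist_nonneg zero_le_one, ee_dist, sub_add_cancel_left, cos_neg, cos_pi_div_three]
    norm_num

lemma nbh (t : ℝ) : ∃ η > 0, ∀ z, dist z (ee t) < η → ∀ a, z ∈ C.F a → a ∈ C.A t :=
  let ⟨ρ, h, _, h'⟩ := stab (C := C) (ee t)
  ⟨ρ, h, fun z hz a ha => mem_A.2 (h' a z hz ha)⟩

lemma Acc.G {t : ℝ} {B : Finset (Fin 5)} (h : C.Acc t B) : C.G (ee t) B := by
  intro ε hε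
  obtain ⟨s, h1, h2, rfl⟩ := mem_closure_iff_nhds.1 h _
    (eventually_mem_nhds_iff.2 (ee_cont.continuousAt.preimage_mem_nhds (ball_mem_nhds _ hε)))
  obtain ⟨δ, hδ, hb⟩ := Metric.eventually_nhds_iff.1 (h2.loc.and h1)
  have m0 : 0 < min (δ / 2) 1 := lt_min (half_pos hδ) one_pos
  have hb' : ∀ u ∈ Icc s (s + min (δ / 2) 1), dist u s < δ := fun u hu => by
    rw [Real.dist_eq, abs_of_nonneg (sub_nonneg.2 hu.1)]
    linarith [hu.2, min_le_left (δ / 2) 1]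
  refine ⟨ee '' Icc s (s + min (δ / 2) 1), ?_, ⟨isCompact_Icc.image ee_cont,
    isPreconnected_Icc.image _ ee_cont.continuousOn, _, ⟨s, left_mem_Icc.2 (by linarith), rfl⟩,
    _, ⟨_, right_mem_Icc.2 (by linarith), rfl⟩, fun e => ?_⟩, ?_⟩
  · rintro _ ⟨u, hu, rfl⟩
    exact (hb (hb' u hu)).2
  · have := ee_inj e (by
      rw [sub_add_cancel_left, abs_neg, abs_of_pos m0]
      linarith [min_le_right (δ / 2) 1, pi_gt_three])
    linarith
  · rintro a ha _ ⟨u, hu, rfl⟩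
    exact mem_A.1 ((hb (hb' u hu)).1 ▸ ha)

lemma Gen.G {t : ℝ} (h : C.Gen t) : C.G (ee t) (C.A t) := Acc.G (subset_closure ⟨h, rfl⟩)

lemma cross' {X : Finset (Fin 5)} (h : C.Ed X (ball 0 2)) :
    ∃ t, C.Gen t ∧ Disjoint X (C.A t) := by
  obtain ⟨θ, h⟩ := cross h
  obtain ⟨t, h1, h2⟩ := gen_dense.inter_nhds_nonempty h
  exact ⟨t, h1, Finset.disjoint_left.2 fun a ha hb => h2 a ha (mem_A.1 hb)⟩

lemma crossP {X : Finset (Fin 5)} {t : ℝ} (h : C.G (ee t) X) :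
    ∃ t, C.Gen t ∧ Disjoint X (C.A t) :=
  cross' ((h 1 one_pos).mono Subset.rfl (ball_subset_ball' (by simp [ee_norm]; norm_num)))

lemma sub {X : Finset (Fin 5)} (h : C.G 0 X) {t : ℝ} (ht : C.Gen t) : ¬ C.A t ⊆ X := by
  intro hs
  obtain ⟨s, h⟩ := strip h
  obtain ⟨u, hu, hu'⟩ : ∃ u, C.A u = C.A t ∧ ee u ≠ s := by
    by_cases e : ee t = s
    · obtain ⟨u, h1, h2, h3⟩ := ((ht.loc.and (ball_mem_nhds t one_pos)).filter_mono
        (nhdsWithin_le_nhds (s := {t}ᶜ))).and self_mem_nhdsWithin |>.exists.imp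
        fun u h => (⟨h.1.1, h.1.2, h.2⟩ : _ ∧ _ ∧ _)
      exact ⟨u, h1, fun e' => h3 (ee_inj (e'.trans e.symm)
        (lt_trans h2 (by linarith [pi_gt_three])))⟩
    · exact ⟨t, rfl, e⟩
  obtain ⟨δ, hδ, h⟩ := h u hu' 1 one_pos
  obtain ⟨η, hη, hn⟩ := nbh (C := C) u
  obtain ⟨y, -, h⟩ := h η hη
  obtain ⟨-, h1, h2⟩ := h u (mem_ball_self hδ)
  obtain ⟨a, ha⟩ := C.cov (y u)
  exact h2 a (hs (hu ▸ hn _ h1 a ha)) ha

lemma trans {β : Type*} (κ : Finset (Fin 5) → β)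
    (hκ : ∀ t, C.Gen t → κ (C.A t) ≠ κ (C.A (t + π / 3))) (S : Finset ℂ) (hS : S.card ≤ 5) :
    ∃ t, ee t ∉ S ∧ ∃ B B', κ B ≠ κ B' ∧ C.Acc t B ∧ C.Acc t B' := by
  obtain ⟨t0, h0⟩ := (gen_dense (C := C)).nonempty
  have p0 : 0 < π / 3 := by positivity
  have key : ∀ x, C.Gen x → ∃ t ∈ Ioo x (x + π / 3), ∃ B B', κ B ≠ κ B' ∧ C.Acc t B ∧ C.Acc t B' := by
    intro x hx
    have hx' : C.Gen (x + π / 3) := by simpa using hx.add 1
    obtain ⟨t, ht, h1, h2⟩ := isPreconnected_closed_iff.1 (isPreconnected_Icc (a := x) (b := x + π / 3))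
      (⋃ B : {B // κ B = κ (C.A x)}, closure {s | C.Gen s ∧ C.A s = B})
      (⋃ B : {B // κ B ≠ κ (C.A x)}, closure {s | C.Gen s ∧ C.A s = B})
      (isClosed_iUnion_of_finite fun _ => isClosed_closure)
      (isClosed_iUnion_of_finite fun _ => isClosed_closure)
      (fun t _ => by
        rw [← closure_iUnion_of_finite, ← closure_iUnion_of_finite, ← closure_union]
        refine closure_mono (fun s hs => ?_) (gen_dense (C := C) t)
        by_cases e : κ (C.A s) = κ (C.A x)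
        · exact Or.inl (mem_iUnion.2 ⟨⟨_, e⟩, hs, rfl⟩)
        · exact Or.inr (mem_iUnion.2 ⟨⟨_, e⟩, hs, rfl⟩))
      ⟨x, left_mem_Icc.2 (by linarith), mem_iUnion.2 ⟨⟨_, rfl⟩, subset_closure ⟨hx, rfl⟩⟩⟩
      ⟨_, right_mem_Icc.2 (by linarith), mem_iUnion.2 ⟨⟨_, (hκ x hx).symm⟩,
        subset_closure ⟨hx', rfl⟩⟩⟩
    obtain ⟨B, hB⟩ := mem_iUnion.1 h1
    obtain ⟨B', hB'⟩ := mem_iUnion.1 h2
    have hne : κ B.1 ≠ κ B'.1 := fun e => B'.2 (e.symm.trans B.2)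
    have ng : ¬ C.Gen t := fun g => by
      obtain ⟨s, s1, -, s2⟩ := mem_closure_iff_nhds.1 hB _ g.loc
      obtain ⟨s', s1', -, s2'⟩ := mem_closure_iff_nhds.1 hB' _ g.loc
      exact hne (by rw [← s2, ← s2', s1, s1'])
    exact ⟨t, ⟨lt_of_le_of_ne ht.1 fun e => ng (e ▸ hx), lt_of_le_of_ne ht.2 fun e => ng (e ▸ hx')⟩,
      B, B', hne, hB, hB'⟩
  choose f hf using fun j : Fin 6 => key _ (Gen.add h0 ((j : ℕ) : ℤ))
  by_contra hc
  push Not at hc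
  have hm : ∀ j, ee (f j) ∈ S := fun j => by
    by_contra hn
    obtain ⟨B, B', h1, h2, h3⟩ := (hf j).2
    exact hc _ hn B B' h1 h2 h3
  have hi : Function.Injective fun j => ee (f j) := by
    intro i j e
    obtain ⟨a1, a2⟩ := (hf i).1
    obtain ⟨b1, b2⟩ := (hf j).1
    push_cast at a1 a2 b1 b2
    have i5 : ((i : ℕ) : ℝ) ≤ 5 := by exact_mod_cast Nat.le_of_lt_succ i.2
    have j5 : ((j : ℕ) : ℝ) ≤ 5 := by exact_mod_cast Nat.le_of_lt_succ j.2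
    have i0 : (0 : ℝ) ≤ (i : ℕ) := Nat.cast_nonneg _
    have j0 : (0 : ℝ) ≤ (j : ℕ) := Nat.cast_nonneg _
    have e' := ee_inj e (abs_lt.2 ⟨by nlinarith, by nlinarith⟩)
    have c1 : ((i : ℕ) : ℝ) < (j : ℕ) + 1 := by nlinarith
    have c2 : ((j : ℕ) : ℝ) < (i : ℕ) + 1 := by nlinarith
    have c3 : (i : ℕ) < j + 1 := by exact_mod_cast c1
    have c4 : (j : ℕ) < i + 1 := by exact_mod_cast c2
    exact Fin.ext (by omega)
  have := Finset.card_le_card_of_injOn (s := Finset.univ) (t := S) (fun j => ee (f j))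
    (fun j _ => hm j) hi.injOn
  simp at this
  omega

lemma main {β : Type*} (κ : Finset (Fin 5) → β)
    (hκ : ∀ t, C.Gen t → κ (C.A t) ≠ κ (C.A (t + π / 3))) (E : Finset (Finset (Fin 5)))
    (hE : E.card ≤ 5) (hG : ∀ X ∈ E, C.G 0 X) :
    ∃ t s s', C.Gen s ∧ C.Gen s' ∧ κ (C.A s) ≠ κ (C.A s') ∧ C.G (ee t) (C.A s) ∧
      C.G (ee t) (C.A s') ∧ ∀ X ∈ E, ∃ c ∈ C.A s, ∃ c' ∈ C.A s', c ∉ X ∧ c' ∉ X ∧
        ∀ Y : Finset (Fin 5), c ∈ Y → c' ∉ Y →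
          ∃ i ∈ Y, ∃ j ∉ Y, i ∉ X ∧ j ∉ X ∧ C.G (ee t) {i, j} := by
  classical
  choose! sp hsp using fun X hX => strip (hG X hX)
  obtain ⟨t, ht, B, B', h1, h2, h3⟩ := trans κ hκ (E.image sp) (Finset.card_image_le.trans hE)
  obtain ⟨s0, g0, e0⟩ := closure_nonempty_iff.1 ⟨t, h2⟩
  obtain ⟨s0', g0', e0'⟩ := closure_nonempty_iff.1 ⟨t, h3⟩
  refine ⟨t, s0, s0', g0, g0', ?_⟩
  rw [e0, e0']
  refine ⟨h1, h2.G, h3.G, fun X hX => ?_⟩
  obtain ⟨ρ, hρ, hst, -⟩ := stab (C := C) (ee t)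
  obtain ⟨δ, hδ, h⟩ := hsp X hX t (fun e => ht (e ▸ Finset.mem_image_of_mem _ hX)) ρ hρ
  obtain ⟨s, hs, -, es⟩ := mem_closure_iff_nhds.1 h2 _ (ball_mem_nhds t hδ)
  obtain ⟨s', hs', -, es'⟩ := mem_closure_iff_nhds.1 h3 _ (ball_mem_nhds t hδ)
  obtain ⟨η, hη, hn⟩ := nbh (C := C) s
  obtain ⟨η', hη', hn'⟩ := nbh (C := C) s'
  obtain ⟨y, hy, h⟩ := h _ (lt_min hη hη')
  obtain ⟨c, hc⟩ := C.cov (y s)
  obtain ⟨c', hc'⟩ := C.cov (y s')
  refine ⟨c, es ▸ hn _ ((h s hs).2.1.trans_le (min_le_left _ _)) c hc,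
    c', es' ▸ hn' _ ((h s' hs').2.1.trans_le (min_le_right _ _)) c' hc',
    fun hx => (h s hs).2.2 c hx hc, fun hx => (h s' hs').2.2 c' hx hc', fun Y hY hY' => ?_⟩
  obtain ⟨i, hi, j, hj, hE⟩ := conn (W := ball (ee t) ρ ∩ (⋃ a ∈ X, C.F a)ᶜ)
    (isOpen_ball.inter (isClosed_biUnion_finset fun a _ => C.cl a).isOpen_compl)
    ((convex_ball t δ).isPreconnected.image y hy.continuousOn) (by
      rintro _ ⟨u, hu, rfl⟩
      exact ⟨(h u hu).1, by simpa using (h u hu).2.2⟩) Y ⟨s, hs, rfl⟩ ⟨s', hs', rfl⟩ hc hc' hY hY'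
  have hk : ∀ k ∈ ({i, j} : Finset (Fin 5)), k ∉ X := fun k hk hx => by
    obtain ⟨K, k1, k2, k3⟩ := hE
    obtain ⟨x, hx'⟩ := k2.2.2.nonempty
    exact (k1 hx').2 (mem_biUnion hx (k3 k hk hx'))
  exact ⟨i, hi, j, hj, hk i (by simp), hk j (by simp), hst _ (hE.mono Subset.rfl inter_subset_left)⟩

end Cfg

end Vale.Agent.P032
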