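import Vale.Agent.P032.OpenK

/-! P032 part C, conclusion: five open unit-avoiding sets never have dense union. -/

namespace Vale.Agent.P032

open Set Filter Topology Metric

set_option synthInstance.maxSize 4000

lemma inj5 : ∀ a b c d e : Fin 5, a ≠ b → a ≠ c → b ≠ c → a ≠ d → b ≠ d → c ≠ d → a ≠ e → b ≠ e →
    c ≠ e → d ≠ e → Function.Injective ![a, b, c, d, e] ∧
      ∀ f, f = a ∨ f = b ∨ f = c ∨ f = d ∨ f = e := by decide +kernel

lemma Cfg.leaf {C : Cfg} (T : ℂ) {V : Finset (Fin 5)} (hV : V.Nonempty) :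
    ∃ l ∈ V, ∀ u ∈ V, ∀ w ∈ V, C.E T l u → C.E T l w → u = w := by
  by_contra h
  push Not at h
  have st : ∀ v ∈ V, ∀ x, ∃ y ∈ V, C.E T v y ∧ x ≠ y := fun v hv x => by
    obtain ⟨u, hu, w, hw, h1, h2, h3⟩ := h v hv
    by_cases e : x = u
    · exact ⟨w, hw, h2, e ▸ h3⟩
    · exact ⟨u, hu, h1, e⟩
  have t : ∀ {a b c d}, C.E T a b → C.E T b c → C.E T c d → a ≠ d := fun h1 h2 h3 e =>
    Cfg.noT T ⟨_, _, h1, _, h2, e ▸ h3.symm⟩
  obtain ⟨a, ha⟩ := hV
  obtain ⟨b, hb, ab, -⟩ := st a ha a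
  obtain ⟨c, hc, bc, ac⟩ := st b hb a
  obtain ⟨d, hd, cd, bd⟩ := st c hc b
  obtain ⟨e, he, de, ce⟩ := st d hd c
  obtain ⟨f, -, ef, df⟩ := st e he d
  obtain ⟨h1, h2⟩ := inj5 a b c d e ab.1 ac bc.1 (t ab bc cd) bd cd.1
    (fun x => Cfg.noC4 ab bc cd (x ▸ de) ac bd) (t bc cd de) ce de.1
  rcases h2 f with rfl | rfl | rfl | rfl | rfl
  · exact Cfg.noC5 ab bc cd de ef h1
  · exact Cfg.noC4 bc cd de ef bd ce
  · exact t cd de ef rfl
  · exact df rfl
  · exact ef.1 rfl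

lemma retr {E : Fin 5 → Fin 5 → Prop} (hs : ∀ i j, E i j → E j i)
    (hl : ∀ V : Finset (Fin 5), V.Nonempty → ∃ l ∈ V, ∀ u ∈ V, ∀ w ∈ V, E l u → E l w → u = w)
    (n : ℕ) : ∀ V : Finset (Fin 5), V.card ≤ n + 1 →
      (∀ Y : Finset (Fin 5), ∀ c ∈ V, ∀ c' ∈ V, c ∈ Y → c' ∉ Y →
        ∃ i ∈ V, ∃ j ∈ V, i ∈ Y ∧ j ∉ Y ∧ E i j) →
      ∃ r : ℕ → Fin 5 → Fin 5, (∀ k, ∀ i ∈ V, r k i ∈ V) ∧ (∀ i ∈ V, ∀ j ∈ V, r 0 i = r 0 j) ∧
        (∀ k, n ≤ k → ∀ i, r k i = i) ∧ ∀ k, ∀ i ∈ V, ∀ j ∈ V, i = j ∨ E i j →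
          ∃ a b, ∀ v, v = r k i ∨ v = r (k + 1) i ∨ v = r k j ∨ v = r (k + 1) j → v = a ∨ v = b := by
  induction n with
  | zero =>
    intro V hV _
    exact ⟨fun _ i => i, fun _ _ h => h, fun i hi j hj => Finset.card_le_one.1 hV i hi j hj,
      fun _ _ _ => rfl, fun _ i _ j _ _ => ⟨i, j, fun v h => by tauto⟩⟩
  | succ n ih =>
    intro V hV hc
    by_cases h : V.card ≤ n + 1
    · obtain ⟨r, h1, h2, h3, h4⟩ := ih V h hc
      exact ⟨r, h1, h2, fun k hk => h3 k (by omega), h4⟩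
    obtain ⟨l, hl1, hl2⟩ := hl V (Finset.card_pos.1 (by omega))
    obtain ⟨x, hx, xl⟩ := Finset.exists_mem_ne (show 1 < V.card by omega) l
    obtain ⟨i, -, b, hb, il, bl, lb⟩ := hc {l} l hl1 x hx (by simp) (by simpa using xl)
    rw [Finset.mem_singleton] at il bl
    subst il
    have hρ : ∀ j ∈ V, (if j = i then b else j) ∈ V.erase i := fun j hj => by
      split_ifs with e
      · exact Finset.mem_erase.2 ⟨bl, hb⟩
      · exact Finset.mem_erase.2 ⟨e, hj⟩
    have hE : ∀ u ∈ V, ∀ w ∈ V, u = w ∨ E u w → (if u = i then b else u) = (if w = i then b else w)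
        ∨ (u ≠ i ∧ w ≠ i ∧ E u w) := by
      intro u hu w hw e
      rcases e with rfl | e
      · exact Or.inl rfl
      by_cases e1 : u = i <;> by_cases e2 : w = i
      · simp [e1, e2]
      · subst e1; simp [e2, hl2 b hb w hw lb e]
      · subst e2; simp [e1, hl2 b hb u hu lb (hs _ _ e)]
      · exact Or.inr ⟨e1, e2, e⟩
    obtain ⟨r, h1, h2, h3, h4⟩ := ih (V.erase i) (by rw [Finset.card_erase_of_mem hl1]; omega) (by
      intro Y c hc1 c' hc2 hY hY'
      rw [Finset.mem_erase] at hc1 hc2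
      obtain ⟨u, hu, w, hw, uY, wY, e⟩ := hc (Finset.univ.filter fun j => (if j = i then b else j) ∈ Y)
        c hc1.2 c' hc2.2 (by simpa [hc1.1] using hY) (by simpa [hc2.1] using hY')
      simp only [Finset.mem_filter, Finset.mem_univ, true_and] at uY wY
      rcases hE u hu w hw (Or.inr e) with e' | ⟨e1, e2, -⟩
      · exact absurd (e' ▸ uY) wY
      · rw [if_neg e1] at uY
        rw [if_neg e2] at wY
        exact ⟨u, Finset.mem_erase.2 ⟨e1, hu⟩, w, Finset.mem_erase.2 ⟨e2, hw⟩, uY, wY, e⟩)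
    refine ⟨fun k j => if k ≤ n then r k (if j = i then b else j) else j, fun k j hj => ?_,
      fun u hu w hw => ?_, fun k hk j => if_neg (by omega), fun k u hu w hw e => ?_⟩
    · beta_reduce
      by_cases hk : k ≤ n
      · rw [if_pos hk]; exact Finset.mem_of_mem_erase (h1 k _ (hρ j hj))
      · rwa [if_neg hk]
    · simp only [Nat.zero_le, if_true]
      exact h2 _ (hρ u hu) _ (hρ w hw)
    · rcases lt_trichotomy k n with hk | rfl | hk
      · simp only [hk.le, show k + 1 ≤ n from hk, if_true]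
        refine h4 k _ (hρ u hu) _ (hρ w hw) ((hE u hu w hw e).imp_right fun ⟨e1, e2, e3⟩ => ?_)
        rwa [if_neg e1, if_neg e2]
      · simp only [le_refl, if_true, show ¬ k + 1 ≤ k by omega, if_false, h3 k le_rfl]
        rcases hE u hu w hw e with e' | ⟨e1, e2, -⟩
        · by_cases e1 : u = i <;> by_cases e2 : w = i <;>
            simp only [e1, e2, if_true, if_false] at e' ⊢
          · exact ⟨i, b, by tauto⟩
          · exact ⟨i, b, by subst e'; tauto⟩
          · exact ⟨i, b, by subst e'; tauto⟩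
          · exact ⟨u, w, by tauto⟩
        · rw [if_neg e1, if_neg e2]; exact ⟨u, w, by tauto⟩
      · simp only [show ¬ k ≤ n by omega, show ¬ k + 1 ≤ n by omega, if_false]
        exact ⟨u, w, by tauto⟩

lemma ev_disj {s t : Set ℂ} (h : Disjoint s t) (hs : IsCompact s) (ht : IsClosed t) :
    ∀ᶠ ε in 𝓝[>] (0 : ℝ), Disjoint (cthickening ε s) (cthickening ε t) := by
  obtain ⟨δ, hδ, h⟩ := h.exists_cthickenings hs ht
  filter_upwards [Ioo_mem_nhdsGT hδ] with ε hε
  exact h.mono (cthickening_mono hε.2.le _) (cthickening_mono hε.2.le _)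

lemma ev_tri {A B D : Set ℂ} (hA : IsCompact A) (hB : IsCompact B) (hD : IsCompact D)
    (h : ∀ x ∈ A, x ∈ B → x ∉ D) : ∀ᶠ ε in 𝓝[>] (0 : ℝ),
      ∀ x ∈ cthickening ε A, x ∈ cthickening ε B → x ∉ cthickening ε D := by
  obtain ⟨δ, hδ, h⟩ := (show Disjoint (A ×ˢ B ×ˢ D) {p : ℂ × ℂ × ℂ | p.1 = p.2.1 ∧ p.1 = p.2.2} from
    Set.disjoint_left.2 fun p hp e => h p.1 hp.1 (e.1 ▸ hp.2.1) (e.2 ▸ hp.2.2)).exists_cthickenings
    (hA.prod (hB.prod hD))
    ((isClosed_eq (by fun_prop) (by fun_prop)).inter (isClosed_eq (by fun_prop) (by fun_prop)))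
  filter_upwards [Ioo_mem_nhdsGT hδ] with ε hε x a b d
  obtain ⟨a, ha, a'⟩ := mem_thickening_iff.1 (cthickening_subset_thickening' hδ hε.2 _ a)
  obtain ⟨b, hb, b'⟩ := mem_thickening_iff.1 (cthickening_subset_thickening' hδ hε.2 _ b)
  obtain ⟨d, hd, d'⟩ := mem_thickening_iff.1 (cthickening_subset_thickening' hδ hε.2 _ d)
  exact Set.disjoint_left.1 h (mem_cthickening_of_dist_le (x, x, x) (a, b, d) δ _ ⟨ha, hb, hd⟩
    (by simp [Prod.dist_eq, a'.le, b'.le, d'.le])) (self_subset_cthickening _ ⟨rfl, rfl⟩)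

/-- the square of side three -/
def ps (p : ℝ × ℝ) : ℂ := ⟨3 * p.1, 3 * p.2⟩

lemma ps_cont : Continuous ps := by
  have : ps = fun p => ((3 * p.1 : ℝ) : ℂ) + (3 * p.2 : ℝ) * Complex.I := by
    funext p; apply Complex.ext <;> simp [ps]
  rw [this]; fun_prop

lemma leb (D : Fin 5 → Set ℂ) (hD : ∀ v, IsCompact (D v)) (hc : ∀ p ∈ sq, ∃ v, ps p ∈ D v)
    (ho : ∀ x, ∃ a b, ∀ v, x ∈ D v → v = a ∨ v = b) {ε : ℝ} (hε : 0 < ε) :
    ∃ v K, IsPreconnected K ∧ K ⊆ cthickening ε (D v) ∧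
      ((∃ a ∈ K, a.re = 0) ∧ (∃ b ∈ K, b.re = 3) ∨ (∃ a ∈ K, a.im = 0) ∧ ∃ b ∈ K, b.im = 3) := by
  have h1 : ∀ᶠ η in 𝓝[>] (0 : ℝ), ∀ a b c, a ≠ b → a ≠ c → b ≠ c → ∀ x ∈ cthickening η (D a),
      x ∈ cthickening η (D b) → x ∉ cthickening η (D c) := by
    simp only [eventually_all]
    refine fun a b c h1 h2 h3 => ev_tri (hD a) (hD b) (hD c) fun x xa xb xc => ?_
    obtain ⟨u, w, h⟩ := ho x
    have := h a xa
    have := h b xb
    have := h c xc
    omega
  obtain ⟨η, h2, η0, η1⟩ := (h1.and (Ioo_mem_nhdsGT hε)).exists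
  let R : Fin 5 → Set ℂ := fun v => D v ∩ (⋃ w : {w // w ≠ v}, thickening η (D w))ᶜ
  let B : {p : Fin 5 × Fin 5 // p.1 < p.2} → Set ℂ := fun p =>
    cthickening η (D p.1.1) ∩ cthickening η (D p.1.2)
  have cR : ∀ v, IsClosed (R v) := fun v =>
    (hD v).isClosed.inter (isOpen_iUnion fun _ => isOpen_thickening).isClosed_compl
  have cB : ∀ p, IsClosed (B p) := fun p => isClosed_cthickening.inter isClosed_cthickening
  rcases hex ((isClosed_iUnion_of_finite cR).preimage ps_cont)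
    ((isClosed_iUnion_of_finite cB).preimage ps_cont) (fun p hp => by
      obtain ⟨v, hv⟩ := hc p hp
      by_cases h : ps p ∈ R v
      · exact Or.inl (mem_iUnion.2 ⟨v, h⟩)
      · obtain ⟨w, hw⟩ := mem_iUnion.1 (not_not.1 fun n => h ⟨hv, n⟩)
        have a := self_subset_cthickening (δ := η) _ hv
        have b := thickening_subset_cthickening _ _ hw
        rcases w.2.lt_or_gt with l | l
        · exact Or.inr (mem_iUnion.2 ⟨⟨(w, v), l⟩, b, a⟩)
        · exact Or.inr (mem_iUnion.2 ⟨⟨(v, w), l⟩, a, b⟩)) with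
    ⟨K, k1, k2, ⟨a, ha, a'⟩, b, hb, b'⟩ | ⟨K, k1, k2, ⟨a, ha, a'⟩, b, hb, b'⟩
  · obtain ⟨v, hv⟩ := mem_iUnion.1 (k1 ha).2
    refine ⟨v, ps '' K, k2.image _ ps_cont.continuousOn, (sub_one (k2.image _ ps_cont.continuousOn)
      R cR (image_subset_iff.2 fun p hp => (k1 hp).2) (fun i j x _ hi hj => ?_) ⟨a, ha, rfl⟩
      hv).trans (inter_subset_left.trans (self_subset_cthickening _)),
      Or.inl ⟨⟨_, ⟨a, ha, rfl⟩, by simp [ps, a']⟩, _, ⟨b, hb, rfl⟩, by simp [ps, b']⟩⟩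
    by_contra n
    exact hj.2 (mem_iUnion.2 ⟨⟨i, n⟩, self_subset_thickening η0 _ hi.1⟩)
  · obtain ⟨v, hv⟩ := mem_iUnion.1 (k1 ha).2
    refine ⟨v.1.1, ps '' K, k2.image _ ps_cont.continuousOn, (sub_one
      (k2.image _ ps_cont.continuousOn) B cB (image_subset_iff.2 fun p hp => (k1 hp).2)
      (fun i j x _ hi hj => ?_) ⟨a, ha, rfl⟩ hv).trans
      (inter_subset_left.trans (cthickening_mono η1.le _)),
      Or.inr ⟨⟨_, ⟨a, ha, rfl⟩, by simp [ps, a']⟩, _, ⟨b, hb, rfl⟩, by simp [ps, b']⟩⟩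
    obtain ⟨⟨i1, i2⟩, hi'⟩ := i
    obtain ⟨⟨j1, j2⟩, hj'⟩ := j
    have e1 := fun a b c => h2 i1 i2 j1 a b c x hi.1 hi.2 hj.1
    have e2 := fun a b c => h2 i1 i2 j2 a b c x hi.1 hi.2 hj.2
    simp only [Subtype.mk.injEq, Prod.mk.injEq] at hi' hj' ⊢
    simp only [imp_false, ne_eq] at e1 e2
    omega

namespace Cfg

variable (C : Cfg)

lemma short {S P Q : Set ℂ} (hS : IsCompact S) (hP : IsClosed P) (hQ : IsClosed Q)
    (hd : ∀ p ∈ P, ∀ q ∈ Q, 1 < dist p q) : ∀ᶠ ε in 𝓝[>] (0 : ℝ), ∀ v K, IsPreconnected K →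
      K ⊆ cthickening ε (S ∩ C.F v) → (K ∩ P).Nonempty → ¬ (K ∩ Q).Nonempty := by
  refine eventually_all.2 fun v => ?_
  rcases cut (hS.inter_right (C.cl v)) hP hQ with ⟨K, h1, -, h2, ⟨p, p1, p2⟩, q, q1, q2⟩ |
    ⟨Z1, Z2, h1, h2, h3, h4, h5, h6⟩
  · exact absurd (h1 p1).2 (sepK h2 (h1.trans inter_subset_right) p1 q1 (by simp) (hd p p2 q q2))
  filter_upwards [ev_disj h4 h1 h2.isClosed, ev_disj h5 h1 hQ, ev_disj h6 h2 hP] with
    ε e1 e2 e3 K hK hs ⟨p, p1, p2⟩ ⟨q, q1, q2⟩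
  have hs' := hs.trans ((cthickening_subset_of_subset ε h3).trans (cthickening_union ε Z1 Z2).le)
  obtain ⟨z, -, z1, z2⟩ := isPreconnected_closed_iff.1 hK _ _ isClosed_cthickening
    isClosed_cthickening hs'
    ⟨p, p1, (hs' p1).resolve_right fun h => Set.disjoint_left.1 e3 h (self_subset_cthickening _ p2)⟩
    ⟨q, q1, (hs' q1).resolve_left fun h => Set.disjoint_left.1 e2 h (self_subset_cthickening _ q2)⟩
  exact Set.disjoint_left.1 e1 z1 z2

include C in
theorem noCfg : False := by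
  classical
  have hS : IsCompact (ps '' sq) := sq_compact.image ps_cont
  set S := ps '' sq with hSd
  obtain ⟨ε, ⟨s1, s2⟩, hε⟩ := (((C.short hS (P := {z | z.re = 0}) (Q := {z | z.re = 3})
    (isClosed_eq Complex.continuous_re continuous_const)
    (isClosed_eq Complex.continuous_re continuous_const) (fun p (hp : p.re = 0) q (hq : q.re = 3) => by
      have := Complex.abs_re_le_norm (p - q)
      rw [Complex.sub_re, hp, hq] at this
      rw [dist_eq_norm]; norm_num at this; linarith)).and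
    (C.short hS (P := {z | z.im = 0}) (Q := {z | z.im = 3})
    (isClosed_eq Complex.continuous_im continuous_const)
    (isClosed_eq Complex.continuous_im continuous_const) (fun p (hp : p.im = 0) q (hq : q.im = 3) => by
      have := Complex.abs_im_le_norm (p - q)
      rw [Complex.sub_im, hp, hq] at this
      rw [dist_eq_norm]; norm_num at this; linarith))).and self_mem_nhdsWithin).exists
  replace hε : 0 < ε := hε
  let ι := {p : Fin 5 × Fin 5 × Fin 5 // p.1 ≠ p.2.1 ∧ p.1 ≠ p.2.2 ∧ p.2.1 ≠ p.2.2}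
  let G3 : ι → Set ℂ := fun p => C.F p.1.1 ∩ (C.F p.1.2.1 ∩ C.F p.1.2.2)
  have cG : ∀ p, IsClosed (G3 p) := fun p => (C.cl _).inter ((C.cl _).inter (C.cl _))
  have hQ : IsCompact (S ∩ ⋃ p, G3 p) := hS.inter_right (isClosed_iUnion_of_finite cG)
  set Q := S ∩ ⋃ p, G3 p with hQd
  have : CompactSpace Q := isCompact_iff_compactSpace.1 hQ
  have : TotallyDisconnectedSpace Q := by
    rw [totallyDisconnectedSpace_subtype_iff]
    intro t ht hc
    by_contra hn
    have hcl : closure t ⊆ Q := closure_minimal ht hQ.isClosed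
    obtain ⟨p, K, k1, k2⟩ := cover ⟨hQ.of_isClosed_subset isClosed_closure hcl, hc.closure,
      (not_subsingleton_iff.1 hn).mono subset_closure⟩ G3 cG (hcl.trans inter_subset_right)
    obtain ⟨T, hT⟩ := Ed.G (C := C) (X := {p.1.1, p.1.2.1, p.1.2.2}) ⟨K, Subset.rfl, k2, by
      simp only [Finset.mem_insert, Finset.mem_singleton, forall_eq_or_imp, forall_eq]
      exact ⟨fun z hz => (k1 hz).2.1, fun z hz => (k1 hz).2.2.1, fun z hz => (k1 hz).2.2.2⟩⟩
    have := no3 hT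
    rw [Finset.card_eq_three.2 ⟨_, _, _, p.2.1, p.2.2.1, p.2.2.2, rfl⟩] at this
    omega
  choose ρ ρ0 ρ1 ρ2 using stab (C := C)
  obtain ⟨n, W, hW1, hW2, hW3⟩ := (TopologicalSpace.IsOpenCover.of_sets
    (v := fun T : Q => ((↑) ⁻¹' ball T.1 (min (ρ T) (ε / 2)) : Set Q))
    (fun T => isOpen_ball.preimage continuous_subtype_val) (eq_univ_of_forall fun T =>
      mem_iUnion.2 ⟨T, mem_ball_self (lt_min (ρ0 T) (half_pos hε))⟩)
      ).exists_finite_nonempty_disjoint_clopen_cover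
  choose T hT using fun j => (hW1 j).2
  let P : Fin n → Set ℂ := fun j => (↑) '' (W j : Set Q)
  have cP : ∀ j, IsCompact (P j) := fun j =>
    (W j).isClopen.1.isCompact.image continuous_subtype_val
  have nP : ∀ j, (P j).Nonempty := fun j => by
    refine Set.Nonempty.image _ (nonempty_iff_ne_empty.2 fun e => (hW1 j).1 ?_)
    exact SetLike.coe_injective e
  have d1 : ∀ᶠ δ in 𝓝[>] (0 : ℝ), ∀ i j, i ≠ j →
      Disjoint (cthickening δ (P i)) (cthickening δ (P j)) := by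
    simp only [eventually_all]
    refine fun i j h => ev_disj ((disjoint_image_iff Subtype.val_injective).2 ?_) (cP i) (cP j).isClosed
    have := hW3 h
    simp only [Function.onFun, disjoint_iff] at this
    rw [Set.disjoint_iff_inter_eq_empty]
    exact congrArg (fun U : TopologicalSpace.Clopens Q => (U : Set Q)) this
  have d2 : ∀ᶠ δ in 𝓝[>] (0 : ℝ), ∀ j,
      cthickening δ (P j) ⊆ ball (T j).1 (min (ρ (T j)) (ε / 2)) := by
    refine eventually_all.2 fun j => ?_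
    filter_upwards [ev_disj (t := (ball (T j).1 (min (ρ (T j)) (ε / 2)))ᶜ)
      (disjoint_compl_right_iff_subset.2 (image_subset_iff.2 (hT j))) (cP j)
      isOpen_ball.isClosed_compl] with δ h
    exact disjoint_compl_right_iff_subset.1 (h.mono_right (self_subset_cthickening _))
  obtain ⟨δ', ⟨d3, d4⟩, δ0⟩ := ((d1.and d2).and self_mem_nhdsWithin).exists
  obtain ⟨δ, rfl⟩ : ∃ δ, δ' = 5 * δ := ⟨δ' / 5, by ring⟩
  replace δ0 : 0 < δ := by have : 0 < 5 * δ := δ0; linarith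
  have th : ∀ x j, infDist x (P j) ≤ 4 * δ → x ∈ cthickening (5 * δ) (P j) := fun x j h => by
    obtain ⟨y, hy, hy'⟩ := (infDist_lt_iff (nP j)).1 (show infDist x (P j) < 5 * δ by linarith)
    exact mem_cthickening_of_dist_le x y _ _ hy hy'.le
  let V : Fin n → Finset (Fin 5) := fun j => Finset.univ.filter fun i => (T j).1 ∈ C.F i
  have mV : ∀ j i, i ∈ V j ↔ (T j).1 ∈ C.F i := fun j i => by simp [V]
  choose r r1 r2 r3 r4 using fun j => retr (E := C.E (T j).1) (fun _ _ => E.symm)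
    (fun V hV => leaf _ hV) 4 (V j) (by simpa using Finset.card_le_univ (V j)) (by
      intro Y c hc c' hc' hY hY'
      obtain ⟨i, hi, k, hk, h⟩ := conn isOpen_ball isPreconnected_singleton
        (singleton_subset_iff.2 (mem_ball_self (ρ0 (T j).1))) Y rfl rfl ((mV j c).1 hc)
        ((mV j c').1 hc') hY hY'
      have g := ρ1 _ _ h
      exact ⟨i, (mV j i).2 (g.mem (by simp)), k, (mV j k).2 (g.mem (by simp)), hi, hk,
        fun e => hk (e ▸ hi), g⟩)
  have xV : ∀ x j i, infDist x (P j) ≤ 4 * δ → x ∈ C.F i → i ∈ V j := fun x j i h hi =>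
    (mV j i).2 (ρ2 _ i x (ball_subset_ball (min_le_left _ _) (d4 j (th x j h))) hi)
  let D : Fin 5 → Set ℂ := fun v => S ∩ ((C.F v ∩ ⋂ j, {x | 4 * δ ≤ infDist x (P j)}) ∪
    ⋃ q : {q : Fin n × Fin 4 × Fin 5 // r q.1 q.2.1 q.2.2 = v}, C.F q.1.2.2 ∩
      ({x | (q.1.2.1 : ℕ) * δ ≤ infDist x (P q.1.1)} ∩
        {x | infDist x (P q.1.1) ≤ ((q.1.2.1 : ℕ) + 1) * δ}))
  have two : ∀ x ∈ S, (∀ j, x ∉ P j) → ∃ i i', x ∈ C.F i ∧ x ∈ C.F i' ∧
      ∀ v, x ∈ C.F v → v = i ∨ v = i' := by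
    intro x hx h
    obtain ⟨i, hi⟩ := C.cov x
    by_cases e : ∃ i', i ≠ i' ∧ x ∈ C.F i'
    · obtain ⟨i', e, hi'⟩ := e
      refine ⟨i, i', hi, hi', fun v hv => ?_⟩
      by_contra hn
      push Not at hn
      have xq : x ∈ Q := ⟨hx, mem_iUnion.2 ⟨⟨(i, i', v), e, hn.1.symm, hn.2.symm⟩, hi, hi', hv⟩⟩
      obtain ⟨j, hj⟩ := mem_iUnion.1 (hW2 (mem_univ ⟨x, xq⟩))
      exact h j ⟨_, hj, rfl⟩
    · exact ⟨i, i, hi, hi, fun v hv => Or.inl (by_contra fun n => e ⟨v, Ne.symm n, hv⟩)⟩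
  obtain ⟨v, K, k1, k2, k3⟩ := leb D (fun v => hS.inter_right (((C.cl v).inter (isClosed_iInter
    fun j => isClosed_le continuous_const (continuous_infDist_pt _))).union
    (isClosed_iUnion_of_finite fun q => (C.cl _).inter
      ((isClosed_le continuous_const (continuous_infDist_pt _)).inter
        (isClosed_le (continuous_infDist_pt _) continuous_const)))))
    (fun p hp => by
      obtain ⟨i, hi⟩ := C.cov (ps p)
      by_cases h : ∀ j, 4 * δ ≤ infDist (ps p) (P j)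
      · exact ⟨i, ⟨p, hp, rfl⟩, Or.inl ⟨hi, mem_iInter.2 h⟩⟩
      push Not at h
      obtain ⟨j, h⟩ := h
      have n0 : 0 ≤ infDist (ps p) (P j) / δ := div_nonneg infDist_nonneg δ0.le
      refine ⟨_, ⟨p, hp, rfl⟩, Or.inr (mem_iUnion.2 ⟨⟨(j, ⟨⌊infDist (ps p) (P j) / δ⌋₊,
        (Nat.floor_lt n0).2 ((div_lt_iff₀ δ0).2 (by exact_mod_cast h))⟩, i), rfl⟩, hi,
        (le_div_iff₀ δ0).1 (Nat.floor_le n0), ((div_lt_iff₀ δ0).1 (Nat.lt_floor_add_one _)).le⟩)⟩)
    (fun x => by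
      by_cases hx : x ∈ S
      swap
      · exact ⟨0, 0, fun v hv => absurd hv.1 hx⟩
      by_cases h : ∃ j, infDist x (P j) ≤ 4 * δ
      swap
      · push Not at h
        obtain ⟨i, i', -, -, h2⟩ := two x hx fun j hj => by
          have := h j
          rw [infDist_zero_of_mem hj] at this
          linarith
        refine ⟨i, i', fun v hv => h2 v (hv.2.elim (·.1) fun hv => ?_)⟩
        obtain ⟨q, -, -, hq⟩ := mem_iUnion.1 hv
        have q4 : ((q.1.2.1 : ℕ) : ℝ) + 1 ≤ 4 := by exact_mod_cast q.1.2.1.2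
        exact absurd (h q.1.1) (not_lt.2 (hq.trans (by nlinarith)))
      obtain ⟨j, hj⟩ := h
      have uq : ∀ j', infDist x (P j') ≤ 4 * δ → j' = j := fun j' h => by
        by_contra n
        exact Set.disjoint_left.1 (d3 j' j n) (th x j' h) (th x j hj)
      have lab : ∀ v, x ∈ D v → ∃ i, x ∈ C.F i ∧ ∃ k : ℕ, k * δ ≤ infDist x (P j) ∧
          infDist x (P j) ≤ (k + 1) * δ ∧ v = r j k i := by
        rintro v ⟨-, hv | hv⟩
        · exact ⟨v, hv.1, 4, by exact_mod_cast mem_iInter.1 hv.2 j, by push_cast; linarith,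
            (r3 j 4 le_rfl v).symm⟩
        · obtain ⟨⟨⟨j', k, i⟩, rfl⟩, h1, h2, h3⟩ := mem_iUnion.1 hv
          have q4 : ((k : ℕ) : ℝ) + 1 ≤ 4 := by exact_mod_cast k.2
          obtain rfl := uq j' (le_trans h3 (by nlinarith))
          exact ⟨i, h1, k, h2, h3, rfl⟩
      by_cases h0 : infDist x (P j) < δ
      · obtain ⟨i0, hi0⟩ := C.cov x
        refine ⟨r j 0 i0, r j 0 i0, fun v hv => Or.inl ?_⟩
        obtain ⟨i, hi, k, h1, -, rfl⟩ := lab v hv
        have : (k : ℝ) < 1 := by nlinarith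
        obtain rfl : k = 0 := by exact_mod_cast Nat.lt_one_iff.1 (by exact_mod_cast this)
        exact r2 j _ (xV x j i hj hi) _ (xV x j i0 hj hi0)
      obtain ⟨i, i', hi, hi', h2⟩ := two x hx fun j' h => by
        have e := infDist_zero_of_mem h
        obtain rfl := uq j' (by linarith)
        linarith
      have n1 : 1 ≤ infDist x (P j) / δ := (le_div_iff₀ δ0).2 (by linarith)
      obtain ⟨m, hm⟩ : ∃ m, ⌊infDist x (P j) / δ⌋₊ = m + 1 :=
        Nat.exists_eq_succ_of_ne_zero (Nat.floor_pos.2 n1).ne'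
      have m1 := (le_div_iff₀ δ0).1 (Nat.floor_le (zero_le_one.trans n1))
      have m2 := (div_lt_iff₀ δ0).1 (Nat.lt_floor_add_one (infDist x (P j) / δ))
      rw [hm] at m1 m2
      push_cast at m1 m2
      obtain ⟨a, b, h⟩ := r4 j m i (xV x j i hj hi) i' (xV x j i' hj hi') (by
        refine or_iff_not_imp_left.2 fun e => ⟨e, ?_⟩
        obtain ⟨η, hη, hb, h3⟩ := stab (C := C) x
        obtain ⟨u, hu, w, hw, h4⟩ := conn (isOpen_ball.inter isOpen_ball) isPreconnected_singleton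
          (singleton_subset_iff.2 ⟨mem_ball_self hη, ball_subset_ball (min_le_left _ _)
            (d4 j (th x j hj))⟩) {i} rfl rfl hi hi' (by simp) (by simpa using Ne.symm e)
        rw [Finset.mem_singleton] at hu hw
        subst hu
        obtain rfl := (h2 w ((hb _ (h4.mono Subset.rfl inter_subset_left)).mem
          (by simp))).resolve_left hw
        exact ρ1 _ _ (h4.mono Subset.rfl inter_subset_right))
      refine ⟨a, b, fun v hv => h v ?_⟩
      obtain ⟨u, hu, k, h3, h4, rfl⟩ := lab v hv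
      have k1 : (m : ℝ) ≤ k := by nlinarith
      have k2 : (k : ℝ) < m + 2 := by nlinarith
      have k3 : m ≤ k := by exact_mod_cast k1
      have k4 : k < m + 2 := by exact_mod_cast k2
      obtain rfl | rfl : k = m ∨ k = m + 1 := by omega
      all_goals rcases h2 u hu with rfl | rfl <;> simp) (half_pos hε)
  have hs : K ⊆ cthickening ε (S ∩ C.F v) := by
    refine k2.trans ((cthickening_subset_of_subset (E₂ := cthickening (ε / 2) (S ∩ C.F v)) _ ?_).trans
      ((cthickening_cthickening_subset (half_pos hε).le (half_pos hε).le _).trans (by simp)))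
    rintro x ⟨hx, hv | hv⟩
    · exact self_subset_cthickening _ ⟨hx, hv.1⟩
    · obtain ⟨⟨⟨j, k, i⟩, rfl⟩, h1, -, h3⟩ := mem_iUnion.1 hv
      have q4 : ((k : ℕ) : ℝ) + 1 ≤ 4 := by exact_mod_cast k.2
      have h4 : infDist x (P j) ≤ 4 * δ := le_trans h3 (by nlinarith)
      exact mem_cthickening_of_dist_le x (T j).1 _ _ ⟨(T j).2.1, (mV j _).1 (r1 j k i
        (xV x j i h4 h1))⟩ ((d4 j (th x j h4)).trans_le (min_le_right _ _)).le
  rcases k3 with ⟨a, b⟩ | ⟨a, b⟩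
  · exact s1 v K k1 hs a b
  · exact s2 v K k1 hs a b

end Cfg

/-- No five open sets without unit distances have dense union. -/
theorem no_open (O : Fin 5 → Set ℂ) (ho : ∀ i, IsOpen (O i))
    (ha : ∀ i, ∀ x ∈ O i, ∀ y ∈ O i, dist x y ≠ 1) (hd : Dense (⋃ i, O i)) : False := by
  refine Cfg.noCfg ⟨fun i => O i ∩ (⋃ j : {j // j < i}, closure (O j))ᶜ, fun i => (ho i).inter
    (isClosed_iUnion_of_finite fun _ => isClosed_closure).isOpen_compl,
    fun i x hx y hy => ha i x hx.1 y hy.1, ?_, fun i j h => ?_⟩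
  · refine ((dense_iInter_of_isOpen (f := fun i => (frontier (O i))ᶜ)
      (fun _ => isClosed_frontier.isOpen_compl) fun i => interior_eq_empty_iff_dense_compl.1 ?_
      ).inter_of_isOpen_right hd (isOpen_iUnion ho)).mono ?_
    · rw [← frontier_compl]; exact interior_frontier (ho i).isClosed_compl
    · rintro x ⟨h1, h2⟩
      classical
      obtain ⟨i, hi, hm⟩ := (Finset.univ.filter fun i => x ∈ O i).exists_min_image id
        (let ⟨i, hi⟩ := mem_iUnion.1 h2; ⟨i, by simpa using hi⟩)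
      refine mem_iUnion.2 ⟨i, by simpa using hi, fun h => ?_⟩
      obtain ⟨j, hj⟩ := mem_iUnion.1 h
      have := mem_iInter.1 h1 j
      rw [mem_compl_iff, (ho j).frontier_eq] at this
      exact absurd (hm j (by simpa using not_not.1 fun n => this ⟨hj, n⟩)) (not_le.2 j.2)
  · refine Set.disjoint_left.2 fun x hi hj => ?_
    rcases h.lt_or_gt with l | l
    · exact hj.2 (mem_iUnion.2 ⟨⟨i, l⟩, subset_closure hi.1⟩)
    · exact hi.2 (mem_iUnion.2 ⟨⟨j, l⟩, subset_closure hj.1⟩)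

end Vale.Agent.P032
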