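import Vale.Agent.P032.OpenTop

/-! P032 part C, local geometry of a dense open unit-avoiding configuration. -/

namespace Vale.Agent.P032

open Set Filter Topology Metric Real

/-- five disjoint open unit-avoiding sets with dense union -/
structure Cfg where
  O : Fin 5 → Set ℂ
  op : ∀ i, IsOpen (O i)
  av : ∀ i, ∀ x ∈ O i, ∀ y ∈ O i, dist x y ≠ 1
  de : Dense (⋃ i, O i)
  dj : ∀ i j, i ≠ j → Disjoint (O i) (O j)

/-- point of the unit circle -/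
noncomputable def ee (t : ℝ) : ℂ := Complex.exp (t * Complex.I)

@[fun_prop] lemma ee_cont : Continuous ee := by unfold ee; fun_prop

lemma ee_norm (t : ℝ) : ‖ee t‖ = 1 := Complex.norm_exp_ofReal_mul_I t

lemma ee_re (t : ℝ) : (ee t).re = cos t := Complex.exp_ofReal_mul_I_re t

lemma ee_im (t : ℝ) : (ee t).im = sin t := Complex.exp_ofReal_mul_I_im t

lemma ee_inj {x y : ℝ} (h : ee x = ee y) (hxy : |x - y| < 2 * π) : x = y := by
  obtain ⟨n, hn⟩ := Complex.exp_eq_exp_iff_exists_int.1 h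
  have h1 : x - y = n * (2 * π) := by
    have := congrArg Complex.im hn
    simp at this
    linarith
  rw [h1, abs_mul, abs_of_pos two_pi_pos] at hxy
  have h2 : |(n : ℝ)| < 1 := by nlinarith [two_pi_pos]
  have h3 : n = 0 := by
    have : |n| < 1 := by exact_mod_cast h2
    exact Int.abs_lt_one_iff.1 this
  rw [h3] at h1
  simpa [sub_eq_zero] using h1

lemma dist_sq (t θ : ℝ) (x : ℂ) : dist (t * ee θ) x ^ 2 =
    (t - (x.re * cos θ + x.im * sin θ)) ^ 2 + (x.im * cos θ - x.re * sin θ) ^ 2 := by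
  rw [Complex.dist_eq, Complex.sq_norm, Complex.normSq_apply]
  simp only [Complex.sub_re, Complex.sub_im, Complex.re_ofReal_mul, Complex.im_ofReal_mul, ee_re,
    ee_im]
  linear_combination (t ^ 2 - x.re ^ 2 - x.im ^ 2) * sin_sq_add_cos_sq θ

lemma norm_sq' (θ : ℝ) (x : ℂ) :
    ‖x‖ ^ 2 = (x.re * cos θ + x.im * sin θ) ^ 2 + (x.im * cos θ - x.re * sin θ) ^ 2 := by
  have := dist_sq 0 θ x
  rwa [Complex.ofReal_zero, zero_mul, dist_comm, dist_zero_right, zero_sub, neg_sq] at this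

lemma sign {z : ℂ} {θ δ : ℝ} (h0 : z ≠ 0) (h2 : ‖z‖ < 2) (h1 : dist (ee θ) z = 1) (hδ : 0 < δ) :
    (∃ t, |t - θ| < δ ∧ dist (ee t) z < 1) ∧ ∃ t, |t - θ| < δ ∧ 1 < dist (ee t) z := by
  have hd : ∀ t, dist (ee t) z ^ 2 = 1 + ‖z‖ ^ 2 - 2 * (z.re * cos t + z.im * sin t) := by
    intro t
    have := dist_sq 1 t z
    rw [Complex.ofReal_one, one_mul] at this
    rw [this, norm_sq' t]; ring
  have hD : HasDerivAt (fun t => z.re * cos t + z.im * sin t) (z.im * cos θ - z.re * sin θ) θ :=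
    (((hasDerivAt_cos θ).const_mul z.re).add ((hasDerivAt_sin θ).const_mul z.im)).congr_deriv
      (by ring)
  have hne : z.im * cos θ - z.re * sin θ ≠ 0 := by
    intro h
    have e1 := hd θ
    have e2 := norm_sq' θ z
    rw [h1] at e1
    rw [h] at e2
    have e3 := norm_pos_iff.2 h0
    have e4 : ‖z‖ ^ 2 * (‖z‖ ^ 2 - 4) = 0 := by
      linear_combination (‖z‖ ^ 2 + 2 * (z.re * cos θ + z.im * sin θ)) * (-e1) - 4 * e2
    rcases mul_eq_zero.1 e4 with h | h <;> nlinarith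
  have hb : ∀ᶠ t in 𝓝 θ, |t - θ| < δ := Metric.ball_mem_nhds θ hδ
  have e1 := hd θ
  rw [h1] at e1
  constructor <;> by_contra hc <;> push Not at hc
  · refine hne (IsLocalMax.hasDerivAt_eq_zero ?_ hD)
    filter_upwards [hb] with t ht
    have := hc t ht
    have := hd t
    nlinarith
  · refine hne (IsLocalMin.hasDerivAt_eq_zero ?_ hD)
    filter_upwards [hb] with t ht
    have := hc t ht
    have := hd t
    nlinarith [dist_nonneg (x := ee t) (y := z)]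

lemma three {K : Set ℂ} (hK : Cont K) :
    ∃ p ∈ K, ∃ q ∈ K, ∃ r ∈ K, p ≠ q ∧ p ≠ r ∧ q ≠ r := by
  obtain ⟨t, ht, h3⟩ := (hK.2.1.infinite_of_nontrivial hK.2.2).exists_subset_card_eq 3
  obtain ⟨p, q, r, h1, h2, h4, rfl⟩ := Finset.card_eq_three.1 h3
  exact ⟨p, ht (by simp), q, ht (by simp), r, ht (by simp), h1, h2, h4⟩

lemma centre {p q r y y' : ℂ} (h1 : p ≠ q) (h2 : p ≠ r) (h3 : q ≠ r)
    (hy : dist y p = 1 ∧ dist y q = 1 ∧ dist y r = 1)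
    (hy' : dist y' p = 1 ∧ dist y' q = 1 ∧ dist y' r = 1) : y = y' := by
  by_contra h
  simp only [dist_comm y, dist_comm y'] at hy hy'
  rcases EuclideanGeometry.eq_of_dist_eq_of_dist_eq_of_finrank_eq_two Complex.finrank_real_complex
    h h1 hy.1 hy.2.1 hy.2.2 hy'.1 hy'.2.1 hy'.2.2 with h | h
  · exact h2 h.symm
  · exact h3 h.symm

/-- exit radius of the ray of angle `θ` from the unit disc about `x` -/
noncomputable def tau (x : ℂ) (θ : ℝ) : ℝ :=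
  x.re * cos θ + x.im * sin θ + √(1 - (x.im * cos θ - x.re * sin θ) ^ 2)

lemma tau_spec {x : ℂ} {ε : ℝ} (hx : ‖x‖ < ε) (hε : ε ≤ 1 / 4) (θ : ℝ) :
    |tau x θ - 1| ≤ 2 * ε ∧ ∀ t : ℝ, 1 / 2 ≤ t →
      (t < tau x θ → dist (t * ee θ) x < 1) ∧ (tau x θ < t → 1 < dist (t * ee θ) x) ∧
      (t = tau x θ → dist (t * ee θ) x = 1) := by
  have e := norm_sq' θ x
  unfold tau
  have d := fun t => dist_sq t θ x
  generalize x.re * cos θ + x.im * sin θ = u at *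
  generalize x.im * cos θ - x.re * sin θ = v at *
  have n := norm_nonneg x
  have hu : |u| ≤ ε := abs_le_of_sq_le_sq' (by nlinarith) (by linarith) |> abs_le.2
  have hv : v ^ 2 ≤ ε ^ 2 := by nlinarith
  have s0 := Real.sqrt_nonneg (1 - v ^ 2)
  have s1 := Real.sq_sqrt (show 0 ≤ 1 - v ^ 2 by nlinarith)
  generalize √(1 - v ^ 2) = s at *
  obtain ⟨u1, u2⟩ := abs_le.1 hu
  have s2 : s ≤ 1 := by nlinarith
  have s3 : 1 - ε ≤ s := by nlinarith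
  refine ⟨abs_le.2 ⟨by linarith, by linarith⟩, fun t ht => ?_⟩
  have d0 := dist_nonneg (x := t * ee θ) (y := x)
  have d1 := d t
  refine ⟨fun h => ?_, fun h => ?_, fun h => ?_⟩
  · nlinarith
  · nlinarith
  · have : dist (t * ee θ) x ^ 2 = 1 := by rw [d1, h]; linarith
    nlinarith

namespace Cfg

variable (C : Cfg)

/-- closed colour class -/
def F (i : Fin 5) : Set ℂ := closure (C.O i)

/-- `U` contains a continuum lying in all the colours of `X` -/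
def Ed (X : Finset (Fin 5)) (U : Set ℂ) : Prop := ∃ K ⊆ U, Cont K ∧ ∀ a ∈ X, K ⊆ C.F a

/-- such continua accumulate at `T` -/
def G (T : ℂ) (X : Finset (Fin 5)) : Prop := ∀ ε > 0, C.Ed X (ball T ε)

lemma cl (i : Fin 5) : IsClosed (C.F i) := isClosed_closure

lemma cov (z : ℂ) : ∃ i, z ∈ C.F i := by
  have := C.de z
  rw [closure_iUnion_of_finite] at this
  exact mem_iUnion.1 this

variable {C}

lemma Ed.mono {X Y : Finset (Fin 5)} {U V : Set ℂ} (h : C.Ed X U) (hY : Y ⊆ X) (hV : U ⊆ V) :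
    C.Ed Y V :=
  let ⟨K, h1, h2, h3⟩ := h
  ⟨K, h1.trans hV, h2, fun a ha => h3 a (hY ha)⟩

lemma G.mono {X Y : Finset (Fin 5)} {T : ℂ} (h : C.G T X) (hY : Y ⊆ X) : C.G T Y :=
  fun ε hε => (h ε hε).mono hY Subset.rfl

lemma G.mem {X : Finset (Fin 5)} {T : ℂ} (h : C.G T X) {a : Fin 5} (ha : a ∈ X) : T ∈ C.F a := by
  rw [← (C.cl a).closure_eq, Metric.mem_closure_iff]
  intro ε hε
  obtain ⟨K, h1, h2, h3⟩ := h ε hε
  obtain ⟨x, hx⟩ := h2.2.2.nonempty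
  exact ⟨x, h3 a ha hx, mem_ball'.1 (h1 hx)⟩

lemma Ed.G {X : Finset (Fin 5)} {U : Set ℂ} (h : C.Ed X U) : ∃ T, C.G T X := by
  obtain ⟨K, -, h2, h3⟩ := h
  obtain ⟨x, hx⟩ := h2.2.2.nonempty
  refine ⟨x, fun ε hε => ?_⟩
  obtain ⟨L, h4, h5⟩ := bump h2 hx hε
  exact ⟨L, fun z hz => (h4 hz).2, h5, fun a ha z hz => h3 a ha (h4 hz).1⟩

lemma stab (T : ℂ) : ∃ ρ > 0, (∀ X, C.Ed X (ball T ρ) → C.G T X) ∧
    ∀ a, ∀ z ∈ ball T ρ, z ∈ C.F a → T ∈ C.F a := by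
  have h1 : ∀ᶠ ρ in 𝓝[>] (0 : ℝ), ∀ X, C.Ed X (ball T ρ) → C.G T X := by
    refine eventually_all.2 fun X => ?_
    by_cases h : C.G T X
    · exact Eventually.of_forall fun _ _ => h
    · simp only [G, not_forall] at h
      obtain ⟨ε, hε, h⟩ := h
      filter_upwards [Ioo_mem_nhdsGT hε] with ρ hρ h'
      exact absurd (h'.mono Subset.rfl (ball_subset_ball hρ.2.le)) h
  have h2 : ∀ᶠ ρ in 𝓝[>] (0 : ℝ), ∀ a, ∀ z ∈ ball T ρ, z ∈ C.F a → T ∈ C.F a := by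
    refine eventually_all.2 fun a => ?_
    by_cases h : T ∈ C.F a
    · exact Eventually.of_forall fun _ _ _ _ => h
    · obtain ⟨ε, hε, h'⟩ := Metric.isOpen_iff.1 (C.cl a).isOpen_compl T h
      filter_upwards [Ioo_mem_nhdsGT hε] with ρ hρ z hz hz'
      exact absurd hz' (h' (ball_subset_ball hρ.2.le hz))
  obtain ⟨ρ, h3, h4, h5⟩ := (h1.and (h2.and self_mem_nhdsWithin)).exists
  exact ⟨ρ, h5, h3, h4⟩

lemma rule {a : Fin 5} {y z : ℂ} (hy : y ∈ C.O a) (hz : z ∈ C.F a) : dist y z ≠ 1 := by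
  intro h
  obtain ⟨ε, hε, hb⟩ := Metric.isOpen_iff.1 (C.op a) y hy
  obtain ⟨w, hw, hzw⟩ := Metric.mem_closure_iff.1 hz ε hε
  refine C.av a (y + (w - z)) (hb ?_) w hw ?_
  · rwa [mem_ball, dist_self_add_left, ← dist_eq_norm, dist_comm]
  · rw [← h, dist_eq_norm, dist_eq_norm]; congr 1; ring

lemma sepK {a : Fin 5} {K : Set ℂ} (hK : IsPreconnected K) (hF : K ⊆ C.F a) {p q y : ℂ}
    (hp : p ∈ K) (hq : q ∈ K) (h1 : dist y p < 1) (h2 : 1 < dist y q) : y ∉ C.F a := by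
  intro hy
  obtain ⟨w, ⟨w1, w2⟩, hw⟩ := mem_closure_iff.1 hy ({w | dist w p < 1} ∩ {w | 1 < dist w q})
    ((isOpen_lt (by fun_prop) continuous_const).inter (isOpen_lt continuous_const (by fun_prop)))
    ⟨h1, h2⟩
  obtain ⟨x, hx, e⟩ := hK.intermediate_value hp hq (f := fun x => dist w x) (by fun_prop)
    ⟨le_of_lt w1, le_of_lt w2⟩
  exact rule hw (hF hx) e

lemma oF {a b : Fin 5} {y : ℂ} (ha : y ∈ C.O a) (hb : y ∈ C.F b) : a = b := by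
  by_contra h
  exact Set.disjoint_left.1 ((C.dj a b h).closure_right (C.op a)) ha hb

lemma conn {W γ : Set ℂ} (hW : IsOpen W) (hγ : IsPreconnected γ) (hs : γ ⊆ W)
    (Y : Finset (Fin 5)) {z z' : ℂ} {c c' : Fin 5} (hz : z ∈ γ) (hz' : z' ∈ γ) (hc : z ∈ C.F c)
    (hc' : z' ∈ C.F c') (hY : c ∈ Y) (hY' : c' ∉ Y) : ∃ i ∈ Y, ∃ j ∉ Y, C.Ed {i, j} W := by
  have hA : IsClosed (⋃ i : {i // i ∈ Y}, C.F i) := isClosed_iUnion_of_finite fun i => C.cl i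
  have hB : IsClosed (⋃ i : {i // i ∉ Y}, C.F i) := isClosed_iUnion_of_finite fun i => C.cl i
  have hcov : ∀ x, x ∈ (⋃ i : {i // i ∈ Y}, C.F i) ∪ ⋃ i : {i // i ∉ Y}, C.F i := fun x => by
    obtain ⟨i, hi⟩ := C.cov x
    by_cases h : i ∈ Y
    · exact Or.inl (mem_iUnion.2 ⟨⟨i, h⟩, hi⟩)
    · exact Or.inr (mem_iUnion.2 ⟨⟨i, h⟩, hi⟩)
  obtain ⟨x, hx, h1, h2⟩ := isPreconnected_closed_iff.1 hγ _ _ hA hB (fun x _ => hcov x)
    ⟨z, hz, mem_iUnion.2 ⟨⟨c, hY⟩, hc⟩⟩ ⟨z', hz', mem_iUnion.2 ⟨⟨c', hY'⟩, hc'⟩⟩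
  obtain ⟨ρ, hρ, hb⟩ := Metric.isOpen_iff.1 hW x (hs hx)
  obtain ⟨i, hi⟩ := mem_iUnion.1 h1
  obtain ⟨j, hj⟩ := mem_iUnion.1 h2
  obtain ⟨p, hp, hp'⟩ := Metric.mem_closure_iff.1 hi ρ hρ
  obtain ⟨q, hq, hq'⟩ := Metric.mem_closure_iff.1 hj ρ hρ
  obtain ⟨K, k1, k2⟩ := sep hA hB (fun x _ => hcov x) (mem_ball'.2 hp') (mem_ball'.2 hq')
    (fun h => by obtain ⟨k, hk⟩ := mem_iUnion.1 h; exact k.2 (oF hp hk ▸ i.2))
    (fun h => by obtain ⟨k, hk⟩ := mem_iUnion.1 h; exact j.2 (oF hq hk ▸ k.2))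
  obtain ⟨k, L, l1, l2⟩ := cover k2 (fun k : {i // i ∈ Y} × {i // i ∉ Y} => C.F k.1 ∩ C.F k.2)
    (fun k => (C.cl _).inter (C.cl _)) (fun w hw => by
      obtain ⟨a, ha⟩ := mem_iUnion.1 (k1 hw).2.1
      obtain ⟨b, hb⟩ := mem_iUnion.1 (k1 hw).2.2
      exact mem_iUnion.2 ⟨(a, b), ha, hb⟩)
  refine ⟨k.1, k.1.2, k.2, k.2.2, L, fun w hw => hb (k1 (l1 hw).1).1, l2, fun a ha w hw => ?_⟩
  rcases Finset.mem_insert.1 ha with rfl | ha
  · exact (l1 hw).2.1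
  · rw [Finset.mem_singleton.1 ha]; exact (l1 hw).2.2

lemma kill {a : Fin 5} {θ : ℝ} (h : ∀ᶠ t in 𝓝 θ, ee t ∈ C.F a) {z : ℂ} (h0 : z ≠ 0)
    (h2 : ‖z‖ < 2) (h1 : dist (ee θ) z = 1) : z ∉ C.F a := by
  obtain ⟨δ, hδ, hb⟩ := Metric.eventually_nhds_iff.1 h
  obtain ⟨⟨s, hs, hs'⟩, t, ht, ht'⟩ := sign h0 h2 h1 hδ
  refine sepK ((convex_ball θ δ).isPreconnected.image ee ee_cont.continuousOn) ?_
    ⟨s, hs, rfl⟩ ⟨t, ht, rfl⟩ (by rwa [dist_comm]) (by rwa [dist_comm])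
  rintro _ ⟨u, hu, rfl⟩
  exact hb hu

lemma cross {X : Finset (Fin 5)} (h : C.Ed X (ball 0 2)) :
    ∃ θ, ∀ᶠ t in 𝓝 θ, ∀ a ∈ X, ee t ∉ C.F a := by
  obtain ⟨K, k1, k2, k3⟩ := h
  obtain ⟨p, hp, q, hq, r, hr, h1, h2, h3, h0⟩ :
      ∃ p ∈ K, ∃ q ∈ K, ∃ r ∈ K, p ≠ q ∧ p ≠ r ∧ q ≠ r ∧ p ≠ 0 := by
    obtain ⟨p, hp, q, hq, r, hr, h1, h2, h3⟩ := three k2
    by_cases h : p = 0
    · exact ⟨q, hq, p, hp, r, hr, h1.symm, h3, h2, h ▸ h1.symm⟩
    · exact ⟨p, hp, q, hq, r, hr, h1, h2, h3, h⟩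
  have hn : ‖p‖ < 2 := mem_ball_zero_iff.1 (k1 hp)
  have n0 := norm_pos_iff.2 h0
  have hs : 0 < 1 / ‖p‖ ^ 2 - 1 / 4 := by
    rw [sub_pos]; exact one_div_lt_one_div_of_lt (by positivity) (by nlinarith)
  have hy : ∀ s : ℝ, s ^ 2 = 1 / ‖p‖ ^ 2 - 1 / 4 →
      ∃ θ, ee θ = p * (1 / 2 + s * Complex.I) ∧ dist (ee θ) p = 1 := by
    intro s hs
    have n : ∀ c : ℝ, c ^ 2 = 1 / 4 → ‖p * (c + s * Complex.I)‖ = 1 := fun c hc => by
      rw [← sq_eq_sq₀ (norm_nonneg _) zero_le_one, norm_mul, mul_pow, Complex.sq_norm (_ + _),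
        Complex.normSq_add_mul_I, hs, hc]
      field_simp; ring
    have e := Complex.norm_mul_exp_arg_mul_I (p * (1 / 2 + s * Complex.I))
    have n1 := n (1 / 2) (by norm_num)
    have n2 := n (-1 / 2) (by norm_num)
    push_cast at n1 n2
    rw [n1, Complex.ofReal_one, one_mul] at e
    refine ⟨_, e, ?_⟩
    rw [ee, e, dist_eq_norm, ← n2]; congr 1; ring
  obtain ⟨θ, hθ, x, hx, hx'⟩ : ∃ θ, dist (ee θ) p = 1 ∧ ∃ x ∈ K, dist (ee θ) x ≠ 1 := by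
    by_contra hc
    push Not at hc
    obtain ⟨a, a1, a2⟩ := hy √_ (Real.sq_sqrt hs.le)
    obtain ⟨b, b1, b2⟩ := hy (-√_) (by rw [neg_sq]; exact Real.sq_sqrt hs.le)
    have := centre h1 h2 h3 ⟨a2, hc a a2 q hq, hc a a2 r hr⟩ ⟨b2, hc b b2 q hq, hc b b2 r hr⟩
    rw [a1, b1] at this
    have := congrArg Complex.im (mul_left_cancel₀ h0 this)
    have h4 := Real.sqrt_pos.2 hs
    simp only [Complex.add_im, Complex.mul_im, Complex.ofReal_re, Complex.I_im, Complex.ofReal_im,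
      Complex.I_re] at this
    linarith
  have key : ∀ u ∈ K, ∀ v ∈ K, ∀ t, dist (ee t) u < 1 → 1 < dist (ee t) v →
      ∃ θ, ∀ᶠ t in 𝓝 θ, ∀ a ∈ X, ee t ∉ C.F a := fun u hu v hv t h1 h2 => ⟨t, by
    filter_upwards [(by fun_prop : Continuous fun t => dist (ee t) u).continuousAt.eventually_lt
      continuousAt_const h1, continuousAt_const.eventually_lt
      (by fun_prop : Continuous fun t => dist (ee t) v).continuousAt h2] with s s1 s2 a ha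
    exact sepK k2.2.1 (k3 a ha) hu hv s1 s2⟩
  rcases hx'.lt_or_gt with h | h
  · obtain ⟨δ, hδ, hb⟩ := Metric.eventually_nhds_iff.1
      ((by fun_prop : Continuous fun t => dist (ee t) x).continuousAt.eventually_lt
        continuousAt_const h)
    obtain ⟨-, t, ht, ht'⟩ := sign h0 hn hθ hδ
    exact key x hx p hp t (hb ht) ht'
  · obtain ⟨δ, hδ, hb⟩ := Metric.eventually_nhds_iff.1 (continuousAt_const.eventually_lt
      (by fun_prop : Continuous fun t => dist (ee t) x).continuousAt h)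
    obtain ⟨⟨t, ht, ht'⟩, -⟩ := sign h0 hn hθ hδ
    exact key p hp x hx t ht' (hb ht)

lemma strip {X : Finset (Fin 5)} (h : C.G 0 X) : ∃ s : ℂ, ∀ θ, ee θ ≠ s → ∀ ρ > 0, ∃ δ > 0,
    ∀ η > 0, ∃ y : ℝ → ℂ, Continuous y ∧ ∀ t ∈ ball θ δ,
      y t ∈ ball (ee θ) ρ ∧ dist (y t) (ee t) < η ∧ ∀ a ∈ X, y t ∉ C.F a := by
  have h1 : ∀ n : ℕ, ∃ K : Set ℂ, ∃ p ∈ K, ∃ q ∈ K, ∃ r ∈ K, ∃ c ∈ closedBall (0 : ℂ) 2,
      K ⊆ ball 0 (1 / (n + 1)) ∧ IsPreconnected K ∧ (∀ a ∈ X, K ⊆ C.F a) ∧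
      ∀ y, dist y p = 1 ∧ dist y q = 1 ∧ dist y r = 1 → y = c := by
    intro n
    obtain ⟨K, k1, k2, k3⟩ := h (1 / (n + 1)) Nat.one_div_pos_of_nat
    obtain ⟨p, hp, q, hq, r, hr, h1, h2, h3⟩ := three k2
    refine ⟨K, p, hp, q, hq, r, hr, ?_⟩
    by_cases hc : ∃ c, dist c p = 1 ∧ dist c q = 1 ∧ dist c r = 1
    · obtain ⟨c, hc⟩ := hc
      refine ⟨c, ?_, k1, k2.2.1, k3, fun y hy => centre h1 h2 h3 hy hc⟩
      have e1 : dist p 0 < 1 / (n + 1) := k1 hp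
      have e2 : (1 : ℝ) / (n + 1) ≤ 1 := by
        rw [div_le_one (by positivity)]; linarith [Nat.cast_nonneg (α := ℝ) n]
      have := dist_triangle c p 0
      rw [mem_closedBall]; linarith [hc.1]
    · exact ⟨0, by simp, k1, k2.2.1, k3, fun y hy => absurd ⟨y, hy⟩ hc⟩
  choose K p hp q hq r hr c hc k1 k2 k3 k4 using h1
  obtain ⟨s, -, φ, hφ, hs⟩ := (isCompact_closedBall (0 : ℂ) 2).tendsto_subseq hc
  refine ⟨s, fun θ hθ ρ hρ => ?_⟩
  have d0 := dist_pos.2 hθ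
  set m := min ρ (dist (ee θ) s / 2) with hm
  have m0 : 0 < m := lt_min hρ (half_pos d0)
  obtain ⟨δ, hδ, hb⟩ := Metric.continuousAt_iff.1 (ee_cont.continuousAt (x := θ)) (m / 2)
    (half_pos m0)
  refine ⟨δ, hδ, fun η hη => ?_⟩
  have t1 : Tendsto (fun n => (1 : ℝ) / (φ n + 1)) atTop (𝓝 0) :=
    tendsto_one_div_add_atTop_nhds_zero_nat.comp hφ.tendsto_atTop
  obtain ⟨n, n1, n2⟩ := ((Metric.tendsto_nhds.1 hs _ (half_pos d0)).and
    (t1.eventually_lt_const (lt_min (lt_min (show (0 : ℝ) < 1 / 4 by norm_num)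
      (show 0 < m / 4 by positivity)) (half_pos hη)))).exists
  simp only [lt_min_iff, Function.comp_apply] at n1 n2
  generalize φ n = N at *
  refine ⟨fun t => ((tau (p N) t + tau (q N) t + tau (r N) t) / 3 : ℝ) * ee t,
    by unfold tau; fun_prop, fun t ht => ?_⟩
  have T := fun x (hx : x ∈ K N) => tau_spec (mem_ball_zero_iff.1 (k1 N hx)) n2.1.1.le t
  obtain ⟨a1, a2⟩ := T _ (hp N)
  obtain ⟨b1, b2⟩ := T _ (hq N)
  obtain ⟨c1, c2⟩ := T _ (hr N)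
  beta_reduce
  set u := (tau (p N) t + tau (q N) t + tau (r N) t) / 3 with hu
  rw [abs_le] at a1 b1 c1
  have u1 : |u - 1| ≤ 2 * (1 / (N + 1)) := abs_le.2 ⟨by linarith, by linarith⟩
  have u2 : 1 / 2 ≤ u := by linarith
  have u3 : dist (u * ee t) (ee t) = |u - 1| := by
    rw [dist_eq_norm, ← sub_one_mul, norm_mul, ee_norm, mul_one, ← Complex.ofReal_one,
      ← Complex.ofReal_sub, Complex.norm_real, Real.norm_eq_abs]
  have u4 : dist (u * ee t) (ee θ) < m := by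
    linarith [dist_triangle (u * ee t) (ee t) (ee θ), hb ht]
  refine ⟨u4.trans_le (min_le_left _ _), by linarith, fun a ha => ?_⟩
  have S := fun x y hx hy => sepK (k2 N) (k3 N a ha) (p := x) (q := y) (y := u * ee t) hx hy
  obtain ⟨a3, a4, a5⟩ := a2 u u2
  obtain ⟨b3, b4, b5⟩ := b2 u u2
  obtain ⟨c3, c4, c5⟩ := c2 u u2
  rcases lt_trichotomy u (tau (p N) t) with x | x | x <;>
  rcases lt_trichotomy u (tau (q N) t) with y | y | y <;>
  rcases lt_trichotomy u (tau (r N) t) with z | z | z <;>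
  first
  | (exfalso; linarith)
  | exact S _ _ (hp N) (hq N) (a3 x) (b4 y)
  | exact S _ _ (hp N) (hr N) (a3 x) (c4 z)
  | exact S _ _ (hq N) (hp N) (b3 y) (a4 x)
  | exact S _ _ (hq N) (hr N) (b3 y) (c4 z)
  | exact S _ _ (hr N) (hp N) (c3 z) (a4 x)
  | exact S _ _ (hr N) (hq N) (c3 z) (b4 y)
  | skip
  exfalso
  rw [k4 N _ ⟨a5 x, b5 y, c5 z⟩] at u4
  linarith [dist_triangle (ee θ) (c N) s, min_le_right ρ (dist (ee θ) s / 2),
    dist_comm (ee θ) (c N)]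

end Cfg

end Vale.Agent.P032
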