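import Vale.Agent.P032.OpenCyc
import Vale.Agent.P032.OpenComb

/-! P032 part C, the interface graph at a point has no cycle. -/

namespace Vale.Agent.P032

open Set Filter Topology Metric Real

set_option synthInstance.maxSize 4000

namespace Cfg

/-- translate -/
def shift (C : Cfg) (T : ℂ) : Cfg where
  O i := (fun z => z + T) ⁻¹' C.O i
  op i := (C.op i).preimage (by fun_prop)
  av i x hx y hy := by simpa using C.av i _ hx _ hy
  de := by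
    rw [← preimage_iUnion]
    exact C.de.preimage (Homeomorph.addRight T).isOpenMap
  dj i j h := (C.dj i j h).preimage _

/-- rename colours -/
def perm (C : Cfg) (σ : Fin 5 → Fin 5) (h : Function.Injective σ) : Cfg where
  O i := C.O (σ i)
  op i := C.op _
  av i := C.av _
  de := by
    rw [(Finite.surjective_of_injective h).iUnion_comp]
    exact C.de
  dj i j e := C.dj _ _ (h.ne e)

variable {C : Cfg}

lemma G.shift {T : ℂ} {X : Finset (Fin 5)} (h : C.G T X) : (C.shift T).G 0 X := by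
  intro ε hε
  obtain ⟨K, h1, h2, h3⟩ := h ε hε
  refine ⟨(fun z => z - T) '' K, ?_, ⟨h2.1.image (by fun_prop), h2.2.1.image _ (by fun_prop),
    h2.2.2.image sub_left_injective⟩, ?_⟩
  · rintro _ ⟨z, hz, rfl⟩
    simpa [dist_eq_norm] using h1 hz
  · rintro a ha _ ⟨z, hz, rfl⟩
    have := (Homeomorph.addRight T).preimage_closure (C.O a)
    refine (this ▸ ?_ : z - T ∈ closure ((Homeomorph.addRight T) ⁻¹' C.O a))
    simpa [F] using h3 a ha hz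

lemma G.perm {T : ℂ} {σ : Fin 5 → Fin 5} (hσ : Function.Injective σ) {X Y : Finset (Fin 5)}
    (h : C.G T Y) (hX : ∀ a ∈ X, σ a ∈ Y) : (C.perm σ hσ).G T X := fun ε hε =>
  let ⟨K, h1, h2, h3⟩ := h ε hε
  ⟨K, h1, h2, fun a ha => h3 _ (hX a ha)⟩

lemma no3a (C : Cfg) : ¬ C.G 0 {0, 1, 2} := by
  intro h
  have k1 : ∀ B B' : Finset (Fin 5), ¬ B ⊆ {0, 1, 2} → ¬ B' ⊆ {0, 1, 2} → Disjoint B B' →
      decide (3 ∈ B) ≠ decide (3 ∈ B') ∧ ¬ {3, 4} ⊆ B := by decide +kernel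
  have k2 : ∀ B B' : Finset (Fin 5), ¬ {3, 4} ⊆ B → ¬ {3, 4} ⊆ B' →
      decide (3 ∈ B) ≠ decide (3 ∈ B') → ∀ c ∈ B, ∀ c' ∈ B', c ∉ ({0, 1, 2} : Finset (Fin 5)) →
      c' ∉ ({0, 1, 2} : Finset (Fin 5)) → c' ∉ ({c} : Finset (Fin 5)) := by decide +kernel
  have k3 : ∀ c i j : Fin 5, i ∈ ({c} : Finset (Fin 5)) → j ∉ ({c} : Finset (Fin 5)) →
      i ∉ ({0, 1, 2} : Finset (Fin 5)) → j ∉ ({0, 1, 2} : Finset (Fin 5)) →
      ∀ B : Finset (Fin 5), Disjoint {i, j} B → B ⊆ {0, 1, 2} := by decide +kernel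
  have k : ∀ t, C.Gen t → _ := fun t ht =>
    k1 _ _ (sub h ht) (sub h (by simpa using ht.add 1)) ht.disj
  obtain ⟨t, s, s', g, g', h1, -, -, h2⟩ := main (fun B => decide (3 ∈ B)) (fun t ht => (k t ht).1)
    {{0, 1, 2}} (by simp) (by simpa using h)
  obtain ⟨c, hc, c', hc', n, n', h3⟩ := h2 _ (Finset.mem_singleton_self _)
  obtain ⟨i, hi, j, hj, m, m', h4⟩ := h3 {c} (Finset.mem_singleton_self _)
    (k2 _ _ (k s g).2 (k s' g').2 h1 c hc c' hc' n n')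
  obtain ⟨u, hu, h5⟩ := crossP h4
  exact sub h hu (k3 c i j hi hj m m' _ h5)

lemma no3 {T : ℂ} {X : Finset (Fin 5)} (h : C.G T X) : X.card ≤ 2 := by
  by_contra hc
  obtain ⟨a, ha, b, hb, c, hc, h1, h2, h3⟩ := Finset.two_lt_card.1 (not_le.1 hc)
  obtain ⟨d, e, hσ⟩ := bij3 a b c h1 h2 h3
  exact no3a _ (h.shift.perm hσ (by simp [ha, hb, hc]))

lemma ty {L : Finset (Finset (Fin 5))} (h : ∀ X ∈ L, C.G 0 X) {t : ℝ} (ht : C.Gen t) :
    Ty L (C.A t) := ⟨A_ne t, no3 ht.G, fun X hX => sub (h X hX) ht⟩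

lemma noK23a (C : Cfg) (h : ∀ i, i ≠ 3 → i ≠ 4 → C.G 0 {i, 3} ∧ C.G 0 {i, 4}) : False := by
  have hL : ∀ X ∈ ({{0, 3}, {1, 3}, {2, 3}, {0, 4}, {1, 4}, {2, 4}} : Finset (Finset (Fin 5))),
      C.G 0 X := by
    simp only [Finset.mem_insert, Finset.mem_singleton, forall_eq_or_imp, forall_eq]
    exact ⟨(h 0 (by decide) (by decide)).1, (h 1 (by decide) (by decide)).1,
      (h 2 (by decide) (by decide)).1, (h 0 (by decide) (by decide)).2,
      (h 1 (by decide) (by decide)).2, (h 2 (by decide) (by decide)).2⟩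
  have T := fun t ht => ty hL (t := t) ht
  generalize hL' : ({{0, 3}, {1, 3}, {2, 3}, {0, 4}, {1, 4}, {2, 4}} : Finset (Finset (Fin 5))) = L
    at T
  have k1 : ∀ B, Ty L B → ∀ B', Ty L B' → Disjoint B B' → (3 ∈ B ↔ 3 ∉ B') := by
    subst hL'; decide +kernel
  have k2 : ∀ B, Ty L B → 3 ∈ B → 4 ∈ B := by subst hL'; decide +kernel
  have k3 : ∀ B, Ty L B → 3 ∉ B → ∀ B', Ty L B' → 3 ∉ B' → ∀ u, u ≠ 3 → u ≠ 4 → u ∉ B → u ∉ B' →
      B = B' := by subst hL'; decide +kernel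
  have k4 : ∀ i j : Fin 5, i ≠ j → i ≠ 3 → i ≠ 4 → j ≠ 3 → j ≠ 4 → ∃ l, l ≠ 3 ∧ l ≠ 4 ∧
      ∀ B, Ty L B → ¬ B ⊆ {i, j} → 3 ∉ B → l ∈ B := by subst hL'; decide +kernel
  have k5 : ∀ B, Ty L B → 3 ∉ B → ∃ l ∈ B, l ≠ 3 ∧ l ≠ 4 := by subst hL'; decide +kernel
  have fin : ∀ l, l ≠ 3 → l ≠ 4 → (∀ t, C.Gen t → 3 ∉ C.A t → l ∈ C.A t) → False := by
    intro l l3 l4 hl
    obtain ⟨t, ht, hd⟩ := cross' ((h l l3 l4).1 2 two_pos)
    rw [Finset.disjoint_insert_left, Finset.disjoint_singleton_left] at hd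
    exact hd.1 (hl t ht hd.2)
  by_cases hE : ∃ i j : Fin 5, i ≠ j ∧ i ≠ 3 ∧ i ≠ 4 ∧ j ≠ 3 ∧ j ≠ 4 ∧ C.G 0 {i, j}
  · obtain ⟨i, j, a, b, c, d, e, f⟩ := hE
    obtain ⟨l, l3, l4, hl⟩ := k4 i j a b c d e
    exact fin l l3 l4 fun t ht => hl _ (T t ht) (sub f ht)
  have gp : ∀ t, C.Gen t → C.Gen (t + π) := fun t ht => by
    have := ht.add 3
    push_cast at this
    rwa [mul_div_cancel₀ _ (three_ne_zero)] at this
  have alt : ∀ t, C.Gen t → (3 ∈ C.A t ↔ 3 ∉ C.A (t + π)) := fun t ht => by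
    have g1 : C.Gen (t + π / 3) := by simpa using ht.add 1
    have g2 : C.Gen (t + π / 3 + π / 3) := by simpa using g1.add 1
    have a := k1 _ (T _ ht) _ (T _ g1) ht.disj
    have b := k1 _ (T _ g1) _ (T _ g2) g1.disj
    have c := k1 _ (T _ g2) _ (T _ (by simpa using g2.add 1)) g2.disj
    rw [show t + π / 3 + π / 3 + π / 3 = t + π by ring] at c
    tauto
  have per : ∀ t, C.A (t + π + π) = C.A t := fun t => by
    ext a; rw [mem_A, mem_A, ee_pi, ee_pi, neg_neg]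
  obtain ⟨ρ, hρ, hst, -⟩ := stab (C := C) 0
  obtain ⟨η, hη, hb⟩ : ∃ η > 0, ∀ x y : ℝ, |y - x| < η → ‖ee x - ee y‖ < min ρ 2 ∧ |y - x| < 1 := by
    refine ⟨min (min ρ 2) 1, by positivity, fun x y hxy => ⟨?_, hxy.trans_le (min_le_right _ _)⟩⟩
    refine lt_of_le_of_lt ?_ (hxy.trans_le (min_le_left _ _))
    rw [← dist_eq_norm, ← sq_le_sq₀ dist_nonneg (abs_nonneg _), ee_dist, sq_abs]
    nlinarith [one_sub_sq_div_two_le_cos (x := x - y)]
  have kl : ∀ x y, y ≠ x → |y - x| < η → ∀ a, ((∀ᶠ s in 𝓝 x, ee s ∈ C.F a) ∨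
      ∀ᶠ s in 𝓝 (y + π), ee s ∈ C.F a) → ee x - ee y ∉ C.F a := by
    intro x y hne hxy a g
    have n0 : ee x - ee y ≠ 0 := fun e => hne (ee_inj (sub_eq_zero.1 e).symm
      ((hb x y hxy).2.trans (by linarith [pi_gt_three])))
    have n2 := (hb x y hxy).1.trans_le (min_le_right _ _)
    exact g.elim (fun g => kill g n0 n2 (by simp [ee_norm]))
      fun g => kill g n0 n2 (by
        rw [dist_eq_norm, ee_pi, show -ee y - (ee x - ee y) = -ee x by ring, norm_neg, ee_norm])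
  have M : ∀ x, C.Gen x → 3 ∈ C.A x → ∀ y, y ≠ x → |y - x| < η → ∀ u, ee x - ee y ∈ C.F u →
      u ≠ 3 ∧ u ≠ 4 ∧ u ∉ C.A (x + π) := by
    intro x g h3 y hne hxy u hu
    obtain ⟨y', h1, h4⟩ : ∃ y', (∀ᶠ s in 𝓝 (y' + π), C.A s = C.A (x + π)) ∧
        ∀ w ∈ uIcc y y', w ≠ x ∧ |w - x| < η := by
      have e := ((continuous_add_const π).tendsto x).eventually (gp x g).loc.eventually_nhds
      rw [abs_lt] at hxy
      rcases hne.lt_or_gt with l | l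
      · obtain ⟨w, w1, w2⟩ := ((e.filter_mono nhdsWithin_le_nhds).and (Ioo_mem_nhdsLT l)).exists
        refine ⟨w, w1, fun v hv => ?_⟩
        rw [uIcc_of_le w2.1.le] at hv
        exact ⟨(hv.2.trans_lt w2.2).ne, abs_lt.2 ⟨by linarith [hv.1], by linarith [hv.2, w2.2]⟩⟩
      · obtain ⟨w, w1, w2⟩ := ((e.filter_mono nhdsWithin_le_nhds).and (Ioo_mem_nhdsGT l)).exists
        refine ⟨w, w1, fun v hv => ?_⟩
        rw [uIcc_of_ge w2.2.le] at hv
        exact ⟨(w2.1.trans_le hv.1).ne', abs_lt.2 ⟨by linarith [hv.1, w2.1], by linarith [hv.2]⟩⟩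
    have fr : ∀ w ∈ uIcc y y', ∀ a, ee x - ee w ∈ C.F a → a ≠ 3 ∧ a ≠ 4 := fun w hw a ha =>
      ⟨fun e => kl x w (h4 w hw).1 (h4 w hw).2 3 (Or.inl (g.ev h3)) (e ▸ ha),
        fun e => kl x w (h4 w hw).1 (h4 w hw).2 4 (Or.inl (g.ev (k2 _ (T x g) h3))) (e ▸ ha)⟩
    obtain ⟨v, hv⟩ := C.cov (ee x - ee y')
    have uv : v = u := by
      by_contra hn
      obtain ⟨i, hi, j, hj, hE'⟩ := conn (W := ball 0 ρ ∩ (C.F 3 ∪ C.F 4)ᶜ)
        (isOpen_ball.inter ((C.cl 3).union (C.cl 4)).isOpen_compl)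
        (isPreconnected_uIcc.image (fun w => ee x - ee w) (by fun_prop)) (by
          rintro _ ⟨w, hw, rfl⟩
          exact ⟨mem_ball_zero_iff.2 ((hb x w (h4 w hw).2).1.trans_le (min_le_left _ _)),
            fun h => h.elim (fun h => (fr w hw 3 h).1 rfl) fun h => (fr w hw 4 h).2 rfl⟩)
        {u} ⟨y, left_mem_uIcc, rfl⟩ ⟨y', right_mem_uIcc, rfl⟩ hu hv (by simp) (by simpa using hn)
      have hk : ∀ k ∈ ({i, j} : Finset (Fin 5)), k ≠ 3 ∧ k ≠ 4 := fun k hk => by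
        obtain ⟨K, k1, k2, k3⟩ := hE'
        obtain ⟨z, hz⟩ := k2.2.2.nonempty
        exact ⟨fun e => (k1 hz).2 (Or.inl (e ▸ k3 k hk hz)),
          fun e => (k1 hz).2 (Or.inr (e ▸ k3 k hk hz))⟩
      exact hE ⟨i, j, fun e => hj (e ▸ hi), (hk i (by simp)).1, (hk i (by simp)).2,
        (hk j (by simp)).1, (hk j (by simp)).2, hst _ (hE'.mono Subset.rfl inter_subset_left)⟩
    exact ⟨(fr y left_mem_uIcc u hu).1, (fr y left_mem_uIcc u hu).2, fun hm =>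
      kl x y' (h4 _ right_mem_uIcc).1 (h4 _ right_mem_uIcc).2 u
        (Or.inr (h1.mono fun s hs => mem_A.1 (hs ▸ hm))) (uv ▸ hv)⟩
  have HH : ∀ x y, C.Gen x → C.Gen y → 3 ∈ C.A x → 3 ∈ C.A y → |y - x| < η →
      C.A (x + π) = C.A (y + π) := by
    intro x y gx gy hx hy hxy
    by_cases e : y = x
    · rw [e]
    obtain ⟨u, hu⟩ := C.cov (ee x - ee y)
    obtain ⟨u3, u4, u5⟩ := M x gx hx y e hxy u hu
    exact k3 _ (T _ (gp x gx)) ((alt x gx).1 hx) _ (T _ (gp y gy)) ((alt y gy).1 hy) u u3 u4 u5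
      fun hm => kl x y e hxy u (Or.inr ((gp y gy).ev hm)) hu
  have HN : ∀ x y, C.Gen x → C.Gen y → 3 ∈ C.A x → 3 ∉ C.A y → |y - x| < η →
      C.A (x + π) = C.A y := by
    intro x y gx gy hx hy hxy
    have e : y ≠ x := fun e => hy (e ▸ hx)
    obtain ⟨u, hu⟩ := C.cov (ee x - ee y)
    obtain ⟨u3, u4, u5⟩ := M x gx hx y e hxy u hu
    obtain ⟨-, -, u6⟩ := M (y + π) (gp y gy) (not_not.1 fun n => hy ((alt y gy).2 n)) (x + π)
      (by simpa using e.symm) (by rwa [add_sub_add_right_eq_sub, abs_sub_comm]) u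
      (by rwa [ee_pi, ee_pi, neg_sub_neg])
    exact k3 _ (T _ (gp x gx)) ((alt x gx).1 hx) _ (T _ gy) hy u u3 u4 u5 (per y ▸ u6)
  let Ψ : ℝ → Finset (Fin 5) := fun t => if 3 ∈ C.A t then C.A (t + π) else C.A t
  have loc : ∀ x y, C.Gen x → C.Gen y → |y - x| < η → Ψ x = Ψ y := by
    intro x y gx gy hxy
    by_cases hx : 3 ∈ C.A x <;> by_cases hy : 3 ∈ C.A y <;> simp only [Ψ, hx, hy, if_true, if_false]
    · exact HH x y gx gy hx hy hxy
    · exact HN x y gx gy hx hy hxy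
    · exact (HN y x gy gx hy hx (by rwa [abs_sub_comm])).symm
    · rw [← per x, ← per y]
      exact HH _ _ (gp x gx) (gp y gy) (not_not.1 fun n => hx ((alt x gx).2 n))
        (not_not.1 fun n => hy ((alt y gy).2 n)) (by rwa [add_sub_add_right_eq_sub])
  obtain ⟨t0, g0⟩ := (gen_dense (C := C)).nonempty
  have cst : ∀ t, C.Gen t → Ψ t = Ψ t0 := by
    intro t g
    by_contra hn
    obtain ⟨z, -, z1, z2⟩ := isPreconnected_closed_iff.1 (isPreconnected_univ (α := ℝ))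
      (closure {s | C.Gen s ∧ Ψ s = Ψ t0}) (closure {s | C.Gen s ∧ Ψ s ≠ Ψ t0}) isClosed_closure
      isClosed_closure (fun s _ => by
        rw [← closure_union]
        exact closure_mono (fun s hs => (em (Ψ s = Ψ t0)).imp (fun e => ⟨hs, e⟩) fun e => ⟨hs, e⟩)
          (gen_dense (C := C) s))
      ⟨t0, trivial, subset_closure ⟨g0, rfl⟩⟩ ⟨t, trivial, subset_closure ⟨g, hn⟩⟩
    obtain ⟨a, a1, a2⟩ := Metric.mem_closure_iff.1 z1 _ (half_pos hη)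
    obtain ⟨b, b1, b2⟩ := Metric.mem_closure_iff.1 z2 _ (half_pos hη)
    refine b1.2 ((loc a b a1.1 b1.1 ?_).symm.trans a1.2)
    rw [← Real.dist_eq]
    linarith [dist_triangle_left b a z]
  obtain ⟨l, hl, l3, l4⟩ : ∃ l ∈ Ψ t0, l ≠ 3 ∧ l ≠ 4 := by
    by_cases hx : 3 ∈ C.A t0 <;> simp only [Ψ, hx, if_true, if_false]
    · exact k5 _ (T _ (gp t0 g0)) ((alt t0 g0).1 hx)
    · exact k5 _ (T _ g0) hx
  refine fin l l3 l4 fun t g n => ?_
  rw [← cst t g] at hl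
  simpa only [Ψ, n, if_false] using hl

variable (C) in
/-- the interface graph at `T` -/
def E (T : ℂ) (i j : Fin 5) : Prop := i ≠ j ∧ C.G T {i, j}

lemma E.symm {T : ℂ} {i j : Fin 5} (h : C.E T i j) : C.E T j i :=
  ⟨h.1.symm, Finset.pair_comm i j ▸ h.2⟩

lemma noK23 (T : ℂ) : ¬ K23 (C.E T) := by
  rintro ⟨p, q, hpq, h⟩
  obtain ⟨a, b, c, hσ⟩ := bij2 p q hpq
  refine noK23a ((C.shift T).perm _ hσ) fun i i3 i4 => ?_
  have := h (![a, b, c, p, q] i) (hσ.ne i3) (hσ.ne i4)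
  exact ⟨this.1.2.shift.perm hσ (by simp), this.2.2.shift.perm hσ (by simp)⟩

lemma inn {T : ℂ} {B : Finset (Fin 5)} (h : C.G T B) : In (C.E T) B := fun _ hc _ hd e =>
  ⟨e, h.mono (Finset.insert_subset hc (Finset.singleton_subset_iff.2 hd))⟩

lemma lk {T : ℂ} {B B' : Finset (Fin 5)} {a b : Fin 5} (hab : a ≠ b)
    (h : ∃ c ∈ B, ∃ c' ∈ B', c ∉ ({a, b} : Finset (Fin 5)) ∧ c' ∉ ({a, b} : Finset (Fin 5)) ∧
      ∀ Y : Finset (Fin 5), c ∈ Y → c' ∉ Y → ∃ i ∈ Y, ∃ j ∉ Y, i ∉ ({a, b} : Finset (Fin 5)) ∧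
        j ∉ ({a, b} : Finset (Fin 5)) ∧ C.G T {i, j}) : Lk (C.E T) B B' a b := by
  simp only [Finset.mem_insert, Finset.mem_singleton, not_or] at h
  obtain ⟨c, hc, c', hc', n, n', h⟩ := h
  refine ⟨c, hc, c', hc', n.1, n.2, n'.1, n'.2, ?_⟩
  by_cases e : c = c'
  · exact Or.inl e
  obtain ⟨i, hi, j, hj, -, m, g⟩ := h {c} (by simp) (by simpa using Ne.symm e)
  rw [Finset.mem_singleton] at hi hj
  subst hi
  by_cases e' : j = c'
  · exact Or.inr (Or.inl ⟨e, e' ▸ g⟩)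
  obtain ⟨i', hi', j', hj', -, m', g'⟩ := h {i, j} (by simp) (by simpa using ⟨Ne.symm e, Ne.symm e'⟩)
  simp only [Finset.mem_insert, Finset.mem_singleton, not_or] at hi' hj'
  obtain rfl := fifth a b i j c' j' hab n.1 n.2 m.1 m.2 (Ne.symm hj) n'.1 n'.2 e e' m'.1 m'.2 hj'.1
    hj'.2
  rcases hi' with rfl | rfl
  · exact Or.inr (Or.inl ⟨e, g'⟩)
  · exact Or.inr (Or.inr ⟨i', m.1, m.2, ⟨Ne.symm hj, g⟩, e', g'⟩)

lemma chk (T : ℂ) : Ch3 (C.E T) ∧ Ch4 (C.E T) ∧ Ch5 (C.E T) := by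
  obtain ⟨b0, b1, b2, b3, b4, b5, b6, b7, b8, b9, h⟩ :=
    gr_ex (C.E T) (fun _ _ => E.symm) fun i h => h.1 rfl
  rw [h]
  exact ⟨ch3 _ _ _ _ _ _ _ _ _ _, ch4 _ _ _ _ _ _ _ _ _ _, ch5 _ _ _ _ _ _ _ _ _ _⟩

lemma noTa (C : Cfg) (h : ∀ X ∈ ({{0, 1}, {1, 2}, {0, 2}} : Finset (Finset (Fin 5))), C.G 0 X) :
    False := by
  have k := fun t (ht : C.Gen t) =>
    ty3' _ (ty h ht) _ (ty h (by simpa using ht.add 1 : C.Gen (t + π / 3))) ht.disj
  obtain ⟨t, s, s', g, g', h1, h2, h3, h4⟩ := main (fun B => decide (3 ∈ B))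
    (fun t ht => (k t ht).2) _ (by decide) h
  refine noK23 _ ((chk (ee t)).1 (fun e => ?_) _ (ty3 _ (ty h g)) (inn h2) (k s g).1 _
    (ty3 _ (ty h g')) (inn h3) (k s' g').1 h1 (lk (by decide) (h4 _ (by decide)))
    (lk (by decide) (h4 _ (by decide))) (lk (by decide) (h4 _ (by decide))))
  obtain ⟨u, hu, hd⟩ := crossP e.2
  exact ty3'' _ (ty h hu) hd

lemma noT (T : ℂ) : ¬ Tri (C.E T) := by
  rintro ⟨a, b, h1, c, h2, h3⟩
  obtain ⟨d, e, hσ⟩ := bij3 a b c h1.1 h3.1 h2.1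
  refine noTa ((C.shift T).perm _ hσ) ?_
  simp only [Finset.mem_insert, Finset.mem_singleton, forall_eq_or_imp, forall_eq]
  exact ⟨h1.2.shift.perm hσ (by simp), h2.2.shift.perm hσ (by simp), h3.2.shift.perm hσ (by simp)⟩

lemma noC4a (C : Cfg)
    (h : ∀ X ∈ ({{0, 1}, {1, 2}, {2, 3}, {3, 0}} : Finset (Finset (Fin 5))), C.G 0 X) : False := by
  obtain ⟨t, s, s', g, g', h1, h2, h3, h4⟩ := main k4 (fun t ht =>
    ty4' _ (ty h ht) _ (ty h (by simpa using ht.add 1 : C.Gen (t + π / 3))) ht.disj) _ (by decide) h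
  exact noK23 _ ((chk (ee t)).2.1 (noT _) _ (ty4 _ (ty h g)) (inn h2) _
    (ty4 _ (ty h g')) (inn h3) h1 (lk (by decide) (h4 _ (by decide)))
    (lk (by decide) (h4 _ (by decide))) (lk (by decide) (h4 _ (by decide)))
    (lk (by decide) (h4 _ (by decide))))

lemma noC5a (C : Cfg)
    (h : ∀ X ∈ ({{0, 1}, {1, 2}, {2, 3}, {3, 4}, {4, 0}} : Finset (Finset (Fin 5))), C.G 0 X) :
    False := by
  obtain ⟨t, s, s', g, g', h1, h2, h3, h4⟩ := main id (fun t ht e =>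
    (A_ne t).ne_empty (disjoint_self.1 (show Disjoint (C.A t) (C.A t) from
      (show C.A t = _ from e).symm ▸ ht.disj))) _ (by decide) h
  exact noK23 _ ((chk (ee t)).2.2 (noT _) _ (ty5 _ (ty h g)) (inn h2) _
    (ty5 _ (ty h g')) (inn h3) h1 (lk (by decide) (h4 _ (by decide)))
    (lk (by decide) (h4 _ (by decide))) (lk (by decide) (h4 _ (by decide)))
    (lk (by decide) (h4 _ (by decide))) (lk (by decide) (h4 _ (by decide))))

lemma noC4 {T : ℂ} {a b c d : Fin 5} (h1 : C.E T a b) (h2 : C.E T b c) (h3 : C.E T c d)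
    (h4 : C.E T d a) (n1 : a ≠ c) (n2 : b ≠ d) : False := by
  obtain ⟨e, hσ⟩ := bij4 a b c d h1.1 n1 h2.1 h4.1.symm n2 h3.1
  refine noC4a ((C.shift T).perm _ hσ) ?_
  simp only [Finset.mem_insert, Finset.mem_singleton, forall_eq_or_imp, forall_eq]
  exact ⟨h1.2.shift.perm hσ (by simp), h2.2.shift.perm hσ (by simp), h3.2.shift.perm hσ (by simp),
    h4.2.shift.perm hσ (by simp)⟩

lemma noC5 {T : ℂ} {a b c d e : Fin 5} (h1 : C.E T a b) (h2 : C.E T b c) (h3 : C.E T c d)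
    (h4 : C.E T d e) (h5 : C.E T e a) (hσ : Function.Injective ![a, b, c, d, e]) : False := by
  refine noC5a ((C.shift T).perm _ hσ) ?_
  simp only [Finset.mem_insert, Finset.mem_singleton, forall_eq_or_imp, forall_eq]
  exact ⟨h1.2.shift.perm hσ (by simp), h2.2.shift.perm hσ (by simp), h3.2.shift.perm hσ (by simp),
    h4.2.shift.perm hσ (by simp), h5.2.shift.perm hσ (by simp)⟩

end Cfg

end Vale.Agent.P032
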