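import Mathlib
import Vale.Agent.Lib.Brouwer

/-! P032 part C, planar topology: cut wire, boundary bumping, Poincare-Miranda, hex, separation. -/

namespace Vale.Agent.P032

open Set Filter Topology Metric

/-- a nondegenerate continuum -/
def Cont {X : Type*} [TopologicalSpace X] (K : Set X) : Prop :=
  IsCompact K ∧ IsPreconnected K ∧ K.Nontrivial

lemma cut {X : Type*} [MetricSpace X] {Z P Q : Set X} (hZ : IsCompact Z) (hP : IsClosed P)
    (hQ : IsClosed Q) :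
    (∃ K ⊆ Z, IsCompact K ∧ IsPreconnected K ∧ (K ∩ P).Nonempty ∧ (K ∩ Q).Nonempty) ∨
    ∃ Z1 Z2 : Set X, IsCompact Z1 ∧ IsCompact Z2 ∧ Z ⊆ Z1 ∪ Z2 ∧ Disjoint Z1 Z2 ∧
      Disjoint Z1 Q ∧ Disjoint Z2 P := by
  rw [or_iff_not_imp_left]
  intro h
  have : CompactSpace Z := isCompact_iff_compactSpace.1 hZ
  have hQ' : IsCompact ((↑) ⁻¹' Q : Set Z) := (hQ.preimage continuous_subtype_val).isCompact
  have hP' : IsCompact ((↑) ⁻¹' P : Set Z) := (hP.preimage continuous_subtype_val).isCompact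
  have key : ∀ x : Z, x.1 ∈ P → ∃ V : Set Z, IsClopen V ∧ x ∈ V ∧ (↑) ⁻¹' Q ∩ V = ∅ := by
    intro x hx
    have : Nonempty {s : Set Z // IsClopen s ∧ x ∈ s} := ⟨⟨univ, isClopen_univ, trivial⟩⟩
    obtain ⟨V, hV⟩ := hQ'.elim_directed_family_closed
      (fun s : {s : Set Z // IsClopen s ∧ x ∈ s} => s.1) (fun s => s.2.1.1) (by
        rw [← connectedComponent_eq_iInter_isClopen, eq_empty_iff_forall_notMem]
        rintro y ⟨hy, hy'⟩
        refine h ⟨(↑) '' connectedComponent x, by rintro _ ⟨z, -, rfl⟩; exact z.2,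
          isClosed_connectedComponent.isCompact.image continuous_subtype_val,
          isPreconnected_connectedComponent.image _ continuous_subtype_val.continuousOn,
          ⟨x, ⟨x, mem_connectedComponent, rfl⟩, hx⟩, ⟨y, ⟨y, hy', rfl⟩, hy⟩⟩)
      (fun s t => ⟨⟨s.1 ∩ t.1, s.2.1.inter t.2.1, s.2.2, t.2.2⟩, inter_subset_left,
        inter_subset_right⟩)
    exact ⟨V.1, V.2.1, V.2.2, hV⟩
  choose! V hV using key
  obtain ⟨t, ht, hc⟩ := hP'.elim_nhds_subcover V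
    (fun x hx => (hV x hx).1.2.mem_nhds (hV x hx).2.1)
  have hW : IsClopen (⋃ x ∈ t, V x) := isClopen_biUnion_finset fun x hx => (hV x (ht x hx)).1
  refine ⟨(↑) '' (⋃ x ∈ t, V x), (↑) '' (⋃ x ∈ t, V x)ᶜ,
    hW.1.isCompact.image continuous_subtype_val,
    hW.compl.1.isCompact.image continuous_subtype_val, fun z hz => ?_,
    (disjoint_image_iff Subtype.val_injective).2 disjoint_compl_right, ?_, ?_⟩
  · by_cases h1 : (⟨z, hz⟩ : Z) ∈ ⋃ x ∈ t, V x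
    · exact Or.inl ⟨_, h1, rfl⟩
    · exact Or.inr ⟨_, h1, rfl⟩
  · rw [Set.disjoint_left]
    rintro _ ⟨z, hz, rfl⟩ hq
    obtain ⟨x, hx, hzx⟩ := mem_iUnion₂.1 hz
    exact (eq_empty_iff_forall_notMem.1 (hV x (ht x hx)).2.2 z) ⟨hq, hzx⟩
  · rw [Set.disjoint_left]
    rintro _ ⟨z, hz, rfl⟩ hp
    exact hz (hc hp)

lemma bump {X : Type*} [MetricSpace X] {M : Set X} (hM : Cont M) {x : X} (hx : x ∈ M) {ε : ℝ}
    (hε : 0 < ε) : ∃ K ⊆ M ∩ ball x ε, Cont K := by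
  obtain ⟨y, hy, hyx⟩ := hM.2.2.exists_ne x
  have hr : 0 < min (ε / 2) (dist y x) := lt_min (half_pos hε) (dist_pos.2 hyx)
  set r := min (ε / 2) (dist y x) with hrd
  rcases cut (hM.1.inter_right (isClosed_closedBall (x := x) (ε := r))) (isClosed_singleton (x := x))
    (isClosed_sphere (x := x) (ε := r)) with ⟨K, h1, h2, h3, ⟨a, ha, ha'⟩, ⟨b, hb, hb'⟩⟩ |
    ⟨Z1, Z2, h1, h2, h3, h4, h5, h6⟩
  · refine ⟨K, h1.trans (inter_subset_inter_right _ (closedBall_subset_ball ?_)), h2, h3,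
      a, ha, b, hb, ?_⟩
    · exact (min_le_left _ _).trans_lt (half_lt_self hε)
    · rintro rfl
      rw [mem_singleton_iff.1 ha', mem_sphere, dist_self] at hb'
      exact hr.ne hb'
  · exfalso
    obtain ⟨z, hz, hz1, hz2⟩ := isPreconnected_closed_iff.1 hM.2.1 (Z1 ∩ closedBall x r)
      (Z2 ∪ (ball x r)ᶜ) (h1.isClosed.inter isClosed_closedBall)
      (h2.isClosed.union isOpen_ball.isClosed_compl) (fun z hz => by
        by_cases hb : z ∈ ball x r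
        · rcases h3 ⟨hz, ball_subset_closedBall hb⟩ with h | h
          · exact Or.inl ⟨h, ball_subset_closedBall hb⟩
          · exact Or.inr (Or.inl h)
        · exact Or.inr (Or.inr hb))
      ⟨x, hx, (h3 ⟨hx, mem_closedBall_self hr.le⟩).resolve_right
        (fun h => Set.disjoint_left.1 h6 h rfl), mem_closedBall_self hr.le⟩
      ⟨y, hy, Or.inr (by simp [hrd])⟩
    rcases hz2 with h | h
    · exact Set.disjoint_left.1 h4 hz1.1 h
    · exact Set.disjoint_left.1 h5 hz1.1 (le_antisymm hz1.2 (not_lt.1 h))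

lemma cover {X ι : Type*} [MetricSpace X] [Finite ι] {M : Set X} (hM : Cont M) (C : ι → Set X)
    (hC : ∀ i, IsClosed (C i)) (hc : M ⊆ ⋃ i, C i) : ∃ i, ∃ K ⊆ M ∩ C i, Cont K := by
  have : CompactSpace M := isCompact_iff_compactSpace.1 hM.1
  have : Nonempty M := hM.2.2.nonempty.to_subtype
  obtain ⟨i, x, hx⟩ := nonempty_interior_of_iUnion_of_closed
    (f := fun i => ((↑) ⁻¹' C i : Set M)) (fun i => (hC i).preimage continuous_subtype_val)
    (by rw [eq_univ_iff_forall]; intro x; simpa using hc x.2)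
  obtain ⟨ε, hε, h⟩ := Metric.mem_nhds_iff.1 (mem_interior_iff_mem_nhds.1 hx)
  obtain ⟨K, h1, h2⟩ := bump hM x.2 hε
  exact ⟨i, K, fun z hz => ⟨(h1 hz).1, h (show (⟨z, (h1 hz).1⟩ : M) ∈ ball x ε from (h1 hz).2)⟩, h2⟩

lemma sub_one {X ι : Type*} [TopologicalSpace X] [Finite ι] {K : Set X} (hK : IsPreconnected K)
    (C : ι → Set X) (hC : ∀ i, IsClosed (C i)) (hc : K ⊆ ⋃ i, C i)
    (hd : ∀ i j, ∀ x ∈ K, x ∈ C i → x ∈ C j → i = j) {i : ι} {x : X} (hx : x ∈ K) (hi : x ∈ C i) :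
    K ⊆ C i := by
  intro y hy
  by_contra hn
  obtain ⟨j, hj⟩ := mem_iUnion.1 (hc hy)
  obtain ⟨z, hz, hz1, hz2⟩ := isPreconnected_closed_iff.1 hK (C i) (⋃ j : {j // j ≠ i}, C j)
    (hC i) (isClosed_iUnion_of_finite fun j => hC j) (fun z hz => by
      obtain ⟨k, hk⟩ := mem_iUnion.1 (hc hz)
      by_cases h : k = i
      · exact Or.inl (h ▸ hk)
      · exact Or.inr (mem_iUnion.2 ⟨⟨k, h⟩, hk⟩)) ⟨x, hx, hi⟩
    ⟨y, hy, mem_iUnion.2 ⟨⟨j, fun h => hn (h ▸ hj)⟩, hj⟩⟩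
  obtain ⟨k, hk⟩ := mem_iUnion.1 hz2
  exact k.2 (hd _ _ z hz hk hz1)

/-- the unit square -/
def sq : Set (ℝ × ℝ) := Icc 0 1 ×ˢ Icc 0 1

lemma sq_compact : IsCompact sq := isCompact_Icc.prod isCompact_Icc

lemma pm (f g : ℝ × ℝ → ℝ) (hf : Continuous f) (hg : Continuous g)
    (f0 : ∀ p ∈ sq, p.1 = 0 → f p < 0) (f1 : ∀ p ∈ sq, p.1 = 1 → 0 < f p)
    (g0 : ∀ p ∈ sq, p.2 = 0 → g p < 0) (g1 : ∀ p ∈ sq, p.2 = 1 → 0 < g p) :
    ∃ p ∈ sq, f p = 0 ∧ g p = 0 := by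
  obtain ⟨p, hp⟩ := Vale.Agent.Lib.Brouwer.exists_fixed
    (fun p : ℝ × ℝ => (max 0 (min 1 (p.1 - f p)), max 0 (min 1 (p.2 - g p)))) (by fun_prop) 1
    (fun p => by
      rw [Prod.norm_def, max_le_iff, Real.norm_of_nonneg (le_max_left _ _),
        Real.norm_of_nonneg (le_max_left _ _)]
      exact ⟨max_le zero_le_one (min_le_left _ _), max_le zero_le_one (min_le_left _ _)⟩)
  have h1 : max 0 (min 1 (p.1 - f p)) = p.1 := congrArg Prod.fst hp
  have h2 : max 0 (min 1 (p.2 - g p)) = p.2 := congrArg Prod.snd hp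
  have hs : p ∈ sq := ⟨⟨h1 ▸ le_max_left _ _, h1 ▸ max_le zero_le_one (min_le_left _ _)⟩,
    ⟨h2 ▸ le_max_left _ _, h2 ▸ max_le zero_le_one (min_le_left _ _)⟩⟩
  have k : ∀ x v : ℝ, max 0 (min 1 (x - v)) = x → (x = 0 → v < 0) → (x = 1 → 0 < v) → v = 0 := by
    intro x v h a b
    rcases max_cases 0 (min 1 (x - v)) with ⟨c, d⟩ | ⟨c, d⟩ <;>
    rcases min_cases 1 (x - v) with ⟨e, e'⟩ | ⟨e, e'⟩
    · linarith
    · have := a (by linarith); linarith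
    · have := b (by linarith); linarith
    · linarith
  exact ⟨p, hs, k _ _ h1 (f0 p hs) (f1 p hs), k _ _ h2 (g0 p hs) (g1 p hs)⟩

lemma cut_fun {Z P Q : Set (ℝ × ℝ)} (hZ : IsCompact Z) (hP : IsClosed P) (hQ : IsClosed Q)
    (hPQ : Disjoint P Q) :
    (∃ K ⊆ Z, IsCompact K ∧ IsPreconnected K ∧ (K ∩ P).Nonempty ∧ (K ∩ Q).Nonempty) ∨
    ∃ g : ℝ × ℝ → ℝ, Continuous g ∧ (∀ p ∈ P, g p < 0) ∧ (∀ p ∈ Q, 0 < g p) ∧ ∀ p ∈ Z, g p ≠ 0 := by
  refine (cut hZ hP hQ).imp_right ?_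
  rintro ⟨Z1, Z2, h1, h2, h3, h4, h5, h6⟩
  obtain ⟨u, u0, u1, -⟩ := exists_continuous_zero_one_of_isClosed (h1.isClosed.union hP)
    (h2.isClosed.union hQ) (by
      rw [disjoint_union_left, disjoint_union_right, disjoint_union_right]
      exact ⟨⟨h4, h5⟩, h6.symm, hPQ⟩)
  refine ⟨fun p => u p - 1 / 2, by fun_prop, fun p hp => ?_, fun p hp => ?_, fun p hp => ?_⟩ <;>
    beta_reduce
  · rw [u0 (Or.inr hp)]; norm_num
  · rw [u1 (Or.inr hp)]; norm_num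
  · rcases h3 hp with h | h
    · rw [u0 (Or.inl h)]; norm_num
    · rw [u1 (Or.inl h)]; norm_num

lemma hex {R B : Set (ℝ × ℝ)} (hR : IsClosed R) (hB : IsClosed B) (hc : sq ⊆ R ∪ B) :
    (∃ K ⊆ sq ∩ R, IsPreconnected K ∧ (∃ a ∈ K, a.1 = 0) ∧ ∃ b ∈ K, b.1 = 1) ∨
    ∃ K ⊆ sq ∩ B, IsPreconnected K ∧ (∃ a ∈ K, a.2 = 0) ∧ ∃ b ∈ K, b.2 = 1 := by
  rcases cut_fun (P := {p | p.1 = 0}) (Q := {p | p.1 = 1}) (sq_compact.inter_right hR)
    (isClosed_eq continuous_fst continuous_const) (isClosed_eq continuous_fst continuous_const)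
    (Set.disjoint_left.2 fun p (a : p.1 = 0) (b : p.1 = 1) => by linarith) with
    ⟨K, h1, -, h2, h3, h4⟩ | ⟨f, hf, f0, f1, f2⟩
  · exact Or.inl ⟨K, h1, h2, h3, h4⟩
  rcases cut_fun (P := {p | p.2 = 0}) (Q := {p | p.2 = 1}) (sq_compact.inter_right hB)
    (isClosed_eq continuous_snd continuous_const) (isClosed_eq continuous_snd continuous_const)
    (Set.disjoint_left.2 fun p (a : p.2 = 0) (b : p.2 = 1) => by linarith) with
    ⟨K, h1, -, h2, h3, h4⟩ | ⟨g, hg, g0, g1, g2⟩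
  · exact Or.inr ⟨K, h1, h2, h3, h4⟩
  obtain ⟨p, hp, a, b⟩ := pm f g hf hg (fun p _ h => f0 p h) (fun p _ h => f1 p h)
    (fun p _ h => g0 p h) (fun p _ h => g1 p h)
  rcases hc hp with h | h
  · exact absurd a (f2 p ⟨hp, h⟩)
  · exact absurd b (g2 p ⟨hp, h⟩)

lemma sep0 {A B : Set (ℝ × ℝ)} (hA : IsClosed A) (hB : IsClosed B) (hc : sq ⊆ A ∪ B)
    (h0 : ∀ p ∈ sq, p.1 = 0 → p ∉ B) (h1 : ∀ p ∈ sq, p.1 = 1 → p ∉ A) :
    ∃ K ⊆ sq ∩ (A ∩ B), IsCompact K ∧ IsPreconnected K ∧ (∃ a ∈ K, a.2 = 0) ∧ ∃ b ∈ K, b.2 = 1 := by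
  have s0 : ((0 : ℝ), (0 : ℝ)) ∈ sq := by simp [sq]
  have s1 : ((1 : ℝ), (0 : ℝ)) ∈ sq := by simp [sq]
  have nA : A.Nonempty := ⟨_, (hc s0).resolve_right (h0 _ s0 rfl)⟩
  have nB : B.Nonempty := ⟨_, (hc s1).resolve_left (h1 _ s1 rfl)⟩
  rcases cut_fun (P := {p | p.2 = 0}) (Q := {p | p.2 = 1}) (sq_compact.inter_right (hA.inter hB))
    (isClosed_eq continuous_snd continuous_const) (isClosed_eq continuous_snd continuous_const)
    (Set.disjoint_left.2 fun p (a : p.2 = 0) (b : p.2 = 1) => by linarith) with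
    ⟨K, h1, h2, h3, h4, h5⟩ | ⟨g, hg, g0, g1, g2⟩
  · exact ⟨K, h1, h2, h3, h4, h5⟩
  obtain ⟨p, hp, a, b⟩ := pm (fun p => infDist p A - infDist p B) g
    ((continuous_infDist_pt A).sub (continuous_infDist_pt B)) hg
    (fun p hp h => by
      have := (hB.notMem_iff_infDist_pos nB).1 (h0 p hp h)
      rw [infDist_zero_of_mem ((hc hp).resolve_right (h0 p hp h))]; linarith)
    (fun p hp h => by
      have := (hA.notMem_iff_infDist_pos nA).1 (h1 p hp h)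
      rw [infDist_zero_of_mem ((hc hp).resolve_left (h1 p hp h))]; linarith)
    (fun p _ h => g0 p h) (fun p _ h => g1 p h)
  refine absurd b (g2 p ⟨hp, ?_⟩)
  rw [mem_inter_iff, hA.mem_iff_infDist_zero nA, hB.mem_iff_infDist_zero nB]
  rcases hc hp with h | h <;> have := infDist_zero_of_mem h <;> constructor <;> linarith

/-- two closed sets covering a disc, each with a point outside the other, meet in a continuum -/
lemma sep {A B : Set ℂ} (hA : IsClosed A) (hB : IsClosed B) {z : ℂ} {ρ : ℝ}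
    (hc : ball z ρ ⊆ A ∪ B) {p q : ℂ} (hp : p ∈ ball z ρ) (hq : q ∈ ball z ρ) (hpB : p ∉ B)
    (hqA : q ∉ A) : ∃ K ⊆ ball z ρ ∩ (A ∩ B), Cont K := by
  have hpq : q - p ≠ 0 := by
    intro h
    rw [sub_eq_zero.1 h] at hqA
    exact (hc hp).elim hqA hpB
  have e1 : ∀ᶠ h : ℝ in 𝓝 0, p + h * Complex.I * (q - p) ∈ ball z ρ ∩ Bᶜ ∧
      q + h * Complex.I * (q - p) ∈ ball z ρ ∩ Aᶜ := by
    refine Eventually.and ?_ ?_
    · refine (by fun_prop : Continuous fun h : ℝ => p + h * Complex.I * (q - p)).continuousAt.eventually_mem ?_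
      simpa using ⟨isOpen_ball.mem_nhds hp, hB.isOpen_compl.mem_nhds hpB⟩
    · refine (by fun_prop : Continuous fun h : ℝ => q + h * Complex.I * (q - p)).continuousAt.eventually_mem ?_
      simpa using ⟨isOpen_ball.mem_nhds hq, hA.isOpen_compl.mem_nhds hqA⟩
  obtain ⟨h, h0, hh⟩ := Metric.eventually_nhds_iff.1 e1
  let ψ : ℝ × ℝ → ℂ := fun s => p + (s.1 + (s.2 * (h / 2) : ℝ) * Complex.I) * (q - p)
  have hψ : Continuous ψ := by fun_prop
  have k : ∀ s ∈ sq, p + (s.2 * (h / 2) : ℝ) * Complex.I * (q - p) ∈ ball z ρ ∩ Bᶜ ∧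
      q + (s.2 * (h / 2) : ℝ) * Complex.I * (q - p) ∈ ball z ρ ∩ Aᶜ := fun s hs => hh (by
    rw [Real.dist_eq, sub_zero, abs_of_nonneg (mul_nonneg hs.2.1 (by linarith))]
    nlinarith [hs.2.2])
  have hb : ∀ s ∈ sq, ψ s ∈ ball z ρ := fun s hs => by
    have := (convex_ball z ρ) (k s hs).1.1 (k s hs).2.1 (sub_nonneg.2 hs.1.2) hs.1.1 (by ring)
    have e : ψ s = (1 - s.1) • (p + (s.2 * (h / 2) : ℝ) * Complex.I * (q - p)) +
        s.1 • (q + (s.2 * (h / 2) : ℝ) * Complex.I * (q - p)) := by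
      simp only [ψ, Complex.real_smul]; push_cast; ring
    rwa [e]
  obtain ⟨K, h1, h2, h3, ⟨a, ha, ha'⟩, b, hb', hb''⟩ := sep0 (hA.preimage hψ) (hB.preimage hψ)
    (fun s hs => hc (hb s hs))
    (fun s hs h1 h2 => (k s hs).1.2 (by simpa [ψ, h1] using h2))
    (fun s hs h1 h2 => (k s hs).2.2 (by
      have e : ψ s = q + (s.2 * (h / 2) : ℝ) * Complex.I * (q - p) := by
        simp only [ψ, h1]; push_cast; ring
      rw [← e]; exact h2))
  refine ⟨ψ '' K, ?_, h2.image hψ, h3.image _ hψ.continuousOn, _, ⟨a, ha, rfl⟩, _, ⟨b, hb', rfl⟩, ?_⟩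
  · rintro _ ⟨s, hs, rfl⟩
    exact ⟨hb s (h1 hs).1, (h1 hs).2⟩
  · intro e
    have := congrArg Complex.im (mul_right_cancel₀ hpq (add_left_cancel e))
    simp [ha', hb''] at this
    linarith

end Vale.Agent.P032
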