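import Vale.Agent.P032.Mean

/-! P032 transfer, part 2: isometric representations of the discrete motion group. -/

namespace Vale.Agent.P032

open Set Filter Topology
open scoped RealInnerProductSpace

/-- An isometric representation of the group of orientation preserving motions of the plane,
with no continuity assumed. -/
structure Rep (H : Type*) [NormedAddCommGroup H] [InnerProductSpace ℝ H] where
  T : ℂ → H →ₗᵢ[ℝ] H
  U : Circle → H →ₗᵢ[ℝ] H
  T_zero : ∀ w, T 0 w = w
  T_add : ∀ a b w, T (a + b) w = T a (T b w)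
  U_one : ∀ w, U 1 w = w
  U_mul : ∀ k l w, U (k * l) w = U k (U l w)
  U_T : ∀ (k : Circle) a w, U k (T a w) = T (k * a) (U k w)

namespace Rep

variable {H : Type*} [NormedAddCommGroup H] [InnerProductSpace ℝ H] (R : Rep H)

theorem T_comm (a b : ℂ) (w : H) : R.T a (R.T b w) = R.T b (R.T a w) := by
  rw [← R.T_add, ← R.T_add, add_comm]

theorem inner_T (a : ℂ) (w z : H) : ⟪R.T a w, z⟫ = ⟪w, R.T (-a) z⟫ := by
  rw [← (R.T a).inner_map_map w, ← R.T_add, add_neg_cancel, R.T_zero]

theorem inner_T_T (a b : ℂ) (w z : H) : ⟪R.T a w, R.T b z⟫ = ⟪R.T (a - b) w, z⟫ := by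
  rw [real_inner_comm, R.inner_T, ← R.T_add, real_inner_comm, neg_add_eq_sub]

theorem inner_U (k : Circle) (w z : H) : ⟪R.U k w, z⟫ = ⟪w, R.U k⁻¹ z⟫ := by
  rw [← (R.U k).inner_map_map w, ← R.U_mul, mul_inv_cancel, R.U_one]

theorem norm_T_sub (a b : ℂ) (w : H) : ‖R.T a w - R.T b w‖ = ‖R.T (a - b) w - w‖ := by
  rw [← (R.T b).norm_map (R.T (a - b) w - w), map_sub, ← R.T_add, add_sub_cancel]

theorem abs_inner_T_le (a : ℂ) (w z : H) : |⟪R.T a w, z⟫| ≤ ‖w‖ * ‖z‖ := by
  have := abs_real_inner_le_norm (R.T a w) z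
  rwa [(R.T a).norm_map] at this

/-- Vectors on which the translations along the family `u` act continuously. -/
def Cont {X : Type*} [TopologicalSpace X] (u : X → ℂ) : Submodule ℝ H where
  carrier := {w | Continuous fun x => R.T (u x) w}
  add_mem' := by
    intro a b ha hb
    simp only [mem_setOf_eq, map_add] at *
    exact ha.add hb
  zero_mem' := by
    simp only [mem_setOf_eq, map_zero]
    exact continuous_const
  smul_mem' := by
    intro c a ha
    simp only [mem_setOf_eq, map_smul] at *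
    exact ha.const_smul c

theorem mem_Cont {X : Type*} [TopologicalSpace X] {u : X → ℂ} {w : H} :
    w ∈ R.Cont u ↔ Continuous fun x => R.T (u x) w := Iff.rfl

theorem isClosed_Cont {X : Type*} [TopologicalSpace X] (u : X → ℂ) :
    IsClosed (R.Cont u : Set H) := by
  refine isClosed_of_closure_subset fun w hw => ?_
  refine continuous_of_uniform_approx_of_continuous fun s hs => ?_
  obtain ⟨ε, hε, hs⟩ := Metric.mem_uniformity_dist.1 hs
  obtain ⟨w', hw', hd⟩ := Metric.mem_closure_iff.1 hw ε hε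
  refine ⟨fun x => R.T (u x) w', hw', fun x => hs ?_⟩
  rwa [(R.T (u x)).isometry.dist_eq]

instance [CompleteSpace H] {X : Type*} [TopologicalSpace X] (u : X → ℂ) :
    (R.Cont u).HasOrthogonalProjection := by
  haveI : CompleteSpace (R.Cont u) := (R.isClosed_Cont u).completeSpace_coe
  infer_instance

theorem T_mem_Cont {X : Type*} [TopologicalSpace X] {u : X → ℂ} {w : H} (hw : w ∈ R.Cont u)
    (a : ℂ) : R.T a w ∈ R.Cont u := by
  rw [mem_Cont] at *
  simp only [fun x => R.T_comm (u x) a w]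
  exact (R.T a).continuous.comp hw

theorem T_mem_orth {X : Type*} [TopologicalSpace X] {u : X → ℂ} {w : H} (hw : w ∈ (R.Cont u)ᗮ)
    (a : ℂ) : R.T a w ∈ (R.Cont u)ᗮ := by
  rw [Submodule.mem_orthogonal'] at *
  intro z hz
  rw [R.inner_T]
  exact hw _ (R.T_mem_Cont hz _)

theorem proj_T [CompleteSpace H] {X : Type*} [TopologicalSpace X] (u : X → ℂ) (a : ℂ) (w : H) :
    (R.Cont u).starProjection (R.T a w) = R.T a ((R.Cont u).starProjection w) := by
  refine Submodule.eq_starProjection_of_mem_orthogonal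
    (R.T_mem_Cont (Submodule.starProjection_apply_mem _ w) a) ?_
  rw [← map_sub]
  exact R.T_mem_orth (Submodule.sub_starProjection_mem_orthogonal w) a

theorem proj_mem_Cont [CompleteSpace H] {X Y : Type*} [TopologicalSpace X] [TopologicalSpace Y]
    (u : X → ℂ) {u' : Y → ℂ} {w : H} (hw : w ∈ R.Cont u') :
    (R.Cont u).starProjection w ∈ R.Cont u' := by
  rw [mem_Cont] at *
  simp only [← R.proj_T]
  exact (R.Cont u).starProjection.continuous.comp hw

/-- The line in direction `k`. -/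
def dir (k : ℂ) : ℝ → ℂ := fun t => t * k

theorem Cont_id_le {X : Type*} [TopologicalSpace X] {u : X → ℂ} (hu : Continuous u) :
    R.Cont (id : ℂ → ℂ) ≤ R.Cont u := fun _ hw => Continuous.comp (g := fun a => R.T a _) hw hu

theorem continuous_dir (k : ℂ) : Continuous (dir k) := by
  unfold dir
  fun_prop

theorem Cont_dir_smul (k : ℂ) (c : ℝ) : R.Cont (dir k) ≤ R.Cont (dir (c * k)) := by
  intro w hw
  rw [mem_Cont] at *
  have h1 : Continuous fun t : ℝ => t * c := by fun_prop
  refine (hw.comp h1).congr fun t => ?_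
  simp only [dir, Function.comp_apply]
  push_cast
  rw [mul_assoc]

theorem mem_Cont_id {k l : ℂ} (hkl : (k * (starRingEnd ℂ) l).im ≠ 0) {w : H}
    (hk : w ∈ R.Cont (dir k)) (hl : w ∈ R.Cont (dir l)) : w ∈ R.Cont (id : ℂ → ℂ) := by
  rw [mem_Cont] at *
  obtain ⟨D, hD⟩ : ∃ D, D = (k * (starRingEnd ℂ) l).im := ⟨_, rfl⟩
  rw [← hD] at hkl
  let s : ℂ → ℝ := fun a => (a * (starRingEnd ℂ) l).im / D
  let t : ℂ → ℝ := fun a => (k * (starRingEnd ℂ) a).im / D
  have hs : Continuous s := by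
    simp only [s]
    fun_prop
  have ht : Continuous t := by
    simp only [t]
    fun_prop
  have hdec : ∀ a, a = dir k (s a) + dir l (t a) := by
    intro a
    simp only [Complex.mul_im, Complex.conj_re, Complex.conj_im] at hD
    apply Complex.ext
    · simp only [dir, s, t, Complex.add_re, Complex.mul_re, Complex.ofReal_re, Complex.ofReal_im,
        Complex.mul_im, Complex.conj_re, Complex.conj_im]
      field_simp
      rw [hD]
      ring
    · simp only [dir, s, t, Complex.add_im, Complex.mul_re, Complex.ofReal_re, Complex.ofReal_im,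
        Complex.mul_im, Complex.conj_re, Complex.conj_im]
      field_simp
      rw [hD]
      ring
  rw [continuous_iff_continuousAt]
  intro a
  rw [ContinuousAt, tendsto_iff_norm_sub_tendsto_zero]
  have h1 : Tendsto (fun b => ‖R.T (dir k (s b)) w - R.T (dir k (s a)) w‖
      + ‖R.T (dir l (t b)) w - R.T (dir l (t a)) w‖) (𝓝 a) (𝓝 0) := by
    have h2 := tendsto_iff_norm_sub_tendsto_zero.1 ((hk.comp hs).tendsto a)
    have h3 := tendsto_iff_norm_sub_tendsto_zero.1 ((hl.comp ht).tendsto a)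
    simpa using h2.add h3
  refine squeeze_zero (fun _ => norm_nonneg _) (fun b => ?_) h1
  simp only [id]
  have h4 : R.T b w - R.T a w
      = R.T (dir k (s b)) (R.T (dir l (t b)) w - R.T (dir l (t a)) w)
        + R.T (dir l (t a)) (R.T (dir k (s b)) w - R.T (dir k (s a)) w) := by
    rw [map_sub, map_sub, R.T_comm (dir l (t a)) (dir k (s b)), R.T_comm (dir l (t a)),
      ← R.T_add, ← R.T_add, ← R.T_add, ← hdec a, ← hdec b]
    abel
  rw [h4]
  refine (norm_add_le _ _).trans ?_
  rw [LinearIsometry.norm_map, LinearIsometry.norm_map, add_comm]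

theorem U_mem_Cont {X : Type*} [TopologicalSpace X] {u : X → ℂ} {w : H} (hw : w ∈ R.Cont u)
    (k : Circle) : R.U k w ∈ R.Cont (fun x => k * u x) := by
  rw [mem_Cont] at *
  simp only [← R.U_T]
  exact (R.U k).continuous.comp hw

theorem U_mem_Cont_id {w : H} (hw : w ∈ R.Cont (id : ℂ → ℂ)) (k : Circle) :
    R.U k w ∈ R.Cont (id : ℂ → ℂ) := by
  have h1 : w ∈ R.Cont (fun x : ℂ => ((k⁻¹ : Circle) : ℂ) * x) :=
    R.Cont_id_le (by fun_prop) hw
  have h2 := R.U_mem_Cont h1 k
  rw [mem_Cont] at *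
  refine h2.congr fun x => ?_
  simp [← mul_assoc]

theorem U_mem_Cont_dir {w : H} {l : ℂ} (hw : w ∈ R.Cont (dir l)) (k : Circle) :
    R.U k w ∈ R.Cont (dir (k * l)) := by
  have h2 := R.U_mem_Cont hw k
  rw [mem_Cont] at *
  refine h2.congr fun x => ?_
  simp only [dir]
  rw [mul_left_comm]

section mean

variable [CompleteSpace H] {m : (ℝ → ℝ) →ₗ[ℝ] ℝ} (hm : IsMean m)
  (hsh : ∀ (F : ℝ → ℝ) (C : ℝ), (∀ y, |F y| ≤ C) → ∀ h, |h| ≤ 1 →
        |m (fun y => F (y + h)) - m F| ≤ 16 * |h| * C)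

include hm hsh

/-- The local mean kills vectors orthogonal to the vectors continuous along a line. -/
theorem mean_line {k : ℂ} {v : H} (hv : v ∈ (R.Cont (dir k))ᗮ) (z : H) :
    m (fun y => ⟪R.T (dir k y) v, z⟫) = 0 := by
  let L0 : H →ₗ[ℝ] ℝ :=
    { toFun := fun z => m (fun y => ⟪R.T (dir k y) v, z⟫)
      map_add' := fun a b => by
        rw [← map_add]
        congr 1
        ext y
        simp [inner_add_right]
      map_smul' := fun c a => by
        rw [RingHom.id_apply, ← map_smul]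
        congr 1
        ext y
        simp [inner_smul_right] }
  let L : H →L[ℝ] ℝ := L0.mkContinuous ‖v‖ fun z => by
    rw [Real.norm_eq_abs]
    exact hm.abs_le fun y => R.abs_inner_T_le _ _ _
  obtain ⟨w, hw⟩ : ∃ w : H, ∀ z, ⟪w, z⟫ = m (fun y => ⟪R.T (dir k y) v, z⟫) :=
    ⟨(InnerProductSpace.toDual ℝ H).symm L, fun z => by
      rw [InnerProductSpace.toDual_symm_apply]
      rfl⟩
  have hlip : ∀ h : ℝ, |h| ≤ 1 → ‖R.T (dir k h) w - w‖ ≤ 16 * |h| * ‖v‖ := by
    intro h hh
    obtain ⟨d, hd⟩ : ∃ d, d = R.T (dir k h) w - w := ⟨_, rfl⟩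
    rw [← hd]
    have h1 : ⟪d, d⟫ = m (fun y => ⟪R.T (dir k (y + h)) v, d⟫)
        - m (fun y => ⟪R.T (dir k y) v, d⟫) := by
      conv_lhs => rw [show ⟪d, d⟫ = ⟪R.T (dir k h) w - w, d⟫ by rw [← hd]]
      rw [inner_sub_left, R.inner_T, hw, hw]
      congr 2
      ext y
      rw [← R.inner_T, ← R.T_add]
      simp only [dir]
      push_cast
      rw [add_mul, add_comm]
    have h2 := hsh (fun y => ⟪R.T (dir k y) v, d⟫) (‖v‖ * ‖d‖)
      (fun y => R.abs_inner_T_le _ _ _) h hh
    rw [← h1, real_inner_self_eq_norm_sq] at h2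
    have h3 := (le_abs_self _).trans h2
    rcases (norm_nonneg d).eq_or_lt with h4 | h4
    · rw [← h4]
      positivity
    · refine le_of_mul_le_mul_right ?_ h4
      nlinarith
  have hcont : w ∈ R.Cont (dir k) := by
    rw [mem_Cont, continuous_iff_continuousAt]
    intro t
    rw [ContinuousAt, tendsto_iff_norm_sub_tendsto_zero]
    have h1 : Tendsto (fun s : ℝ => 16 * |s - t| * ‖v‖) (𝓝 t) (𝓝 0) := by
      have : Continuous fun s : ℝ => 16 * |s - t| * ‖v‖ := by fun_prop
      simpa using this.tendsto t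
    refine squeeze_zero' (Eventually.of_forall fun _ => norm_nonneg _) ?_ h1
    filter_upwards [Metric.closedBall_mem_nhds t one_pos] with s hs
    rw [R.norm_T_sub, show dir k s - dir k t = dir k (s - t) by
      simp only [dir]
      push_cast
      ring]
    exact hlip _ (by simpa [Real.dist_eq] using hs)
  have h0 : ⟪w, w⟫ = 0 := by
    rw [hw]
    have : (fun y => ⟪R.T (dir k y) v, w⟫) = fun _ => 0 := by
      ext y
      exact (Submodule.mem_orthogonal' _ _).1 (R.T_mem_orth hv _) w hcont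
    rw [this, hm.const]
  rw [← hw, inner_self_eq_zero.1 h0, inner_zero_left]

/-- The projection onto the vectors continuous along a line preserves an invariant cone. -/
theorem proj_nonneg
    (hloc : ∀ F G : ℝ → ℝ, (∀ y, 0 ≤ y → y < 1 → F y = G y) → m F = m G)
    (k : ℂ) {ξ z : H} (h : ∀ a, 0 ≤ ⟪R.T a ξ, z⟫) :
    0 ≤ ⟪(R.Cont (dir k)).starProjection ξ, z⟫ := by
  obtain ⟨g, hg⟩ : ∃ g, g = (R.Cont (dir k)).starProjection ξ := ⟨_, rfl⟩
  have hgc : g ∈ R.Cont (dir k) := hg ▸ Submodule.starProjection_apply_mem _ ξ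
  have hv : ξ - g ∈ (R.Cont (dir k))ᗮ := hg ▸ Submodule.sub_starProjection_mem_orthogonal ξ
  rw [← hg]
  refine le_of_forall_pos_le_add fun ε hε => ?_
  have hc : Continuous fun t => ⟪R.T (dir k t) g, z⟫ :=
    Continuous.inner (R.mem_Cont.1 hgc) continuous_const
  obtain ⟨δ, hδ, hδ'⟩ := Metric.continuous_iff.1 hc 0 ε hε
  have hv' : ξ - g ∈ (R.Cont (dir (δ * k)))ᗮ := by
    refine Submodule.orthogonal_le ?_ hv
    have := R.Cont_dir_smul (δ * k) δ⁻¹
    rwa [← mul_assoc, ← Complex.ofReal_mul, inv_mul_cancel₀ hδ.ne', Complex.ofReal_one,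
      one_mul] at this
  have h1 := R.mean_line hm hsh hv' z
  have h2 : 0 ≤ m (fun y => ⟪R.T (dir (δ * k) y) ξ, z⟫) :=
    hm.ge ⟨_, fun y => R.abs_inner_T_le _ _ _⟩ fun y => h _
  have h3 : m (fun y => ⟪R.T (dir (δ * k) y) ξ, z⟫)
      = m (fun y => ⟪R.T (dir (δ * k) y) g, z⟫) := by
    rw [← sub_eq_zero, ← map_sub, ← h1]
    congr 1
    ext y
    simp [inner_sub_left]
  have h4 : m (fun y => ⟪R.T (dir (δ * k) y) g, z⟫)
      = m (fun y => ⟪R.T (dir (δ * k) (Int.fract y)) g, z⟫) :=
    hloc _ _ fun y h0 h1 => by rw [Int.fract_eq_self.2 ⟨h0, h1⟩]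
  rw [h3, h4] at h2
  refine h2.trans (hm _ ⟨_, fun y => R.abs_inner_T_le _ _ _⟩ _ fun y => ?_)
  have h5 := hδ' (Int.fract y * δ) (by
    rw [Real.dist_eq, sub_zero, abs_of_nonneg (mul_nonneg (Int.fract_nonneg y) hδ.le)]
    exact mul_lt_of_lt_one_left hδ (Int.fract_lt_one y))
  have h6 : dir k (Int.fract y * δ) = dir (δ * k) (Int.fract y) := by
    simp only [dir]
    push_cast
    ring
  have h7 : dir k 0 = 0 := by simp [dir]
  rw [h6, h7, R.T_zero, Real.dist_eq] at h5
  linarith [(abs_lt.1 h5).2]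

end mean

/-- A rotation invariant vector with no continuous part has no part continuous along a line. -/
theorem line_singular [CompleteSpace H] {v : H} (hv : v ∈ (R.Cont (id : ℂ → ℂ))ᗮ)
    (hU : ∀ k, R.U k v = v) : v ∈ (R.Cont (dir 1))ᗮ := by
  let P : Circle → H := fun k => (R.Cont (dir k)).starProjection v
  have hP : ∀ k : Circle, P k = R.U k (P 1) := by
    intro k
    refine Submodule.eq_starProjection_of_mem_orthogonal ?_ ?_
    · have := R.U_mem_Cont_dir (Submodule.starProjection_apply_mem (R.Cont (dir (1 : Circle))) v) k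
      rwa [Circle.coe_one, mul_one] at this
    · rw [Submodule.mem_orthogonal']
      intro z hz
      conv_lhs => rw [← hU k]
      rw [← map_sub, R.inner_U]
      refine (Submodule.mem_orthogonal' _ _).1
        (Submodule.sub_starProjection_mem_orthogonal (K := R.Cont (dir (1 : Circle))) v) _ ?_
      have := R.U_mem_Cont_dir hz k⁻¹
      rwa [← Circle.coe_mul, inv_mul_cancel] at this
  have hself : ∀ k : Circle, ⟪P k, v⟫ = ‖P 1‖ ^ 2 := by
    intro k
    have h1 : ⟪P k, v - P k⟫ = 0 :=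
      (Submodule.mem_orthogonal _ _).1 (Submodule.sub_starProjection_mem_orthogonal v) _
        (Submodule.starProjection_apply_mem _ v)
    rw [inner_sub_right, real_inner_self_eq_norm_sq] at h1
    have h2 : ‖P k‖ = ‖P 1‖ := by rw [hP k, LinearIsometry.norm_map]
    rw [← h2]
    linarith
  have horth : ∀ k l : Circle, ((k : ℂ) * (starRingEnd ℂ) l).im ≠ 0 → ⟪P k, P l⟫ = 0 := by
    intro k l hkl
    have h1 : (R.Cont (dir l)).starProjection (P k) ∈ R.Cont (id : ℂ → ℂ) :=
      R.mem_Cont_id hkl (R.proj_mem_Cont _ (Submodule.starProjection_apply_mem _ v))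
        (Submodule.starProjection_apply_mem _ _)
    rw [← Submodule.inner_starProjection_left_eq_right]
    exact (Submodule.mem_orthogonal _ _).1 hv _ h1
  let k : ℕ → Circle := fun j => Circle.exp (1 / ((j : ℝ) + 1))
  have hk : ∀ i j, i ≠ j → ((k i : ℂ) * (starRingEnd ℂ) (k j)).im ≠ 0 := by
    intro i j hij
    have h1 : (k i : ℂ) * (starRingEnd ℂ) (k j)
        = Complex.exp ((1 / ((i : ℝ) + 1) - 1 / ((j : ℝ) + 1) : ℝ) * Complex.I) := by
      simp only [k, Circle.coe_exp]
      rw [← Complex.exp_conj, ← Complex.exp_add]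
      congr 1
      simp only [map_mul, Complex.conj_ofReal, Complex.conj_I]
      push_cast
      ring
    rw [h1, Complex.exp_ofReal_mul_I_im]
    have hi : (0 : ℝ) < 1 / ((i : ℝ) + 1) := by positivity
    have hj : (0 : ℝ) < 1 / ((j : ℝ) + 1) := by positivity
    have hi' : 1 / ((i : ℝ) + 1) ≤ 1 := by
      rw [div_le_one (by positivity)]
      linarith [Nat.cast_nonneg (α := ℝ) i]
    have hj' : 1 / ((j : ℝ) + 1) ≤ 1 := by
      rw [div_le_one (by positivity)]
      linarith [Nat.cast_nonneg (α := ℝ) j]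
    intro h0
    rw [Real.sin_eq_zero_iff_of_lt_of_lt (by linarith [Real.pi_gt_three])
      (by linarith [Real.pi_gt_three]), sub_eq_zero] at h0
    apply hij
    field_simp at h0
    exact_mod_cast (show (i : ℝ) = j by linarith)
  have hbound : ∀ n : ℕ, (n : ℝ) * ‖P 1‖ ^ 2 ≤ ‖v‖ ^ 2 := by
    intro n
    obtain ⟨S, hS⟩ : ∃ S, S = ∑ j ∈ Finset.range n, P (k j) := ⟨_, rfl⟩
    have h1 : ⟪S, v⟫ = n * ‖P 1‖ ^ 2 := by
      rw [hS, sum_inner]
      simp [hself]
    have h2 : ‖S‖ ^ 2 = n * ‖P 1‖ ^ 2 := by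
      rw [← real_inner_self_eq_norm_sq, hS, sum_inner]
      have : ∀ i ∈ Finset.range n, ⟪P (k i), ∑ j ∈ Finset.range n, P (k j)⟫ = ‖P 1‖ ^ 2 := by
        intro i hi
        rw [inner_sum, Finset.sum_eq_single i (fun j _ hj => horth _ _ (hk i j hj.symm))
          (fun h => absurd hi h), real_inner_self_eq_norm_sq, hP (k i), LinearIsometry.norm_map]
      rw [Finset.sum_congr rfl this]
      simp
    have h3 := norm_sub_sq_real v S
    rw [real_inner_comm, h1, h2] at h3
    nlinarith [sq_nonneg ‖v - S‖]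
  have h0 : ‖P 1‖ ^ 2 = 0 := by
    by_contra h
    have h1 : 0 < ‖P 1‖ ^ 2 := lt_of_le_of_ne (sq_nonneg _) (Ne.symm h)
    obtain ⟨n, hn⟩ := exists_nat_gt (‖v‖ ^ 2 / ‖P 1‖ ^ 2)
    rw [div_lt_iff₀ h1] at hn
    linarith [hbound n]
  have h1 : P 1 = 0 := by simpa using h0
  have h2 := Submodule.sub_starProjection_mem_orthogonal (K := R.Cont (dir (1 : Circle))) v
  change v - P 1 ∈ _ at h2
  rwa [h1, sub_zero, Circle.coe_one] at h2

end Rep

end Vale.Agent.P032
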