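import Vale.Agent.P032.Rep

/-! P032 transfer, part 3: rigidity. The singular part of a rotation invariant vector is
orthogonal to its translates. -/

namespace Vale.Agent.P032

open Set Filter Topology Polynomial
open scoped RealInnerProductSpace

theorem natDegree_taylor_sub {P : ℝ[X]} {d : ℕ} (hP : P.natDegree = d + 1) {a b : ℝ}
    (hab : a ≠ b) : (taylor a P - taylor b P).natDegree = d := by
  have hP0 : P ≠ 0 := by
    rintro rfl
    simp at hP
  have hlt : (taylor a P - taylor b P).natDegree ≤ d := by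
    have h1 : (taylor a P - taylor b P).degree < (taylor a P).degree :=
      degree_sub_lt_left (by simp) (by simpa using hP0) (by simp)
    rw [degree_taylor, degree_eq_natDegree hP0, hP] at h1
    exact Nat.le_of_lt_succ (by
      by_cases h0 : taylor a P - taylor b P = 0
      · rw [h0]
        simp
      · rw [degree_eq_natDegree h0] at h1
        exact_mod_cast h1)
  refine natDegree_eq_of_le_of_coeff_ne_zero hlt ?_
  rw [coeff_sub, taylor_coeff, taylor_coeff]
  have h1 : (hasseDeriv d P).natDegree = 1 := by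
    rw [natDegree_hasseDeriv, hP]
    simp
  obtain ⟨c, hc, e, he⟩ := natDegree_eq_one.1 h1
  rw [← he]
  simp only [eval_add, eval_mul, eval_C, eval_X]
  rw [add_sub_add_right_eq_sub, ← mul_sub]
  exact mul_ne_zero hc (sub_ne_zero.2 hab)

namespace Rep

variable {H : Type*} [NormedAddCommGroup H] [InnerProductSpace ℝ H] (R : Rep H)

/-- The basic inequality behind van der Corput's trick. -/
theorem sq_sum_inner_le (v : H) (n : ℕ) (a : ℕ → ℂ) :
    (∑ i ∈ Finset.range n, ⟪R.T (a i) v, v⟫) ^ 2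
      ≤ ‖v‖ ^ 2 * ∑ i ∈ Finset.range n, ∑ j ∈ Finset.range n, ⟪R.T (a i - a j) v, v⟫ := by
  rw [← sum_inner]
  have h1 : ∑ i ∈ Finset.range n, ∑ j ∈ Finset.range n, ⟪R.T (a i - a j) v, v⟫
      = ‖∑ i ∈ Finset.range n, R.T (a i) v‖ ^ 2 := by
    rw [← real_inner_self_eq_norm_sq, sum_inner]
    refine Finset.sum_congr rfl fun i _ => ?_
    rw [inner_sum]
    exact Finset.sum_congr rfl fun j _ => (R.inner_T_T _ _ _ _).symm
  rw [h1, ← mul_pow, ← sq_abs, mul_comm ‖v‖]
  exact pow_le_pow_left₀ (abs_nonneg _) (abs_real_inner_le_norm _ _) 2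

theorem bdd_phi {X : Type*} (v : H) (u : X → ℂ) : Bdd fun y => ⟪R.T (u y) v, v⟫ :=
  ⟨_, fun _ => R.abs_inner_T_le _ _ _⟩

/-- Averaged form: if all off diagonal correlations have mean zero, the mean square of the sum is
small. -/
theorem mean_sq_sum_le {X : Type*} {m : (X → ℝ) →ₗ[ℝ] ℝ} (hm : IsMean m) (v : H) (n : ℕ)
    (a : ℕ → X → ℂ)
    (h : ∀ i j, i ≠ j → m (fun y => ⟪R.T (a i y - a j y) v, v⟫) = 0) :
    m (fun y => (∑ i ∈ Finset.range n, ⟪R.T (a i y) v, v⟫) ^ 2) ≤ n * ‖v‖ ^ 4 := by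
  have hb : Bdd (∑ i ∈ Finset.range n, fun y => ⟪R.T (a i y) v, v⟫) :=
    bdd_sum _ _ fun i _ => R.bdd_phi v _
  have hb2 : Bdd (∑ i ∈ Finset.range n, ∑ j ∈ Finset.range n,
      fun y => ⟪R.T (a i y - a j y) v, v⟫) :=
    bdd_sum _ _ fun i _ => bdd_sum _ _ fun j _ => R.bdd_phi v _
  have hb3 : Bdd (fun y => (∑ i ∈ Finset.range n, ⟪R.T (a i y) v, v⟫) ^ 2) := by
    convert hb.mul hb using 1
    ext y
    simp [sq, Finset.sum_apply]
  refine (hm.mono hb3 (hb2.smul (‖v‖ ^ 2)) fun y => ?_).trans ?_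
  · simpa [Finset.sum_apply] using R.sq_sum_inner_le v n (fun i => a i y)
  · rw [map_smul, map_sum]
    have : ∀ i ∈ Finset.range n, m (∑ j ∈ Finset.range n,
        fun y => ⟪R.T (a i y - a j y) v, v⟫) = ‖v‖ ^ 2 := by
      intro i hi
      rw [map_sum, Finset.sum_eq_single i (fun j _ hj => h i j hj.symm) (fun h => absurd hi h)]
      simp only [sub_self, R.T_zero, real_inner_self_eq_norm_sq]
      exact hm.const _
    rw [Finset.sum_congr rfl this]
    simp only [Finset.sum_const, Finset.card_range, nsmul_eq_mul, smul_eq_mul]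
    exact le_of_eq (by ring)

theorem eq_zero_of_sq_le {x C : ℝ} (h : ∀ n : ℕ, 0 < n → (n * x) ^ 2 ≤ n * C) : x = 0 := by
  by_contra hx
  have h1 : 0 < x ^ 2 := by positivity
  obtain ⟨n, hn⟩ := exists_nat_gt (max 0 (C / x ^ 2))
  have hn0 : (0 : ℝ) < n := lt_of_le_of_lt (le_max_left _ _) hn
  have hn1 := lt_of_le_of_lt (le_max_right _ _) hn
  rw [div_lt_iff₀ h1] at hn1
  have h2 := h n (by exact_mod_cast hn0)
  nlinarith

section mean

variable [CompleteSpace H] {m : (ℝ → ℝ) →ₗ[ℝ] ℝ} (hm : IsMean m)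
  (hsh : ∀ (F : ℝ → ℝ) (C : ℝ), (∀ y, |F y| ≤ C) → ∀ h, |h| ≤ 1 →
        |m (fun y => F (y + h)) - m F| ≤ 16 * |h| * C)

include hm hsh

/-- Van der Corput: correlations along nonconstant real polynomials have mean zero. -/
theorem mean_poly {v : H} (hv : v ∈ (R.Cont (dir 1))ᗮ) (d : ℕ) :
    ∀ P : ℝ[X], P.natDegree = d + 1 → m (fun y => ⟪R.T ((P.eval y : ℝ) : ℂ) v, v⟫) = 0 := by
  induction d with
  | zero =>
    intro P hP
    obtain ⟨c, hc, e, rfl⟩ := natDegree_eq_one.1 hP
    have hv' : v ∈ (R.Cont (dir c))ᗮ := by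
      refine Submodule.orthogonal_le ?_ hv
      have := R.Cont_dir_smul c c⁻¹
      rwa [← Complex.ofReal_mul, inv_mul_cancel₀ hc, Complex.ofReal_one] at this
    rw [← R.mean_line hm hsh hv' (R.T (-e) v)]
    congr 1
    ext y
    rw [R.inner_T_T]
    simp only [dir, eval_add, eval_mul, eval_C, eval_X]
    push_cast
    rw [sub_neg_eq_add, mul_comm]
  | succ d ih =>
    intro P hP
    obtain ⟨F, hF⟩ : ∃ F : ℝ → ℝ, F = fun y => ⟪R.T ((P.eval y : ℝ) : ℂ) v, v⟫ := ⟨_, rfl⟩
    rw [← hF]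
    have hFb : ∀ y, |F y| ≤ ‖v‖ * ‖v‖ := fun y => by
      rw [hF]
      exact R.abs_inner_T_le _ _ _
    refine eq_zero_of_sq_le (C := ‖v‖ ^ 4) fun n hn => ?_
    have key : ∀ δ : ℝ, 0 < δ → δ ≤ 1 →
        ∃ s : ℝ, s ^ 2 ≤ n * ‖v‖ ^ 4 ∧ |s - n * m F| ≤ n * (16 * δ * (‖v‖ * ‖v‖)) := by
      intro δ hδ hδ1
      let h : ℕ → ℝ := fun i => δ / (i + 1)
      have hh : ∀ i, |h i| ≤ δ := fun i => by
        rw [abs_of_pos (by positivity)]
        exact div_le_self hδ.le (by linarith [Nat.cast_nonneg (α := ℝ) i])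
      have hne : ∀ i j, i ≠ j → h i ≠ h j := by
        intro i j hij h0
        apply hij
        simp only [h] at h0
        field_simp at h0
        exact_mod_cast (show (i : ℝ) = j by linarith)
      have h1 := R.mean_sq_sum_le hm v n (fun i y => ((P.eval (y + h i) : ℝ) : ℂ)) (by
        intro i j hij
        rw [← ih _ (natDegree_taylor_sub hP (hne i j hij))]
        congr 1
        ext y
        simp [taylor_eval])
      have hb : Bdd (∑ i ∈ Finset.range n, fun y => F (y + h i)) :=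
        bdd_sum _ _ fun i _ => ⟨_, fun y => hFb _⟩
      refine ⟨m (∑ i ∈ Finset.range n, fun y => F (y + h i)), (hm.sq_le hb).trans ?_, ?_⟩
      · refine le_of_eq_of_le (congrArg m ?_) h1
        ext y
        simp [sq, Finset.sum_apply, hF]
      · rw [map_sum]
        have h2 : (n : ℝ) * m F = ∑ _i ∈ Finset.range n, m F := by simp
        rw [h2, ← Finset.sum_sub_distrib]
        refine (Finset.abs_sum_le_sum_abs _ _).trans ?_
        have h3 : ∀ i ∈ Finset.range n,
            |m (fun y => F (y + h i)) - m F| ≤ 16 * δ * (‖v‖ * ‖v‖) := fun i _ =>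
          (hsh F _ hFb (h i) ((hh i).trans hδ1)).trans (by
            have := hh i
            gcongr)
        simpa using Finset.sum_le_card_nsmul _ _ _ h3
    have hcl : IsClosed {s : ℝ | s ^ 2 ≤ n * ‖v‖ ^ 4} :=
      isClosed_le (by fun_prop) continuous_const
    have : n * m F ∈ closure {s : ℝ | s ^ 2 ≤ n * ‖v‖ ^ 4} := by
      rw [Metric.mem_closure_iff]
      intro ε hε
      obtain ⟨K, hK⟩ : ∃ K : ℝ, K = n * (16 * (‖v‖ * ‖v‖)) + 1 := ⟨_, rfl⟩
      have K0 : 0 < K := by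
        rw [hK]
        positivity
      obtain ⟨s, hs, hs'⟩ := key (min 1 (ε / K)) (lt_min one_pos (by positivity)) (min_le_left _ _)
      refine ⟨s, hs, ?_⟩
      rw [Real.dist_eq, abs_sub_comm]
      refine hs'.trans_lt ?_
      have h1 : min 1 (ε / K) ≤ ε / K := min_le_right _ _
      have h2 : ε / K * K = ε := div_mul_cancel₀ _ K0.ne'
      have h3 : 0 < ε / K := by positivity
      calc (n : ℝ) * (16 * min 1 (ε / K) * (‖v‖ * ‖v‖))
          ≤ n * (16 * (ε / K) * (‖v‖ * ‖v‖)) := by gcongr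
        _ = ε / K * (K - 1) := by
          rw [hK]
          ring
        _ < ε := by nlinarith
    exact hcl.closure_subset this

end mean

theorem phi_rot {v : H} (hU : ∀ k, R.U k v = v) (k : Circle) (a : ℂ) :
    ⟪R.T (k * a) v, v⟫ = ⟪R.T a v, v⟫ := by
  rw [← (R.U k).inner_map_map (R.T a v), R.U_T, hU]

theorem phi_exp {v : H} (hU : ∀ k, R.U k v = v) (t : ℝ) (a : ℂ) :
    ⟪R.T (Complex.exp (t * Complex.I) * a) v, v⟫ = ⟪R.T a v, v⟫ := by
  rw [← Circle.coe_exp]
  exact R.phi_rot hU _ a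

theorem phi_chord {v : H} (hU : ∀ k, R.U k v = v) (ρ θ : ℝ) (i j : ℕ) :
    ⟪R.T (Complex.exp ((2 * i * θ : ℝ) * Complex.I) * ρ
        - Complex.exp ((2 * j * θ : ℝ) * Complex.I) * ρ) v, v⟫
      = ⟪R.T ((2 * ρ * Real.sin (((i : ℝ) - j) * θ) : ℝ) : ℂ) v, v⟫ := by
  rw [← R.phi_exp hU ((i + j) * θ + Real.pi / 2) ((2 * ρ * Real.sin (((i : ℝ) - j) * θ) : ℝ) : ℂ)]
  refine congrArg (fun a => ⟪R.T a v, v⟫) ?_
  push_cast
  rw [add_mul, Complex.exp_add, Complex.exp_pi_div_two_mul_I, Complex.sin]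
  have h1 : Complex.exp (2 * i * θ * Complex.I)
      = Complex.exp ((i + j) * θ * Complex.I) * Complex.exp ((i - j) * θ * Complex.I) := by
    rw [← Complex.exp_add]
    congr 1
    ring
  have h2 : Complex.exp (2 * j * θ * Complex.I)
      = Complex.exp ((i + j) * θ * Complex.I) * Complex.exp (-((i - j) * θ) * Complex.I) := by
    rw [← Complex.exp_add]
    congr 1
    ring
  rw [h1, h2]
  linear_combination (-(Complex.exp ((i + j) * θ * Complex.I) * ρ *
    (Complex.exp (-((i - j) * θ) * Complex.I) - Complex.exp ((i - j) * θ * Complex.I))))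
    * Complex.I_mul_I

/-- Rigidity. -/
theorem rigid [CompleteSpace H] {v : H} (hv : v ∈ (R.Cont (id : ℂ → ℂ))ᗮ)
    (hU : ∀ k, R.U k v = v) (k : Circle) : ⟪R.T k v, v⟫ = 0 := by
  obtain ⟨m, hm, hloc, hsh⟩ := exists_local_mean
  have hv1 := R.line_singular hv hU
  have chord : ∀ ρ : ℝ → ℝ, (∀ i j : ℕ, i ≠ j → m (fun y =>
      ⟪R.T ((2 * ρ y * Real.sin (((i : ℝ) - j) * Real.arccos y) : ℝ) : ℂ) v, v⟫) = 0) →
      m (fun y => ⟪R.T (ρ y) v, v⟫) = 0 := by
    intro ρ hρ
    refine eq_zero_of_sq_le (C := ‖v‖ ^ 4) fun n _ => ?_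
    have h1 := R.mean_sq_sum_le hm v n
      (fun i y => Complex.exp ((2 * i * Real.arccos y : ℝ) * Complex.I) * ρ y) (by
        intro i j hij
        simp only [R.phi_chord hU]
        exact hρ i j hij)
    simp only [R.phi_exp hU, Finset.sum_const, Finset.card_range, nsmul_eq_mul] at h1
    have h2 := hm.sq_le ((R.bdd_phi v (fun y => (ρ y : ℂ))).smul (n : ℝ))
    rw [map_smul, smul_eq_mul] at h2
    refine h2.trans (le_of_eq_of_le (congrArg m ?_) h1)
    ext y
    simp [sq]
  have h1 := chord (fun _ => 1) (by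
    intro i j hij
    refine chord (fun y => 2 * 1 * Real.sin (((i : ℝ) - j) * Real.arccos y)) ?_
    intro i' j' hij'
    let P : ℝ[X] := C 4 * (1 - X ^ 2) * Chebyshev.U ℝ ((i : ℤ) - j - 1)
      * Chebyshev.U ℝ ((i' : ℤ) - j' - 1)
    have hP0 : P ≠ 0 := by
      refine mul_ne_zero (mul_ne_zero (mul_ne_zero (by simp) ?_) ?_) ?_
      · intro h
        simpa using congrArg (eval 0) h
      · exact Chebyshev.U_ne_zero ℝ _ (by omega)
      · exact Chebyshev.U_ne_zero ℝ _ (by omega)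
    have hPd : P.natDegree ≠ 0 := by
      intro h
      rw [natDegree_eq_zero] at h
      obtain ⟨c, hc⟩ := h
      have h2 : P.eval 1 = 0 := by simp [P]
      rw [← hc, eval_C] at h2
      rw [h2, C_0] at hc
      exact hP0 hc.symm
    obtain ⟨d, hd⟩ := Nat.exists_eq_succ_of_ne_zero hPd
    rw [← R.mean_poly hm hsh hv1 d P hd]
    refine hloc _ _ fun y h0 h1 => ?_
    refine congrArg (fun a : ℝ => ⟪R.T a v, v⟫) ?_
    have hy : Real.cos (Real.arccos y) = y := Real.cos_arccos (by linarith) h1.le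
    have e1 := Chebyshev.U_real_cos (Real.arccos y) ((i : ℤ) - j - 1)
    have e2 := Chebyshev.U_real_cos (Real.arccos y) ((i' : ℤ) - j' - 1)
    have e3 := Real.sin_sq (Real.arccos y)
    rw [hy] at e1 e2 e3
    push_cast at e1 e2
    rw [sub_add_cancel] at e1 e2
    simp only [P, eval_mul, eval_C, eval_sub, eval_one, eval_pow, eval_X]
    rw [← e1, ← e2, ← e3]
    ring)
  rw [hm.const] at h1
  rw [← mul_one (k : ℂ), R.phi_rot hU]
  exact_mod_cast h1

/-- The continuous part of a vector: positivity preserving, and with the same correlations at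
unit distance for rotation invariant vectors. -/
theorem exists_continuous_part [CompleteSpace H] :
    ∃ Q : H →L[ℝ] H,
      (∀ w, Continuous fun a => R.T a (Q w)) ∧
      (∀ w, (∀ a, R.T a w = w) → Q w = w) ∧
      (∀ S : Set H, (∀ w ∈ S, ∀ a, R.T a w ∈ S) → (∀ w, w ∈ S ↔ ∀ z ∈ S, 0 ≤ ⟪w, z⟫) →
        ∀ w ∈ S, Q w ∈ S) ∧
      ∀ w, (∀ k, R.U k w = w) → ∀ k : Circle, ⟪R.T k (Q w), Q w⟫ = ⟪R.T k w, w⟫ := by
  obtain ⟨m, hm, hloc, hsh⟩ := exists_local_mean
  let Q : H →L[ℝ] H := (R.Cont (dir 1)).starProjection ∘L (R.Cont (dir Complex.I)).starProjection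
  have hQ : ∀ w, Q w ∈ R.Cont (id : ℂ → ℂ) := fun w =>
    R.mem_Cont_id (k := 1) (l := Complex.I) (by simp) (Submodule.starProjection_apply_mem _ _)
      (R.proj_mem_Cont _ (Submodule.starProjection_apply_mem _ w))
  have hfix : ∀ z ∈ R.Cont (id : ℂ → ℂ), ∀ k, (R.Cont (dir k)).starProjection z = z :=
    fun z hz k => Submodule.starProjection_eq_self_iff.2 (R.Cont_id_le (continuous_dir k) hz)
  have hQo : ∀ w, w - Q w ∈ (R.Cont (id : ℂ → ℂ))ᗮ := by
    intro w
    rw [Submodule.mem_orthogonal']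
    intro z hz
    simp only [Q, ContinuousLinearMap.comp_apply]
    rw [inner_sub_left, Submodule.inner_starProjection_left_eq_right, hfix z hz,
      Submodule.inner_starProjection_left_eq_right, hfix z hz, sub_self]
  refine ⟨Q, hQ, fun w hw => ?_, fun S hS hS' w hw => ?_, fun w hw k => ?_⟩
  · have : w ∈ R.Cont (id : ℂ → ℂ) := by
      rw [mem_Cont]
      simp only [hw]
      exact continuous_const
    simp only [Q, ContinuousLinearMap.comp_apply, hfix w this]
  · have key : ∀ k, ∀ w ∈ S, (R.Cont (dir k)).starProjection w ∈ S := fun k w hw =>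
      (hS' _).2 fun z hz => R.proj_nonneg hm hsh hloc k fun a => (hS' _).1 (hS w hw a) z hz
    exact key _ _ (key _ w hw)
  · obtain ⟨g, hg⟩ : ∃ g, g = Q w := ⟨_, rfl⟩
    have hgc := hQ w
    have hv := hQo w
    rw [← hg] at hgc hv ⊢
    have hUg : ∀ l, R.U l g = g := by
      intro l
      have h1 : (R.Cont (id : ℂ → ℂ)).starProjection w = g :=
        Submodule.eq_starProjection_of_mem_orthogonal hgc hv
      have h2 : (R.Cont (id : ℂ → ℂ)).starProjection w = R.U l g := by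
        refine Submodule.eq_starProjection_of_mem_orthogonal (R.U_mem_Cont_id hgc l) ?_
        rw [Submodule.mem_orthogonal']
        intro z hz
        conv_lhs => rw [← hw l]
        rw [← map_sub, R.inner_U]
        exact (Submodule.mem_orthogonal' _ _).1 hv _ (R.U_mem_Cont_id hz _)
      rw [← h2, h1]
    have h3 := R.rigid hv (fun l => by rw [map_sub, hw, hUg]) k
    have h4 : ⟪R.T k g, w - g⟫ = 0 :=
      (Submodule.mem_orthogonal _ _).1 hv _ (R.T_mem_Cont hgc _)
    have h5 : ⟪R.T k (w - g), g⟫ = 0 :=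
      (Submodule.mem_orthogonal' _ _).1 (R.T_mem_orth hv _) _ hgc
    have h6 : w = g + (w - g) := by abel
    conv_rhs => rw [h6]
    rw [map_add, inner_add_left, inner_add_right, inner_add_right, h3, h4, h5]
    ring

end Rep

end Vale.Agent.P032
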