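import Vale.Agent.P032.TreeAux

/-! P032: an upper semicontinuous family of trees over the plane develops into the universal
tree. -/

namespace Vale.Agent.P032

open Set Filter Topology

namespace Tr

variable {α V : Type} (T : Tr α V)

/-- `ι` lifts the graph `G` on the vertex set `P`. -/
def IsLift (P : α → Prop) (G : SimpleGraph α) (ι : α → V) : Prop :=
  (∀ a, P a → T.lab (ι a) = a) ∧ ∀ b c, G.Adj b c → ι c = T.mv (ι b) c

theorem IsLift.mono {T : Tr α V} {P P' : α → Prop} {G G' : SimpleGraph α} {ι : α → V}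
    (h : T.IsLift P G ι) (hP : ∀ a, P' a → P a) (hG : G' ≤ G) : T.IsLift P' G' ι :=
  ⟨fun a ha => h.1 a (hP a ha), fun b c hbc => h.2 b c (hG hbc)⟩

theorem IsLift.eq_of_reachable {T : Tr α V} {P : α → Prop} {G : SimpleGraph α} {ι ι' : α → V}
    (h : T.IsLift P G ι) (h' : T.IsLift P G ι') {a b : α} (hab : G.Reachable a b)
    (ha : ι a = ι' a) : ι b = ι' b := by
  obtain ⟨p⟩ := hab
  induction p with
  | nil => exact ha
  | cons hadj p ih => exact ih (by rw [h.2 _ _ hadj, h'.2 _ _ hadj, ha])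

theorem IsLift.cn {T : Tr α V} {P : α → Prop} {G : SimpleGraph α} {ι : α → V}
    (h : T.IsLift P G ι) (hsupp : ∀ a b, G.Adj a b → P a)
    (hconn : ∀ a b, P a → P b → G.Reachable a b) : T.Cn (ι '' {a | P a}) := by
  rintro p _ ⟨a, ha, rfl⟩ hp hs _ ⟨b, hb, rfl⟩
  obtain ⟨w⟩ := hconn a b ha hb
  induction w with
  | nil => exact hp
  | cons hadj w ih =>
    refine ih (hsupp _ _ hadj.symm) ?_ hb
    rw [h.2 _ _ hadj]
    refine hs _ ⟨_, ha, rfl⟩ _ ?_ hp
    rw [← h.2 _ _ hadj]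
    exact ⟨_, hsupp _ _ hadj.symm, rfl⟩

theorem exists_section (P : ℂ → α → Prop) (G : ℂ → SimpleGraph α)
    (husc : ∀ x, ∀ᶠ y in 𝓝 x, (∀ a, P y a → P x a) ∧ G y ≤ G x)
    (hne : ∀ x, ∃ a, P x a) (hsupp : ∀ x a b, (G x).Adj a b → P x a)
    (hconn : ∀ x a b, P x a → P x b → (G x).Reachable a b) (hac : ∀ x, (G x).IsAcyclic) :
    ∃ ι : ℂ → α → V, (∀ x, T.IsLift (P x) (G x) (ι x)) ∧
      ∀ x, ∀ᶠ y in 𝓝 x, ∀ a, P y a → ι y a = ι x a := by
  have hL : ∀ x a v, ∃ ι : α → V, P x a → T.lab v = a → ι a = v ∧ T.IsLift (P x) (G x) ι := by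
    intro x a v
    by_cases hv : T.lab v = a
    · obtain ⟨ι, h1, h2, h3⟩ := T.exists_lift (hac x) a v hv
      exact ⟨ι, fun ha _ => ⟨h1, fun b hb => h2 b (hconn x a b ha hb),
        fun b c hbc => h3 b c (hconn x a b ha (hsupp x b c hbc)) hbc⟩⟩
    · exact ⟨fun _ => v, fun _ h => absurd h hv⟩
  choose L hL using hL
  choose b hb using hne
  let F : Type := {v : V // T.lab v = T.lab T.root}
  letI : TopologicalSpace F := ⊥
  have : DiscreteTopology F := ⟨rfl⟩
  let U : ℂ → Set ℂ := fun x => interior {y | (∀ a, P y a → P x a) ∧ G y ≤ G x}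
  have hU : ∀ {x y}, y ∈ U x → (∀ a, P y a → P x a) ∧ G y ≤ G x := fun {x y} h =>
    interior_subset (s := {y | (∀ a, P y a → P x a) ∧ G y ≤ G x}) h
  have hUx : ∀ x, x ∈ U x := fun x => mem_interior_iff_mem_nhds.2 (husc x)
  let ex : ℂ → F → α → V := fun x w => L x (b x) (T.mv w.1 (b x))
  have hex : ∀ x w, ex x w (b x) = T.mv w.1 (b x) ∧ T.IsLift (P x) (G x) (ex x w) :=
    fun x w => hL x _ _ (hb x) (T.lab_mv _ _)
  have hinj : ∀ x w w' a, P x a → ex x w a = ex x w' a → w = w' := by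
    intro x w w' a ha h
    have h1 := (hex x w).2.eq_of_reachable (hex x w').2 (hconn x a _ ha (hb x)) h
    rw [(hex x w).1, (hex x w').1] at h1
    refine Subtype.ext ?_
    rw [← T.mv_mv w.1 (b x), ← T.mv_mv w'.1 (b x), h1, w.2, w'.2]
  let cc : ℂ → ℂ → ℂ → F → F := fun i j z w =>
    ⟨T.mv (L j (b z) (ex i w (b z)) (b j)) (T.lab T.root), T.lab_mv _ _⟩
  have hcc : ∀ i j z w, z ∈ U i → z ∈ U j → ∀ a, P z a → ex j (cc i j z w) a = ex i w a := by
    intro i j z w hi hj a ha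
    obtain ⟨h1, h2⟩ := hL j (b z) (ex i w (b z)) ((hU hj).1 _ (hb z))
      ((hex i w).2.1 _ ((hU hi).1 _ (hb z)))
    have h3 : ex j (cc i j z w) (b j) = L j (b z) (ex i w (b z)) (b j) := by
      rw [(hex j _).1]
      have h4 := T.mv_mv (L j (b z) (ex i w (b z)) (b j)) (T.lab T.root)
      rwa [h2.1 _ (hb j)] at h4
    rw [(hex j _).2.eq_of_reachable h2 (hconn j _ a (hb j) ((hU hj).1 a ha)) h3]
    exact (h2.mono (hU hj).1 (hU hj).2).eq_of_reachable
      ((hex i w).2.mono (hU hi).1 (hU hi).2) (hconn z _ a (hb z) ha) h1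
  let Z : FiberBundleCore ℂ ℂ F :=
    { baseSet := U
      isOpen_baseSet := fun _ => isOpen_interior
      indexAt := id
      mem_baseSet_at := hUx
      coordChange := cc
      coordChange_self := fun i z hz w =>
        hinj i _ _ (b z) ((hU hz).1 _ (hb z)) (hcc i i z w hz hz _ (hb z))
      continuousOn_coordChange := by
        rintro i j ⟨z, w⟩ ⟨⟨hi, hj⟩, -⟩
        refine (tendsto_const_nhds (x := cc i j z w)).congr' ?_
        have h1 : ∀ᶠ p : ℂ × F in 𝓝 (z, w), p.1 ∈ U z :=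
          continuous_fst.continuousAt.eventually (isOpen_interior.mem_nhds (hUx z))
        have h2 : ∀ᶠ p : ℂ × F in 𝓝 (z, w), p.2 = w :=
          (continuous_snd.continuousAt (x := (z, w))).eventually
            ((isOpen_discrete {w}).mem_nhds (mem_singleton w))
        filter_upwards [self_mem_nhdsWithin, nhdsWithin_le_nhds h1, nhdsWithin_le_nhds h2]
          with p hp hp1 hp2
        obtain ⟨⟨hi', hj'⟩, -⟩ := hp
        refine hinj j _ _ (b p.1) ((hU hj').1 _ (hb _)) ?_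
        rw [hcc i j z w hi hj _ ((hU hp1).1 _ (hb _)), hcc i j p.1 p.2 hi' hj' _ (hb _), hp2]
      coordChange_comp := by
        rintro i j k z ⟨⟨hi, hj⟩, hk⟩ w
        refine hinj k _ _ (b z) ((hU hk).1 _ (hb z)) ?_
        rw [hcc j k z _ hj hk _ (hb z), hcc i j z _ hi hj _ (hb z), hcc i k z _ hi hk _ (hb z)] }
  have hcov : IsCoveringMap Z.proj :=
    IsFiberBundle.isCoveringMap fun x => ⟨Z.localTriv x, hUx x⟩
  obtain ⟨s, ⟨-, hs⟩, -⟩ := hcov.existsUnique_continuousMap_lifts (ContinuousMap.id ℂ) 0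
    (⟨0, ⟨T.root, rfl⟩⟩ : Z.TotalSpace) rfl
  have hs1 : ∀ y, (s y).1 = y := fun y => congrFun hs y
  let f : ℂ → F := fun x => (s x).2
  refine ⟨fun x => ex x (f x), fun x => (hex x _).2, fun x => ?_⟩
  have hsrc : s x ∈ (Z.localTriv x).source := by
    rw [Z.mem_localTriv_source, hs1]
    exact hUx x
  have h1 : ContinuousAt (fun y => ((Z.localTriv x) (s y)).2) x :=
    continuousAt_snd.comp (((Z.localTriv x).continuousAt hsrc).comp s.continuous.continuousAt)
  have h2 := h1.eventually ((isOpen_discrete {((Z.localTriv x) (s x)).2}).mem_nhds rfl)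
  filter_upwards [h2, isOpen_interior.mem_nhds (hUx x)] with y hy hyU a ha
  have h3 : cc (s y).1 x (s y).1 (f y) = cc (s x).1 x (s x).1 (f x) := hy
  rw [hs1, hs1] at h3
  rw [← hcc y x y _ (hUx y) hyU a ha, h3, hcc x x x _ (hUx x) (hUx x) a ((hU hyU).1 a ha)]

end Tr

end Vale.Agent.P032
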