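import Vale.Agent.P032.Rigid
import Vale.Agent.P032.Invariant

/-! P032 transfer: an arbitrary proper colouring of the plane yields a weakly measurable one with
the same number of colours. -/

namespace Vale.Agent.P032

open Set Filter Topology MeasureTheory
open scoped RealInnerProductSpace ENNReal

theorem comp_congr {Ω : Type*} [MeasurableSpace Ω] {μ : Measure Ω} {f g : Ω → Ω}
    (hf : MeasurePreserving f μ μ) (hg : MeasurePreserving g μ μ) (h : f = g) (w : Lp ℝ 2 μ) :
    Lp.compMeasurePreserving f hf w = Lp.compMeasurePreserving g hg w := by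
  subst h
  rfl

/-- The Koopman representation of an invariant measure on colourings. -/
noncomputable def koop {k : ℕ} (μ : Measure (Om k))
    (h : ∀ a u, MeasurePreserving (act a u) μ μ) : Rep (Lp ℝ 2 μ) where
  T a := Lp.compMeasurePreservingₗᵢ ℝ (act a 1) (h a 1)
  U u := Lp.compMeasurePreservingₗᵢ ℝ (act 0 u) (h 0 u)
  T_zero w := by
    refine (comp_congr (h 0 1) (MeasurePreserving.id μ) ?_ w).trans
      (Lp.compMeasurePreserving_id_apply w)
    funext c z
    simp [act_apply]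
  T_add a b w := by
    refine (comp_congr (h (a + b) 1) ((h b 1).comp (h a 1)) ?_ w).trans
      (Lp.compMeasurePreserving_comp_apply w (h b 1) (h a 1))
    funext c
    simp [act_act]
  U_one w := by
    refine (comp_congr (h 0 1) (MeasurePreserving.id μ) ?_ w).trans
      (Lp.compMeasurePreserving_id_apply w)
    funext c z
    simp [act_apply]
  U_mul u l w := by
    refine (comp_congr (h 0 (u * l)) ((h 0 l).comp (h 0 u)) ?_ w).trans
      (Lp.compMeasurePreserving_comp_apply w (h 0 l) (h 0 u))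
    funext c
    simp [act_act]
  U_T u a w := by
    refine (Lp.compMeasurePreserving_comp_apply w (h a 1) (h 0 u)).symm.trans ?_
    refine (comp_congr _ ((h 0 u).comp (h (u * a) 1)) ?_ w).trans
      (Lp.compMeasurePreserving_comp_apply w (h 0 u) (h (u * a) 1))
    funext c
    simp [act_act]

theorem koop_T {k : ℕ} (μ : Measure (Om k)) (h : ∀ a u, MeasurePreserving (act a u) μ μ)
    (a : ℂ) (w : Lp ℝ 2 μ) : (koop μ h).T a w =ᵐ[μ] w ∘ act a 1 :=
  Lp.coeFn_compMeasurePreserving w (h a 1)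

theorem koop_U {k : ℕ} (μ : Measure (Om k)) (h : ∀ a u, MeasurePreserving (act a u) μ μ)
    (u : Circle) (w : Lp ℝ 2 μ) : (koop μ h).U u w =ᵐ[μ] w ∘ act 0 u :=
  Lp.coeFn_compMeasurePreserving w (h 0 u)

theorem inner_eq_integral {Ω : Type*} [MeasurableSpace Ω] {μ : Measure Ω} (w z : Lp ℝ 2 μ) :
    ⟪w, z⟫ = ∫ ω, w ω * z ω ∂μ := by
  rw [L2.inner_def]
  simp [mul_comm]

theorem integrable_mul_L2 {Ω : Type*} [MeasurableSpace Ω] {μ : Measure Ω} (w z : Lp ℝ 2 μ) :
    Integrable (fun ω => w ω * z ω) μ := by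
  have := L2.integrable_inner (𝕜 := ℝ) w z
  simpa [mul_comm] using this

theorem nonneg_iff_inner {Ω : Type*} [MeasurableSpace Ω] {μ : Measure Ω} [IsFiniteMeasure μ]
    (w : Lp ℝ 2 μ) :
    w ∈ {w : Lp ℝ 2 μ | 0 ≤ᵐ[μ] w} ↔ ∀ z ∈ {w : Lp ℝ 2 μ | 0 ≤ᵐ[μ] w}, 0 ≤ ⟪w, z⟫ := by
  constructor
  · intro hw z hz
    rw [inner_eq_integral]
    refine integral_nonneg_of_ae ?_
    filter_upwards [hw, hz] with ω h1 h2
    exact mul_nonneg h1 h2
  · intro h
    refine ae_nonneg_of_forall_setIntegral_nonneg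
      ((Lp.memLp w).integrable one_le_two) fun s hs hμs => ?_
    have h1 := h (indicatorConstLp 2 hs hμs.ne (1 : ℝ)) (by
      filter_upwards [indicatorConstLp_coeFn (p := 2) (hs := hs) (hμs := hμs.ne) (c := (1 : ℝ))]
        with ω hω
      rw [hω]
      exact indicator_nonneg (fun _ _ => zero_le_one) ω)
    rwa [real_inner_comm, L2.inner_indicatorConstLp_one] at h1

/-- Transfer theorem. -/
theorem weak_of_proper {k : ℕ} (c : ℂ → Fin k) (hc : ∀ x y, dist x y = 1 → c x ≠ c y) :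
    ∃ A : Fin k → Set ℂ, (∀ i, MeasurableSet (A i)) ∧ (∀ᵐ x : ℂ, ∃ i, x ∈ A i) ∧
      ∀ i, ∀ᵐ x : ℂ, ∀ᵐ t : ℝ, ¬ (x ∈ A i ∧ x + Complex.exp (t * Complex.I) ∈ A i) := by
  obtain ⟨μ, hμ, hinv, hsupp⟩ := exists_invariant_measure (k := k) c
  obtain ⟨R, hR⟩ : ∃ R, R = koop μ hinv := ⟨_, rfl⟩
  have hT : ∀ a w, R.T a w =ᵐ[μ] w ∘ act a 1 := hR ▸ koop_T μ hinv
  have hU : ∀ u w, R.U u w =ᵐ[μ] w ∘ act 0 u := hR ▸ koop_U μ hinv
  obtain ⟨Q, hQc, hQ1, hQp, hQe⟩ := R.exists_continuous_part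
  let V : ℂ → Fin k → Set (Om k) := fun z i => {ω | ω z = i}
  have hV : ∀ z i, IsClopen (V z i) := fun z i =>
    (isClopen_discrete {i}).preimage (continuous_ev z)
  let f : Fin k → Lp ℝ 2 μ := fun i =>
    indicatorConstLp 2 (hV 0 i).isOpen.measurableSet (measure_ne_top μ _) (1 : ℝ)
  have hf : ∀ i, f i =ᵐ[μ] (V 0 i).indicator fun _ => (1 : ℝ) := fun i => indicatorConstLp_coeFn
  have hfa : ∀ i a u, f i ∘ act a u =ᵐ[μ] (V a i).indicator fun _ => (1 : ℝ) := by
    intro i a u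
    filter_upwards [(hinv a u).quasiMeasurePreserving.ae_eq_comp (hf i)] with ω hω
    rw [hω]
    simp only [Function.comp_apply, indicator, V, mem_ofPred_eq, act_apply, mul_zero, add_zero]
  have hP : ∀ w ∈ {w : Lp ℝ 2 μ | 0 ≤ᵐ[μ] w}, ∀ a, R.T a w ∈ {w : Lp ℝ 2 μ | 0 ≤ᵐ[μ] w} := by
    intro w hw a
    filter_upwards [hT a w, (hinv a 1).quasiMeasurePreserving.ae hw] with ω h1 h2
    rw [h1]
    exact h2
  have hg0 : ∀ i a, 0 ≤ᵐ[μ] R.T a (Q (f i)) := by
    intro i a
    refine hP _ (hQp _ hP nonneg_iff_inner _ ?_) a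
    filter_upwards [hf i] with ω hω
    rw [hω]
    exact indicator_nonneg (fun _ _ => zero_le_one) ω
  have hsum : ∀ a, ∀ᵐ ω ∂μ, ∑ i, R.T a (f i) ω = 1 := by
    intro a
    filter_upwards [ae_all_iff.2 fun i => hT a (f i), ae_all_iff.2 fun i => hfa i a 1]
      with ω h1 h2
    simp only [h1, h2, indicator, V, mem_ofPred_eq]
    simp
  have hsum' : ∀ (w : Fin k → Lp ℝ 2 μ), ∀ᵐ ω ∂μ, (∑ i, w i) ω = ∑ i, w i ω := by
    intro w
    filter_upwards [Lp.coeFn_finsetSum Finset.univ w] with ω hω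
    rw [hω, Finset.sum_apply]
  have hfix : ∀ a, R.T a (∑ i, f i) = ∑ i, f i := by
    intro a
    refine Lp.ext ?_
    filter_upwards [hsum a, hsum 0, hsum' fun i => R.T a (f i), hsum' f] with ω h1 h2 h3 h4
    simp only [R.T_zero] at h2
    rw [map_sum, h3, h4, h1, h2]
  have hg1 : ∀ a, ∀ᵐ ω ∂μ, ∑ i, R.T a (Q (f i)) ω = 1 := by
    intro a
    filter_upwards [hsum a, hsum' fun i => R.T a (f i), hsum' fun i => R.T a (Q (f i))]
      with ω h1 h2 h3
    rw [← h3, ← map_sum, ← map_sum, hQ1 _ hfix, map_sum, h2, h1]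
  have horth : ∀ i a (u : Circle), ⟪R.T (a + u) (Q (f i)), R.T a (Q (f i))⟫ = 0 := by
    intro i a u
    rw [R.inner_T_T, add_sub_cancel_left, hQe (f i) (fun l => ?_) u]
    · rw [inner_eq_integral]
      have h0 : μ (V u i ∩ V 0 i) = 0 := by
        refine hsupp _ ((hV _ _).inter (hV _ _)) fun b l hbl => ?_
        obtain ⟨h1, h2⟩ := hbl
        refine hc (b + l * u) (b + l * 0) ?_
          ((show c _ = i from h1).trans (show c _ = i from h2).symm)
        simp [dist_eq_norm, Circle.norm_coe]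
      refine integral_eq_zero_of_ae ?_
      filter_upwards [hT u (f i), hfa i u 1, hf i, measure_eq_zero_iff_ae_notMem.1 h0]
        with ω h1 h2 h3 h4
      rw [h1, h2, h3]
      by_cases h5 : ω ∈ V u i
      · rw [indicator_of_notMem (fun h6 => h4 ⟨h5, h6⟩), mul_zero, Pi.zero_apply]
      · rw [indicator_of_notMem h5, zero_mul, Pi.zero_apply]
    · exact Lp.ext ((hU l (f i)).trans ((hfa i 0 l).trans (hf i).symm))
  choose G hGm hG using fun i => exists_measurable_version (fun a => R.T a (Q (f i))) (hQc (f i))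
  have hA : ∀ i, MeasurableSet {p : ℂ × Om k | 0 < G i p} := fun i =>
    measurableSet_lt measurable_const (hGm i)
  have hcov : ∀ᵐ ω ∂μ, ∀ᵐ x : ℂ, ∃ i, 0 < G i (x, ω) := by
    refine (Measure.ae_ae_comm (μ := (volume : Measure ℂ)) (ν := μ)
      (p := fun x ω => ∃ i, 0 < G i (x, ω)) ?_).1 (Eventually.of_forall fun x => ?_)
    · have : {p : ℂ × Om k | ∃ i, 0 < G i (p.1, p.2)} = ⋃ i, {p | 0 < G i p} := by
        ext p
        simp
      rw [this]
      exact MeasurableSet.iUnion hA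
    · filter_upwards [hg1 x, ae_all_iff.2 fun i => hG i x] with ω h1 h2
      by_contra h
      push Not at h
      have : ∑ i, R.T x (Q (f i)) ω ≤ 0 := Finset.sum_nonpos fun i _ => by
        rw [← h2 i]
        exact h i
      linarith
  have hav : ∀ i, ∀ᵐ ω ∂μ, ∀ᵐ p : ℂ × ℝ ∂(volume.prod volume),
      ¬ (0 < G i (p.1, ω) ∧ 0 < G i (p.1 + Complex.exp (p.2 * Complex.I), ω)) := by
    intro i
    refine (Measure.ae_ae_comm (μ := (volume : Measure ℂ).prod (volume : Measure ℝ)) (ν := μ)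
      (p := fun p ω => ¬ (0 < G i (p.1, ω) ∧
        0 < G i (p.1 + Complex.exp (p.2 * Complex.I), ω))) ?_).1
      (Eventually.of_forall fun p => ?_)
    · have h1 : Measurable fun q : (ℂ × ℝ) × Om k => (q.1.1, q.2) := by fun_prop
      have h2 : Measurable fun q : (ℂ × ℝ) × Om k =>
          (q.1.1 + Complex.exp (q.1.2 * Complex.I), q.2) := by fun_prop
      exact ((h1 (hA i)).inter (h2 (hA i))).compl
    · have h1 := horth i p.1 (Circle.exp p.2)
      rw [inner_eq_integral, Circle.coe_exp, integral_eq_zero_iff_of_nonneg_ae ?_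
        (integrable_mul_L2 _ _)] at h1
      · filter_upwards [h1, hG i p.1, hG i (p.1 + Complex.exp (p.2 * Complex.I))] with ω h2 h3 h4
        rintro ⟨h5, h6⟩
        rw [h3] at h5
        rw [h4] at h6
        exact (mul_pos h6 h5).ne' h2
      · filter_upwards [hg0 i p.1, hg0 i (p.1 + Complex.exp (p.2 * Complex.I))] with ω h2 h3
        exact mul_nonneg h3 h2
  obtain ⟨ω, h1, h2⟩ := (hcov.and (ae_all_iff.2 hav)).exists
  refine ⟨fun i => {x | 0 < G i (x, ω)}, fun i => measurable_prodMk_right (hA i), h1, fun i => ?_⟩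
  exact Measure.ae_ae_of_ae_prod (h2 i)

end Vale.Agent.P032
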