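import Vale.Agent.P032.Section

/-! P032: a dense family of open unit-avoiding sets cannot have forests as interface graphs at
all points. -/

namespace Vale.Agent.P032

open Set Filter Topology Complex

theorem notMem_closure_of_dist {O : Set ℂ} (hO : IsOpen O)
    (hav : ∀ x ∈ O, ∀ y ∈ O, dist x y ≠ 1) {y z : ℂ} (hy : y ∈ O) (hz : dist z y = 1) :
    z ∉ closure O := by
  intro h
  obtain ⟨ε, hε, hb⟩ := Metric.isOpen_iff.1 hO y hy
  obtain ⟨z', hz', hd⟩ := Metric.mem_closure_iff.1 h ε hε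
  refine hav z' hz' (y + (z' - z)) (hb ?_) ?_
  · rw [Metric.mem_ball, dist_eq_norm, add_sub_cancel_left, ← dist_eq_norm, dist_comm]
    exact hd
  · rw [← hz, dist_eq_norm, dist_eq_norm]
    congr 1
    ring

theorem exists_unit_cross {y y' : ℂ} (h : dist y y' ≤ 2) : ∃ z, dist z y = 1 ∧ dist z y' = 1 := by
  obtain ⟨ρ, hρ⟩ : ∃ ρ, ρ = ‖y' - y‖ := ⟨_, rfl⟩
  obtain ⟨u, hu⟩ : ∃ u, u = exp (arg (y' - y) * I) := ⟨_, rfl⟩
  have hu1 : ‖u‖ = 1 := hu ▸ norm_exp_ofReal_mul_I _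
  have hd : y' - y = ρ * u := by rw [hρ, hu, norm_mul_exp_arg_mul_I]
  have h2 : ρ ≤ 2 := by rwa [hρ, ← dist_eq_norm, dist_comm]
  have h0 : 0 ≤ ρ := hρ ▸ norm_nonneg _
  obtain ⟨s, hs⟩ : ∃ s : ℝ, s ^ 2 = 1 - ρ ^ 2 / 4 :=
    ⟨√(1 - ρ ^ 2 / 4), Real.sq_sqrt (by nlinarith)⟩
  have key : ∀ r : ℝ, r ^ 2 = ρ ^ 2 / 4 → ‖u * (r + s * I)‖ = 1 := by
    intro r hr
    rw [norm_mul, hu1, one_mul, ← sq_eq_sq₀ (norm_nonneg _) zero_le_one, Complex.sq_norm,
      normSq_add_mul_I]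
    linarith
  refine ⟨y + u * ((ρ / 2 : ℝ) + s * I), ?_, ?_⟩
  · rw [dist_eq_norm, add_sub_cancel_left]
    exact key _ (by ring)
  · rw [dist_eq_norm, ← key (-(ρ / 2)) (by ring)]
    congr 1
    push_cast
    linear_combination -hd

theorem dist_tri {α β : ℝ} (h : Real.cos (α - β) = -1 / 2) :
    dist (((√3)⁻¹ : ℝ) * exp (α * I)) (((√3)⁻¹ : ℝ) * exp (β * I)) = 1 := by
  rw [dist_eq_norm, ← mul_sub, norm_mul, ← sq_eq_sq₀ (by positivity) zero_le_one, mul_pow,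
    Complex.sq_norm (_ - _), normSq_apply]
  simp only [sub_re, sub_im, exp_ofReal_mul_I_re, exp_ofReal_mul_I_im, norm_real,
    Real.norm_eq_abs, sq_abs, inv_pow]
  rw [Real.sq_sqrt (by norm_num)]
  rw [Real.cos_sub] at h
  nlinarith [Real.sin_sq_add_cos_sq α, Real.sin_sq_add_cos_sq β]

theorem forest_false {n : ℕ} (O : Fin n → Set ℂ) (hO : ∀ i, IsOpen (O i))
    (hav : ∀ i, ∀ x ∈ O i, ∀ y ∈ O i, dist x y ≠ 1) (hd : Dense (⋃ i, O i))
    (G : ℂ → SimpleGraph (Fin n)) (husc : ∀ x, ∀ᶠ y in nhds x, G y ≤ G x)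
    (hsupp : ∀ x a b, (G x).Adj a b → x ∈ closure (O a))
    (hconn : ∀ x a b, x ∈ closure (O a) → x ∈ closure (O b) → (G x).Reachable a b)
    (hac : ∀ x, (G x).IsAcyclic) : False := by
  have hne : ∀ x, ∃ a, x ∈ closure (O a) := fun x => by
    have := hd x
    rwa [closure_iUnion_of_finite, mem_iUnion] at this
  have husc' : ∀ x, ∀ᶠ y in 𝓝 x, (∀ a, y ∈ closure (O a) → x ∈ closure (O a)) ∧ G y ≤ G x := by
    intro x
    refine Eventually.and (eventually_all.2 fun a => ?_) (husc x)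
    by_cases h : x ∈ closure (O a)
    · exact Eventually.of_forall fun _ _ => h
    · filter_upwards [isClosed_closure.isOpen_compl.mem_nhds h] with y hy hy'
      exact absurd hy' hy
  obtain ⟨V, ⟨T⟩⟩ := exists_tr (hne 0).choose
  obtain ⟨ι, hι, hloc⟩ := T.exists_section (fun x a => x ∈ closure (O a)) G husc' hne hsupp
    hconn hac
  obtain ⟨S, hS⟩ : ∃ S : ℂ → Set V, ∀ x, S x = ι x '' {a | x ∈ closure (O a)} :=
    ⟨_, fun _ => rfl⟩
  have hcn : ∀ x, T.Cn (S x) := fun x => hS x ▸ (hι x).cn (hsupp x) (hconn x)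
  have hfin : ∀ x, (S x).Finite := fun x => hS x ▸ (toFinite _).image _
  have hlab : ∀ x, ∀ w ∈ S x, x ∈ closure (O (T.lab w)) := by
    intro x w hw
    rw [hS] at hw
    obtain ⟨a, ha, rfl⟩ := hw
    rwa [(hι x).1 a ha]
  have hsub : ∀ x, ∀ᶠ y in 𝓝 x, S y ⊆ S x := by
    intro x
    filter_upwards [husc' x, hloc x] with y h1 h2
    rw [hS, hS]
    rintro _ ⟨a, ha, rfl⟩
    exact ⟨a, h1.1 a ha, (h2 a ha).symm⟩
  have hs : ∀ x, ∃ w, w ∈ S x := fun x => by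
    obtain ⟨a, ha⟩ := hne x
    exact ⟨ι x a, hS x ▸ ⟨a, ha, rfl⟩⟩
  choose s hs using hs
  clear hS hι hloc husc' husc hsupp hconn hac
  -- arrows
  obtain ⟨Arr, hArr⟩ : ∃ Arr : ℂ → V → Fin n → Prop, ∀ y v j, Arr y v j ↔
      ∀ z, dist z y = 1 → ∀ w ∈ S z, w ≠ v ∧ T.br v w = j := ⟨_, fun _ _ _ => Iff.rfl⟩
  have harrow : ∀ v, ∀ y ∈ O (T.lab v), ∃ j, Arr y v j := by
    intro v y hy
    have hv : ∀ z, dist z y = 1 → v ∉ S z := fun z hz h =>
      notMem_closure_of_dist (hO _) (hav _) hy hz (hlab z v h)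
    have hc : ∀ t : ℝ, dist (y + exp (t * I)) y = 1 := fun t => by
      rw [dist_eq_norm, add_sub_cancel_left, norm_exp_ofReal_mul_I]
    have hlc : IsLocallyConstant fun t : ℝ => T.br v (s (y + exp (t * I))) := by
      rw [IsLocallyConstant.iff_eventually_eq]
      intro t
      have h1 : Continuous fun t : ℝ => y + exp (t * I) := by fun_prop
      filter_upwards [h1.continuousAt.eventually (hsub (y + exp (t * I)))] with t' ht'
      exact (hcn _).br_eq (hv _ (hc t)) (hs _) (ht' (hs _))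
    refine ⟨T.br v (s (y + exp ((0 : ℝ) * I))), (hArr _ _ _).2 fun z hz w hw =>
      ⟨fun h => hv z hz (h ▸ hw), ?_⟩⟩
    have h1 : z = y + exp (arg (z - y) * I) := by
      have h2 := norm_mul_exp_arg_mul_I (z - y)
      rw [← dist_eq_norm, hz] at h2
      push_cast at h2
      rw [one_mul] at h2
      rw [h2]
      ring
    rw [← hlc.apply_eq_of_preconnectedSpace (arg (z - y)) 0, ← h1]
    exact (hcn _).br_eq (hv z hz) (hs _) hw
  have hnear : ∀ x, ∀ v ∈ S x, ∀ δ > 0, ∃ y j, dist y x < δ ∧ Arr y v j := by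
    intro x v hv δ hδ
    obtain ⟨y, hy, hxy⟩ := Metric.mem_closure_iff.1 (hlab x v hv) δ hδ
    obtain ⟨j, hj⟩ := harrow v y hy
    exact ⟨y, j, by rwa [dist_comm], hj⟩
  have hcross : ∀ y y' v v' j j', dist y y' ≤ 2 → Arr y v j → Arr y' v' j' →
      ∃ w, w ≠ v ∧ T.br v w = j ∧ w ≠ v' ∧ T.br v' w = j' := by
    intro y y' v v' j j' h h1 h2
    obtain ⟨z, hz, hz'⟩ := exists_unit_cross h
    obtain ⟨h3, h4⟩ := (hArr _ _ _).1 h1 z hz _ (hs z)
    obtain ⟨h5, h6⟩ := (hArr _ _ _).1 h2 z hz' _ (hs z)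
    exact ⟨s z, h3, h4, h5, h6⟩
  have hpartner : ∀ x x' : ℂ, dist x' x = 1 → ∃ δ > 0, ∀ y v j, dist y x < δ → Arr y v j →
      ∃ w ∈ S x', w ≠ v ∧ T.br v w = j := by
    intro x x' hx
    obtain ⟨δ, hδ, h⟩ := Metric.eventually_nhds_iff.1 (hsub x')
    refine ⟨δ, hδ, fun y v j hy hj => ?_⟩
    have h1 : dist (y + (x' - x)) x' < δ := by
      rw [dist_eq_norm] at hy ⊢
      convert hy using 2
      ring
    have h2 : dist (y + (x' - x)) y = 1 := by
      rw [dist_eq_norm, add_sub_cancel_left, ← dist_eq_norm, hx]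
    exact ⟨_, h h1 (hs _), (hArr _ _ _).1 hj _ h2 _ (hs _)⟩
  -- subtrees at unit distance are disjoint
  have hdisj : ∀ x x' : ℂ, dist x' x = 1 → ∀ v ∈ S x, v ∉ S x' := by
    intro x x' hx v hv hv'
    obtain ⟨δ₁, hδ₁, h1⟩ := hpartner x x' hx
    obtain ⟨δ₂, hδ₂, h2⟩ := hpartner x' x (by rwa [dist_comm])
    have step : ∀ q : {q // q ∈ S x ∧ q ∈ S x'}, ∃ j, (∃ y, dist y x < 1 / 2 ∧ Arr y q.1 j) ∧
        j ≠ T.lab q.1 ∧ T.mv q.1 j ∈ S x ∧ T.mv q.1 j ∈ S x' := by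
      rintro ⟨q, hq, hq'⟩
      obtain ⟨y, j, hy, hj⟩ := hnear x q hq (min δ₁ (1 / 2)) (lt_min hδ₁ (by norm_num))
      obtain ⟨y', j', hy', hj'⟩ := hnear x' q hq' (min δ₂ (1 / 2)) (lt_min hδ₂ (by norm_num))
      rw [lt_min_iff] at hy hy'
      have hyy : dist y y' ≤ 2 := by
        have := dist_triangle4 y x x' y'
        rw [dist_comm x x', dist_comm x' y', hx] at this
        linarith [hy.2, hy'.2]
      obtain ⟨w, -, h3, -, h4⟩ := hcross y y' q q j j' hyy hj hj'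
      obtain rfl : j = j' := h3.symm.trans h4
      obtain ⟨w₁, hw₁, h5, h6⟩ := h1 y q j hy.1 hj
      obtain ⟨w₂, hw₂, h7, h8⟩ := h2 y' q j hy'.1 hj'
      exact ⟨j, ⟨y, hy.2, hj⟩, h6 ▸ T.br_ne h5, h8 ▸ (hcn x).mv_mem hq hw₂ h7,
        h6 ▸ (hcn x').mv_mem hq' hw₁ h5⟩
    choose a ha1 ha2 ha3 using step
    let nx : {q // q ∈ S x ∧ q ∈ S x'} → {q // q ∈ S x ∧ q ∈ S x'} :=
      fun q => ⟨T.mv q.1 (a q), ha3 q⟩
    let q : ℕ → {q // q ∈ S x ∧ q ∈ S x'} := fun k => nx^[k] ⟨v, hv, hv'⟩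
    have hq : ∀ k, q (k + 1) = nx (q k) := fun k => Function.iterate_succ_apply' _ _ _
    have hinj := T.injective_of_nonbacktracking (fun k => (q k).1) (fun k => a (q k))
      (fun k => by rw [hq]) (fun k => ha2 _) (fun k => by
        obtain ⟨y, hy, hj⟩ := ha1 (q k)
        obtain ⟨y', hy', hj'⟩ := ha1 (q (k + 1))
        have hyy : dist y y' ≤ 2 := by linarith [dist_triangle_right y y' x]
        obtain ⟨w, h3, h4, h5, h6⟩ := hcross _ _ _ _ _ _ hyy hj hj'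
        have h7 : (q (k + 1)).1 = T.mv (q k).1 (a (q k)) := by rw [hq]
        rw [← h6]
        rw [h7] at h5 ⊢
        exact (T.br_xor (ha2 _) h3 h5).1 h4)
    exact infinite_of_injective_forall_mem hinj (fun k => (q k).2.1) (hfin x)
  have hsame : ∀ x x' x'' : ℂ, dist x' x = 1 → dist x'' x = 1 → ∀ v ∈ S x,
      T.br v (s x') = T.br v (s x'') := by
    intro x x' x'' h' h'' v hv
    obtain ⟨δ₁, hδ₁, h1⟩ := hpartner x x' h'
    obtain ⟨δ₂, hδ₂, h2⟩ := hpartner x x'' h''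
    obtain ⟨y, j, hy, hj⟩ := hnear x v hv (min δ₁ δ₂) (lt_min hδ₁ hδ₂)
    rw [lt_min_iff] at hy
    obtain ⟨w₁, hw₁, -, h3⟩ := h1 y v j hy.1 hj
    obtain ⟨w₂, hw₂, -, h4⟩ := h2 y v j hy.2 hj
    rw [(hcn x').br_eq (hdisj x x' h' v hv) hw₁ (hs _),
      (hcn x'').br_eq (hdisj x x'' h'' v hv) hw₂ (hs _), h3, h4]
  have hmed : ∀ x y z : ℂ, dist x y = 1 → dist x z = 1 → dist y z = 1 →
      ∃ m, (m ∉ S x ∧ m ∉ S y ∧ m ∉ S z) ∧ T.br m (s x) ≠ T.br m (s y) ∧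
        T.br m (s x) ≠ T.br m (s z) ∧ T.br m (s y) ≠ T.br m (s z) := by
    intro x y z hxy hxz hyz
    have hyx : dist y x = 1 := by rwa [dist_comm]
    have hzx : dist z x = 1 := by rwa [dist_comm]
    have hzy : dist z y = 1 := by rwa [dist_comm]
    obtain ⟨m, h1, h2, h3⟩ := T.exists_median (s x) (s y) (s z)
    have key : ∀ x y z : ℂ, dist y x = 1 → dist z x = 1 → T.Sep m (s y) (s z) → m ∉ S x := by
      intro x y z hy hz h hm
      rcases h with h | h | h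
      · exact hdisj x y hy m hm (h ▸ hs y)
      · exact hdisj x z hz m hm (h ▸ hs z)
      · exact h (hsame x y z hy hz m hm)
    have hx := key x y z hyx hzx h3
    have hy := key y x z hxy hzy h2
    have hz := key z x y hxz hyz h1
    have hx' : s x ≠ m := fun h => hx (h ▸ hs x)
    have hy' : s y ≠ m := fun h => hy (h ▸ hs y)
    have hz' : s z ≠ m := fun h => hz (h ▸ hs z)
    exact ⟨m, ⟨hx, hy, hz⟩, (h1.resolve_left hx').resolve_left hy',
      (h2.resolve_left hx').resolve_left hz', (h3.resolve_left hy').resolve_left hz'⟩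
  -- the rotating triangle
  obtain ⟨g, hg⟩ : ∃ g : ℝ → ℂ, g = fun t : ℝ => ((√3)⁻¹ : ℝ) * exp (t * I) := ⟨_, rfl⟩
  have hgc : Continuous g := by
    rw [hg]
    fun_prop
  have hc1 : Real.cos (2 * Real.pi / 3) = -1 / 2 := by
    rw [show 2 * Real.pi / 3 = Real.pi - Real.pi / 3 by ring, Real.cos_pi_sub,
      Real.cos_pi_div_three]
    norm_num
  have hgd : ∀ α β, Real.cos (α - β) = -1 / 2 → dist (g α) (g β) = 1 := fun α β h => by
    rw [hg]
    exact dist_tri h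
  have htri := fun t : ℝ => hmed (g t) (g (t + 2 * Real.pi / 3)) (g (t - 2 * Real.pi / 3))
    (hgd _ _ (by rw [sub_add_cancel_left, Real.cos_neg, hc1]))
    (hgd _ _ (by rw [sub_sub_cancel, hc1]))
    (hgd _ _ (by
      rw [show t + 2 * Real.pi / 3 - (t - 2 * Real.pi / 3) = 2 * Real.pi - 2 * Real.pi / 3 by ring,
        Real.cos_two_pi_sub, hc1]))
  choose μ hμ1 hμ2 hμ3 hμ4 using htri
  have hlc : IsLocallyConstant fun t : ℝ => (μ t, T.br (μ t) (s (g t))) := by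
    rw [IsLocallyConstant.iff_eventually_eq]
    intro t
    have c1 : Continuous fun t : ℝ => g (t + 2 * Real.pi / 3) := by fun_prop
    have c2 : Continuous fun t : ℝ => g (t - 2 * Real.pi / 3) := by fun_prop
    filter_upwards [hgc.continuousAt.eventually (hsub (g t)),
      c1.continuousAt.eventually (hsub (g (t + 2 * Real.pi / 3))),
      c2.continuousAt.eventually (hsub (g (t - 2 * Real.pi / 3)))] with t' h1 h2 h3
    have e1 := (hcn _).br_eq (hμ1 t).1 (hs _) (h1 (hs _))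
    have e2 := (hcn _).br_eq (hμ1 t).2.1 (hs _) (h2 (hs _))
    have e3 := (hcn _).br_eq (hμ1 t).2.2 (hs _) (h3 (hs _))
    have h4 : μ t' = μ t := T.median_unique
      (fun h => (hμ1 t').1 (h ▸ hs _)) (fun h => (hμ1 t').2.1 (h ▸ hs _))
      (fun h => (hμ1 t').2.2 (h ▸ hs _)) (hμ2 t') (hμ3 t') (hμ4 t')
      (by rw [e1, e2]; exact hμ2 t) (by rw [e1, e3]; exact hμ3 t) (by rw [e2, e3]; exact hμ4 t)
    rw [h4, e1]
  have h1 := hlc.apply_eq_of_preconnectedSpace 0 (0 + 2 * Real.pi / 3)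
  rw [Prod.mk.injEq] at h1
  exact hμ2 0 (by rw [h1.2, ← h1.1])

end Vale.Agent.P032
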