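import Mathlib

/-! P032: the universal covering tree of a complete graph, given by moves and branch labels. -/

namespace Vale.Agent.P032

/-- A tree whose vertices carry labels, each vertex having one neighbour of every other label.
`br v w` is the label of the first step from `v` towards `w`. -/
structure Tr (α V : Type) where
  lab : V → α
  mv : V → α → V
  br : V → V → α
  root : V
  lab_mv : ∀ v j, lab (mv v j) = j
  mv_self : ∀ v, mv v (lab v) = v
  mv_mv : ∀ v j, mv (mv v j) (lab v) = v
  br_mv : ∀ v j, j ≠ lab v → br v (mv v j) = j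
  br_step : ∀ v w j, w ≠ v → mv w j ≠ v → br v (mv w j) = br v w
  conn : ∀ p : V → Prop, p root → (∀ w j, p w → p (mv w j)) → ∀ w, p w

section model

variable {α : Type} (r : α)

/-- Reduced words. -/
def Red : List α → Prop
  | [] => True
  | b :: l => Red l ∧ b ≠ l.headD r ∧ (l ≠ [] → b ≠ l.tail.headD r)

open Classical in
/-- Move on words. -/
noncomputable def mvL (l : List α) (j : α) : List α :=
  if j = l.headD r then l else if l ≠ [] ∧ j = l.tail.headD r then l.tail else j :: l

open Classical in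
/-- Branch label on words. -/
noncomputable def brL (v w : List α) : α :=
  if h : ∃ j, j :: v <:+ w then h.choose else v.tail.headD r

theorem suffix_unique {v w : List α} {j j' : α} (h : j :: v <:+ w) (h' : j' :: v <:+ w) :
    j = j' := by
  have h1 := List.suffix_of_suffix_length_le h h' (by simp)
  have h2 := h1.eq_of_length (by simp)
  simpa using h2

theorem brL_of_suffix {v w : List α} {j : α} (h : j :: v <:+ w) : brL r v w = j := by
  have h1 : ∃ j, j :: v <:+ w := ⟨j, h⟩
  rw [brL, dif_pos h1]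
  exact suffix_unique h1.choose_spec h

theorem brL_congr {v w w' : List α} (h : ∀ j, j :: v <:+ w ↔ j :: v <:+ w') :
    brL r v w = brL r v w' := by
  by_cases h1 : ∃ j, j :: v <:+ w
  · obtain ⟨j, hj⟩ := h1
    rw [brL_of_suffix r hj, brL_of_suffix r ((h j).1 hj)]
  · have h2 : ¬ ∃ j, j :: v <:+ w' := fun ⟨j, hj⟩ => h1 ⟨j, (h j).2 hj⟩
    rw [brL, brL, dif_neg h1, dif_neg h2]

theorem red_tail {l : List α} (h : Red r l) : Red r l.tail := by
  cases l with
  | nil => exact h
  | cons b l => exact h.1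

theorem red_mvL {l : List α} (h : Red r l) (j : α) : Red r (mvL r l j) := by
  unfold mvL
  split_ifs with h1 h2
  · exact h
  · exact red_tail r h
  · exact ⟨h, h1, fun h3 h4 => h2 ⟨h3, h4⟩⟩

theorem exists_tr (r : α) : ∃ V : Type, Nonempty (Tr α V) := by
  refine ⟨{l : List α // Red r l}, ⟨{
    lab := fun l => l.1.headD r
    mv := fun l j => ⟨mvL r l.1 j, red_mvL r l.2 j⟩
    br := fun v w => brL r v.1 w.1
    root := ⟨[], trivial⟩
    lab_mv := ?_
    mv_self := ?_
    mv_mv := ?_
    br_mv := ?_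
    br_step := ?_
    conn := ?_ }⟩⟩
  · rintro ⟨l, hl⟩ j
    simp only [mvL]
    split_ifs with h1 h2
    · exact h1.symm
    · exact h2.2.symm
    · rfl
  · rintro ⟨l, hl⟩
    simp only [mvL, if_true]
  · rintro ⟨l, hl⟩ j
    refine Subtype.ext ?_
    change mvL r (mvL r l j) (l.headD r) = l
    by_cases h1 : j = l.headD r
    · rw [mvL, mvL, if_pos h1, if_pos rfl]
    · by_cases h2 : l ≠ [] ∧ j = l.tail.headD r
      · have h3 : mvL r l j = l.tail := by rw [mvL, if_neg h1, if_pos h2]
        rw [h3]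
        cases l with
        | nil => exact absurd rfl h2.1
        | cons b l =>
          obtain ⟨-, h4, h5⟩ := hl
          simp only [List.tail_cons, List.headD_cons]
          rw [mvL, if_neg h4, if_neg fun h6 => h5 h6.1 h6.2]
      · have h3 : mvL r l j = j :: l := by rw [mvL, if_neg h1, if_neg h2]
        rw [h3, mvL, if_neg (fun h4 => h1 (by simpa using h4.symm)), if_pos (by simp)]
        rfl
  · rintro ⟨l, hl⟩ j h1
    change brL r l (mvL r l j) = j
    by_cases h2 : l ≠ [] ∧ j = l.tail.headD r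
    · have h3 : mvL r l j = l.tail := by rw [mvL, if_neg h1, if_pos h2]
      rw [h3, brL, dif_neg, h2.2]
      rintro ⟨i, hi⟩
      have := hi.length_le
      simp at this
      omega
    · have h3 : mvL r l j = j :: l := by rw [mvL, if_neg h1, if_neg h2]
      rw [h3]
      exact brL_of_suffix r (List.suffix_refl _)
  · rintro ⟨v, hv⟩ ⟨w, hw⟩ j h1 h2
    have h1' : w ≠ v := fun h => h1 (Subtype.ext h)
    have h2' : mvL r w j ≠ v := fun h => h2 (Subtype.ext h)
    refine brL_congr r fun i => ?_
    change i :: v <:+ mvL r w j ↔ i :: v <:+ w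
    unfold mvL at h2' ⊢
    split_ifs at h2' ⊢ with h3 h4
    · rfl
    · cases w with
      | nil => exact absurd rfl h4.1
      | cons b w =>
        simp only [List.tail_cons] at h2' ⊢
        rw [List.suffix_cons_iff]
        constructor
        · exact Or.inr
        · rintro (h5 | h5)
          · exact absurd (List.cons.inj h5).2.symm h2'
          · exact h5
    · rw [List.suffix_cons_iff]
      constructor
      · rintro (h5 | h5)
        · exact absurd (List.cons.inj h5).2.symm h1'
        · exact h5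
      · exact Or.inr
  · rintro p h0 hs ⟨w, hw⟩
    induction w with
    | nil => exact h0
    | cons b w ih =>
      have h1 := hs _ b (ih hw.1)
      have h2 : mvL r w b = b :: w := by
        rw [mvL, if_neg hw.2.1, if_neg fun h => hw.2.2 h.1 h.2]
      simp only [h2] at h1
      exact h1

end model

namespace Tr

variable {α V : Type} (T : Tr α V)

theorem ind_from (v : V) (p : V → Prop) (hv : p v) (hs : ∀ w j, p w → p (T.mv w j)) (w : V) :
    p w := by
  refine T.conn p ?_ hs w
  refine T.conn (fun w => p w → p T.root) id (fun w j h1 h2 => h1 ?_) v hv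
  simpa only [T.mv_mv] using hs _ (T.lab w) h2

theorem ne_lab_of_mv_ne {v : V} {j : α} (h : T.mv v j ≠ v) : j ≠ T.lab v := by
  rintro rfl
  exact h (T.mv_self v)

theorem mv_ne {v : V} {j : α} (h : j ≠ T.lab v) : T.mv v j ≠ v := fun h1 =>
  h (by rw [← T.lab_mv v j, h1])

theorem br_back {v : V} {j : α} (h : j ≠ T.lab v) : T.br (T.mv v j) v = T.lab v := by
  conv_lhs => rw [← T.mv_mv v j]
  rw [T.mv_mv v j]
  have := T.br_mv (T.mv v j) (T.lab v) (by rw [T.lab_mv]; exact h.symm)
  rwa [T.mv_mv] at this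

theorem br_ne {v w : V} (h : w ≠ v) : T.br v w ≠ T.lab v := by
  refine (T.ind_from v (fun w => w = v ∨ T.br v w ≠ T.lab v) (Or.inl rfl) ?_ w).resolve_left h
  intro w j hw
  by_cases h1 : T.mv w j = v
  · exact Or.inl h1
  right
  by_cases h2 : w = v
  · subst h2
    rw [T.br_mv _ _ (T.ne_lab_of_mv_ne h1)]
    exact T.ne_lab_of_mv_ne h1
  · rw [T.br_step v w j h2 h1]
    exact hw.resolve_left h2

theorem br_xor {v : V} {j : α} (h : j ≠ T.lab v) {t : V} (h1 : t ≠ v) (h2 : t ≠ T.mv v j) :
    T.br v t = j ↔ T.br (T.mv v j) t ≠ T.lab v := by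
  have key := T.ind_from v (fun t => t = v ∨ t = T.mv v j ∨
    (T.br v t = j ↔ T.br (T.mv v j) t ≠ T.lab v)) (Or.inl rfl) ?_ t
  · exact (key.resolve_left h1).resolve_left h2
  intro w i hw
  by_cases h3 : T.mv w i = v
  · exact Or.inl h3
  by_cases h4 : T.mv w i = T.mv v j
  · exact Or.inr (Or.inl h4)
  right
  right
  by_cases h5 : w = v
  · subst h5
    rw [T.br_mv _ _ (T.ne_lab_of_mv_ne h3), T.br_step _ _ _ (T.mv_ne h).symm h4, T.br_back h]
    constructor
    · rintro rfl
      exact absurd rfl h4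
    · intro h6
      exact absurd rfl h6
  by_cases h6 : w = T.mv v j
  · subst h6
    rw [T.br_step _ _ _ h5 h3, T.br_mv _ _ h, T.br_mv _ _ (T.ne_lab_of_mv_ne h4)]
    constructor
    · rintro - rfl
      exact h3 (T.mv_mv v j)
    · intro _
      rfl
  · rw [T.br_step _ _ _ h5 h3, T.br_step _ _ _ h6 h4]
    exact (hw.resolve_left h5).resolve_left h6

theorem br_far {m m' t : V} (hm : m ≠ m') (h1 : t ≠ m) (h2 : T.br m t ≠ T.br m m') :
    T.br m' t = T.br m' m := by
  have key := T.ind_from m (fun t => t = m ∨ T.br m t = T.br m m' ∨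
    (t ≠ m' ∧ T.br m' t = T.br m' m)) (Or.inl rfl) ?_ t
  · exact ((key.resolve_left h1).resolve_left h2).2
  intro w i hw
  by_cases h3 : T.mv w i = m
  · exact Or.inl h3
  by_cases h4 : T.br m (T.mv w i) = T.br m m'
  · exact Or.inr (Or.inl h4)
  have h5 : T.mv w i ≠ m' := fun h => h4 (by rw [h])
  refine Or.inr (Or.inr ⟨h5, ?_⟩)
  by_cases h6 : w = m
  · subst h6
    exact T.br_step _ _ _ hm h5
  · rw [T.br_step _ _ _ h6 h3] at h4
    obtain ⟨h7, h8⟩ := (hw.resolve_left h6).resolve_left h4
    rw [T.br_step _ _ _ h7 h5, h8]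

/-- Connected sets of vertices. -/
def Cn (S : Set V) : Prop :=
  ∀ p : V → Prop, ∀ v ∈ S, p v → (∀ w ∈ S, ∀ j, T.mv w j ∈ S → p w → p (T.mv w j)) → ∀ w ∈ S, p w

theorem Cn.br_eq {T : Tr α V} {S : Set V} (hS : T.Cn S) {m : V} (hm : m ∉ S) {w w' : V}
    (hw : w ∈ S) (hw' : w' ∈ S) : T.br m w' = T.br m w := by
  refine hS (fun t => T.br m t = T.br m w) w hw rfl (fun t ht j hj h => ?_) w' hw'
  rw [T.br_step m t j (fun h1 => hm (h1 ▸ ht)) (fun h1 => hm (h1 ▸ hj)), h]

theorem Cn.mv_mem {T : Tr α V} {S : Set V} (hS : T.Cn S) {q t : V} (hq : q ∈ S) (ht : t ∈ S)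
    (h : t ≠ q) : T.mv q (T.br q t) ∈ S := by
  refine (hS (fun t => t = q ∨ T.mv q (T.br q t) ∈ S) q hq (Or.inl rfl)
    (fun w _ j hj hw => ?_) t ht).resolve_left h
  by_cases h1 : T.mv w j = q
  · exact Or.inl h1
  right
  by_cases h2 : w = q
  · subst h2
    rwa [T.br_mv _ _ (T.ne_lab_of_mv_ne h1)]
  · rw [T.br_step _ _ _ h2 h1]
    exact hw.resolve_left h2

theorem injective_of_nonbacktracking (q : ℕ → V) (a : ℕ → α)
    (hq : ∀ n, q (n + 1) = T.mv (q n) (a n)) (h1 : ∀ n, a n ≠ T.lab (q n))
    (h2 : ∀ n, a (n + 1) ≠ T.lab (q n)) : Function.Injective q := by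
  have key : ∀ n, ∀ m ≤ n, q m ≠ q (n + 1) ∧ T.br (q (n + 1)) (q m) = T.lab (q n) := by
    intro n
    induction n with
    | zero =>
      intro m hm
      obtain rfl : m = 0 := by omega
      rw [hq 0]
      exact ⟨(T.mv_ne (h1 0)).symm, T.br_back (h1 0)⟩
    | succ n ih =>
      have hne : ∀ m ≤ n + 1, q m ≠ q (n + 1 + 1) := by
        intro m hm h
        rcases hm.eq_or_lt with rfl | hm
        · rw [hq (n + 1)] at h
          exact T.mv_ne (h1 (n + 1)) h.symm
        · have h3 := (ih m (by omega)).2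
          rw [h, hq (n + 1), T.br_mv _ _ (h1 (n + 1))] at h3
          exact h2 n h3
      have hbr : ∀ m ≤ n + 1, T.br (q (n + 1 + 1)) (q m) = T.br (q (n + 1 + 1)) (q 0) := by
        intro m
        induction m with
        | zero => exact fun _ => rfl
        | succ m ihm =>
          intro hm
          rw [← ihm (by omega), hq m]
          exact T.br_step _ _ _ (hne m (by omega)) (hq m ▸ hne (m + 1) hm)
      intro m hm
      refine ⟨hne m hm, ?_⟩
      rw [hbr m hm, ← hbr (n + 1) le_rfl, hq (n + 1)]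
      exact T.br_back (h1 (n + 1))
  refine Function.Injective.of_lt_imp_ne fun m n hmn => ?_
  obtain ⟨n, rfl⟩ := Nat.exists_eq_succ_of_ne_zero (show n ≠ 0 by omega)
  exact (key n m (by omega)).1

/-- `m` separates `a` from `b` weakly. -/
def Sep (m a b : V) : Prop := a = m ∨ b = m ∨ T.br m a ≠ T.br m b

theorem Sep.symm {T : Tr α V} {m a b : V} (h : T.Sep m a b) : T.Sep m b a := by
  rcases h with h | h | h
  · exact Or.inr (Or.inl h)
  · exact Or.inl h
  · exact Or.inr (Or.inr h.symm)

theorem exists_median (a b c : V) : ∃ m, T.Sep m a b ∧ T.Sep m a c ∧ T.Sep m b c := by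
  refine T.ind_from a (fun c => ∃ m, T.Sep m a b ∧ T.Sep m a c ∧ T.Sep m b c)
    ⟨a, Or.inl rfl, Or.inl rfl, Or.inr (Or.inl rfl)⟩ ?_ c
  rintro c j ⟨m, hab, hac, hbc⟩
  by_cases h1 : T.mv c j = m
  · exact ⟨m, hab, Or.inr (Or.inl h1), Or.inr (Or.inl h1)⟩
  by_cases h2 : c = m
  · subst h2
    have hj := T.ne_lab_of_mv_ne h1
    have key : ∀ a b, T.Sep c a b → a ≠ c → T.br c a = j → T.Sep (T.mv c j) a b := by
      intro a b hab ha hj'
      by_cases h3 : a = T.mv c j
      · exact Or.inl h3
      by_cases h4 : b = T.mv c j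
      · exact Or.inr (Or.inl h4)
      refine Or.inr (Or.inr ?_)
      have h5 := (T.br_xor hj ha h3).1 hj'
      by_cases h6 : b = c
      · rwa [h6, T.br_back hj]
      · have h7 := (hab.resolve_left ha).resolve_left h6
        rw [hj'] at h7
        have h8 : T.br (T.mv c j) b = T.lab c := by
          by_contra h9
          exact h7 ((T.br_xor hj h6 h4).2 h9).symm
        rwa [h8]
    by_cases h3 : a ≠ c ∧ T.br c a = j
    · exact ⟨T.mv c j, key a b hab h3.1 h3.2, Or.inr (Or.inl rfl), Or.inr (Or.inl rfl)⟩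
    by_cases h4 : b ≠ c ∧ T.br c b = j
    · exact ⟨T.mv c j, (key b a hab.symm h4.1 h4.2).symm, Or.inr (Or.inl rfl),
        Or.inr (Or.inl rfl)⟩
    refine ⟨c, hab, ?_, ?_⟩
    · by_cases h5 : a = c
      · exact Or.inl h5
      · refine Or.inr (Or.inr ?_)
        rw [T.br_mv _ _ hj]
        exact fun h6 => h3 ⟨h5, h6⟩
    · by_cases h5 : b = c
      · exact Or.inl h5
      · refine Or.inr (Or.inr ?_)
        rw [T.br_mv _ _ hj]
        exact fun h6 => h4 ⟨h5, h6⟩
  · have h3 := T.br_step m c j h2 h1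
    refine ⟨m, hab, ?_, ?_⟩
    · rcases hac with h | h | h
      · exact Or.inl h
      · exact absurd h h2
      · exact Or.inr (Or.inr (h3 ▸ h))
    · rcases hbc with h | h | h
      · exact Or.inl h
      · exact absurd h h2
      · exact Or.inr (Or.inr (h3 ▸ h))

theorem median_unique {a b c m m' : V} (ha : a ≠ m) (hb : b ≠ m) (hc : c ≠ m)
    (hab : T.br m a ≠ T.br m b) (hac : T.br m a ≠ T.br m c) (hbc : T.br m b ≠ T.br m c)
    (hab' : T.br m' a ≠ T.br m' b) (hac' : T.br m' a ≠ T.br m' c) (hbc' : T.br m' b ≠ T.br m' c) :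
    m = m' := by
  by_contra hm
  by_cases h1 : T.br m a = T.br m m'
  · exact hbc' ((T.br_far hm hb (h1 ▸ hab.symm)).trans (T.br_far hm hc (h1 ▸ hac.symm)).symm)
  by_cases h2 : T.br m b = T.br m m'
  · exact hac' ((T.br_far hm ha h1).trans (T.br_far hm hc (h2 ▸ hbc.symm)).symm)
  · exact hab' ((T.br_far hm ha h1).trans (T.br_far hm hb h2).symm)

/-- End point of the lift of a walk. -/
def wend {G : SimpleGraph α} : {a b : α} → G.Walk a b → V → V
  | _, _, .nil, v => v
  | _, _, .cons (v := c) _ p, v => wend p (T.mv v c)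

theorem wend_append {G : SimpleGraph α} {a b c : α} (p : G.Walk a b) (q : G.Walk b c) (v : V) :
    T.wend (p.append q) v = T.wend q (T.wend p v) := by
  induction p generalizing v with
  | nil => rfl
  | cons h p ih => exact ih q _

theorem lab_wend {G : SimpleGraph α} {a b : α} (p : G.Walk a b) (v : V) (hv : T.lab v = a) :
    T.lab (T.wend p v) = b := by
  induction p generalizing v with
  | nil => exact hv
  | cons h p ih => exact ih _ (T.lab_mv _ _)

/-- A forest lifts to the tree, with a prescribed value at one vertex. -/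
theorem exists_lift {G : SimpleGraph α} (hG : G.IsAcyclic) (a : α) (v : V) (hv : T.lab v = a) :
    ∃ ι : α → V, ι a = v ∧ (∀ b, G.Reachable a b → T.lab (ι b) = b) ∧
      ∀ b c, G.Reachable a b → G.Adj b c → ι c = T.mv (ι b) c := by
  classical
  let ι : α → V := fun b => if h : G.Reachable a b then T.wend h.some.bypass v else v
  have hι : ∀ b (p : G.Walk a b), p.IsPath → ι b = T.wend p v := by
    intro b p hp
    have h : G.Reachable a b := ⟨p⟩
    simp only [ι, dif_pos h]
    have := (hG.subsingleton_path a b).elim ⟨h.some.bypass, h.some.bypass_isPath⟩ ⟨p, hp⟩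
    rw [show h.some.bypass = p from congrArg Subtype.val this]
  refine ⟨ι, hι a .nil (by simp), fun b hb => ?_, fun b c hb hbc => ?_⟩
  · rw [hι b _ hb.some.bypass_isPath]
    exact T.lab_wend _ _ hv
  · obtain ⟨p, hp⟩ : ∃ p : G.Walk a b, p.IsPath := ⟨_, hb.some.bypass_isPath⟩
    by_cases hc : c ∈ p.support
    · have h1 := (hG.subsingleton_path c b).elim ⟨p.dropUntil c hc, hp.dropUntil hc⟩
        ⟨.cons hbc.symm .nil, by simp [hbc.ne']⟩
      have h2 : p.dropUntil c hc = .cons hbc.symm .nil := congrArg Subtype.val h1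
      have h3 := hι c _ (hp.takeUntil hc)
      have h4 := hι b p hp
      rw [← p.take_spec hc, T.wend_append, h2, ← h3] at h4
      have h5 : T.lab (ι c) = c := by
        rw [h3]
        exact T.lab_wend _ _ hv
      have h6 : ι b = T.mv (ι c) b := h4
      have h7 := T.mv_mv (ι c) b
      rw [h5] at h7
      rw [h6, h7]
    · have h1 : (p.concat hbc).IsPath := hp.concat hc hbc
      rw [hι c _ h1, hι b p hp, SimpleGraph.Walk.concat, T.wend_append]
      rfl

end Tr

end Vale.Agent.P032
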