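import Vale.Agent.P032.Transfer
import Vale.Agent.P032.Meas

/-! P032: from the exclusion of open dense unit-avoiding families to the statement about arbitrary
colourings of the Euclidean plane. -/

namespace Vale.Agent.P032

open MeasureTheory

theorem exists_pair_of_open
    (H : ∀ O : Fin 5 → Set ℂ, (∀ i, IsOpen (O i)) →
      (∀ i, ∀ x ∈ O i, ∀ y ∈ O i, dist x y ≠ 1) → Dense (⋃ i, O i) → False)
    (c : EuclideanSpace ℝ (Fin 2) → Fin 5) : ∃ x y, ‖x - y‖ = 1 ∧ c x = c y := by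
  by_contra h
  push Not at h
  let e := Complex.orthonormalBasisOneI.repr
  obtain ⟨A, hA, hc, hav⟩ := weak_of_proper (fun z => c (e z)) fun x y hxy =>
    h _ _ (by rw [← map_sub, LinearIsometryEquiv.norm_map, ← dist_eq_norm, hxy])
  obtain ⟨O, h1, h2, h3⟩ := open_of_meas A hA hc hav
  exact H O h1 h2 h3

theorem six_le_of_pair (G : SimpleGraph (EuclideanSpace ℝ (Fin 2)))
    (hG : ∀ x y, G.Adj x y ↔ ‖x - y‖ = 1)
    (H : ∀ c : EuclideanSpace ℝ (Fin 2) → Fin 5, ∃ x y, ‖x - y‖ = 1 ∧ c x = c y) :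
    6 ≤ G.chromaticNumber := by
  by_contra h
  have h1 : G.chromaticNumber ≤ (5 : ℕ) := by
    have : G.chromaticNumber < ((5 : ℕ) : ℕ∞) + 1 := by
      push Not at h
      exact_mod_cast h
    exact Order.le_of_lt_add_one this
  obtain ⟨C⟩ := SimpleGraph.chromaticNumber_le_iff_colorable.1 h1
  obtain ⟨x, y, hxy, hc⟩ := H C
  exact C.valid ((hG x y).2 hxy) hc

end Vale.Agent.P032
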